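import Crest.Statements.S0046
import Crest.Agent.Ryser.Final
import Crest.Agent.Ryser.Deduce
import Crest.Agent.Ryser.NTPrime
import Crest.Agent.Ryser.NTPow

set_option autoImplicit false
open Crest Crest.CombinatoricsR

namespace Crest.Agent.S0046

/-- There is s₀ such that for each prime s ≥ s₀ with s ≡ 2 (mod 3) there is n₀ ≥ 3 such that for every odd n ≥ n₀, writing q = s ^ n, there is a finite intersecting (q+1)-partite (q+1)-uniform hypergraph (vertices Fin N labelled by q+1 parts; a nonempty family of edges, each meeting every part in exactly one vertex; any two edges share a vertex) where every set of vertices meeting all edges has at least q+1 elements, so that its covering number is q+1 and not the q of Ryser's conjectured bound. -/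
theorem result :
    ∃ s₀ : ℕ, ∀ s : ℕ, s₀ ≤ s → s.Prime → s % 3 = 2 →
      ∃ n₀ : ℕ, 3 ≤ n₀ ∧ ∀ n : ℕ, n₀ ≤ n → Odd n →
        ∃ (N : ℕ) (part : Fin N → Fin (s ^ n + 1)) (E : Finset (Finset (Fin N))),
          E.Nonempty ∧
          (∀ e ∈ E, ∀ i : Fin (s ^ n + 1), (e.filter (fun v => part v = i)).card = 1) ∧
          (∀ e ∈ E, ∀ f ∈ E, (e ∩ f).Nonempty) ∧
          (∀ S : Finset (Fin N), (∀ e ∈ E, (e ∩ S).Nonempty) → s ^ n + 1 ≤ S.card) := by
  classical
  obtain ⟨M, q₀, h⟩ := Crest.Agent.Ryser.gadget_exists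
  obtain ⟨s₁, h₁⟩ := Crest.Agent.Ryser.layout_pow M
  refine ⟨q₀ + s₁ + 5, fun s hs hp _ => ?_⟩
  have : Fact s.Prime := ⟨hp⟩
  obtain ⟨n₀, h₂⟩ := h₁ s (by omega)
  refine ⟨n₀ + 3, by omega, fun n hn _ => ?_⟩
  have := Fintype.ofFinite (GaloisField s n)
  obtain ⟨L⟩ := h₂ n (by omega)
  have hc : Fintype.card (GaloisField s n) = s ^ n := by
    rw [← Nat.card_eq_fintype_card, GaloisField.card s n (by omega)]
  have hs' : s ≤ s ^ n := Nat.le_self_pow (by omega) s
  have h2 : (2 : GaloisField s n) ≠ 0 := fun h => by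
    have := Nat.le_of_dvd two_pos ((CharP.cast_eq_zero_iff (GaloisField s n) s 2).mp
      (by exact_mod_cast h))
    omega
  obtain ⟨G⟩ := h (GaloisField s n) h2 (by omega) L
  have := G.concl (by omega)
  rw [hc] at this
  obtain ⟨N, part, E, a1, a2, a3, -, -, a4⟩ := this
  exact ⟨N, part, E, a1, a2, a3, a4⟩

end Crest.Agent.S0046
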