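import Crest.Statements.S0047
import Crest.Agent.Snaky.R10
import Crest.Agent.Snaky.R11
import Crest.Agent.Snaky.R20
import Crest.Agent.Snaky.R21
import Crest.Agent.Snaky.R22
import Crest.Agent.Snaky.RW

set_option autoImplicit false
open Crest Crest.CombinatoricsR

namespace Crest.Agent.S0047

open Crest.Agent.Snaky in
theorem roots (a b : ℤ) (hb : 0 ≤ b) (hab : b ≤ a) : G 20 {(0, 0)} {(a, b)} := by
  by_cases h3 : 3 ≤ a
  · refine root_use (ox := 13) (oy := 7) rw (by norm_num) (by decide +kernel) _ ?_
    intro c hc h
    simp only [cell, Prod.mk.injEq] at h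
    omega
  · have ha : a = 0 ∨ a = 1 ∨ a = 2 := by omega
    have hb' : b = 0 ∨ b = 1 ∨ b = 2 := by omega
    rcases ha with rfl | rfl | rfl <;> rcases hb' with rfl | rfl | rfl <;>
      first
      | omega
      | skip
    · refine root_use (ox := 8) (oy := 7) r10 (by norm_num) (by decide +kernel) _ ?_
      intro c hc h
      simp only [cell, Prod.mk.injEq] at h
      obtain rfl : c = 16 * 7 + 8 := by omega
      decide +kernel
    · refine root_use (ox := 8) (oy := 7) r10 (by norm_num) (by decide +kernel) _ ?_
      intro c hc h
      simp only [cell, Prod.mk.injEq] at h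
      obtain rfl : c = 16 * 7 + 9 := by omega
      decide +kernel
    · refine root_use (ox := 8) (oy := 8) r11 (by norm_num) (by decide +kernel) _ ?_
      intro c hc h
      simp only [cell, Prod.mk.injEq] at h
      obtain rfl : c = 16 * 9 + 9 := by omega
      decide +kernel
    · refine root_use (ox := 8) (oy := 7) r20 (by norm_num) (by decide +kernel) _ ?_
      intro c hc h
      simp only [cell, Prod.mk.injEq] at h
      obtain rfl : c = 16 * 7 + 10 := by omega
      decide +kernel
    · refine root_use (ox := 8) (oy := 8) r21 (by norm_num) (by decide +kernel) _ ?_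
      intro c hc h
      simp only [cell, Prod.mk.injEq] at h
      obtain rfl : c = 16 * 9 + 10 := by omega
      decide +kernel
    · refine root_use (ox := 8) (oy := 8) r22 (by norm_num) (by decide +kernel) _ ?_
      intro c hc h
      simp only [cell, Prod.mk.injEq] at h
      obtain rfl : c = 16 * 10 + 10 := by omega
      decide +kernel

/-- In the Maker–Breaker game on the board ℤ × ℤ (Maker first; the players alternately claim one unclaimed cell), Maker has a policy — a rule giving its next cell from Breaker's replies so far — such that against every sequence of Breaker replies whose first 20 are legal (each a cell not claimed before), Maker's first 21 claims are legal and contain a copy of the six-cell polyomino Snaky {(0,0),(1,0),(2,0),(3,0),(3,1),(4,1)} under a translation composed with a signed coordinate permutation. -/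
theorem result :
    ∃ σ : List (ℤ × ℤ) → ℤ × ℤ, ∀ b : ℕ → ℤ × ℤ,
      (∀ k : ℕ, k < 20 →
        (∀ j : ℕ, j ≤ k → b k ≠ Crest.CombinatoricsR.PolyominoGame.makerClaim σ b j) ∧
        (∀ j : ℕ, j < k → b k ≠ b j)) →
      (∀ k : ℕ, k ≤ 20 →
        (∀ j : ℕ, j < k → Crest.CombinatoricsR.PolyominoGame.makerClaim σ b k ≠
          Crest.CombinatoricsR.PolyominoGame.makerClaim σ b j) ∧
        (∀ j : ℕ, j < k → Crest.CombinatoricsR.PolyominoGame.makerClaim σ b k ≠ b j)) ∧
      Crest.CombinatoricsR.PolyominoGame.ContainsCopy
        {c | ∃ j : ℕ, j ≤ 20 ∧ c = Crest.CombinatoricsR.PolyominoGame.makerClaim σ b j} := by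
  exact ⟨Crest.Agent.Snaky.pol, fun b _ =>
    Crest.Agent.Snaky.final (Crest.Agent.Snaky.G_root roots) b⟩

end Crest.Agent.S0047
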