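import Crest.Statements.S0066
import Crest.Agent.OrdMat.Count

set_option autoImplicit false
open Crest Crest.CombinatoricsR

namespace Crest.Agent.S0066

/-- There is a fixed 66 × 66 binary pattern H such that for every h ≥ 1, with n = (386h + 2) · 2^h and ε = (386h + 2)⁻², some n × n binary matrix A is ε-far from free of ordered copies of H (every n × n binary matrix without an ordered copy of H differs from A in at least ε · n² cells) while the number of ordered copies of H in A is at most ε · 2^(-h) · n^132. An ordered copy picks 66 rows and 66 columns in increasing order on which A coincides with H, zeros included. -/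
theorem result :
    ∃ H : Fin 66 → Fin 66 → Bool, ∀ h : ℕ, 1 ≤ h →
      ∃ A : Fin ((386 * h + 2) * 2 ^ h) → Fin ((386 * h + 2) * 2 ^ h) → Bool,
        (∀ B : Fin ((386 * h + 2) * 2 ^ h) → Fin ((386 * h + 2) * 2 ^ h) → Bool,
          Crest.CombinatoricsR.OrderedMatrix.orderedCopyCount H B = 0 →
            ((386 * (h : ℝ) + 2) ^ 2)⁻¹ * (((386 * h + 2) * 2 ^ h : ℕ) : ℝ) ^ 2 ≤
              ((Finset.univ.filter (fun rc : Fin ((386 * h + 2) * 2 ^ h) × Fin ((386 * h + 2) * 2 ^ h) =>
                A rc.1 rc.2 ≠ B rc.1 rc.2)).card : ℝ)) ∧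
        (Crest.CombinatoricsR.OrderedMatrix.orderedCopyCount H A : ℝ) /
            (((386 * h + 2) * 2 ^ h : ℕ) : ℝ) ^ 132 ≤
          ((386 * (h : ℝ) + 2) ^ 2)⁻¹ * (2 : ℝ)⁻¹ ^ h := by
  classical
  refine ⟨OrdMat.H, fun h hh => ?_⟩
  let e : Fin ((386 * h + 2) * 2 ^ h) ≃o OrdMat.D h :=
    Fintype.orderIsoFinOfCardEq (OrdMat.D h) (OrdMat.card_D h)
  refine ⟨fun x y => decide (OrdMat.A (e x) (e y)), ?_, ?_⟩
  · intro B hB
    have hfar := OrdMat.far hh (fun x y => B (e.symm x) (e.symm y) = true) (by
      rintro ⟨r, c, h1, h2, h3⟩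
      unfold OrderedMatrix.orderedCopyCount at hB
      rw [Fintype.card_eq_zero_iff] at hB
      refine hB.false ⟨(fun i => e.symm (r i), fun j => e.symm (c j)),
        e.symm.strictMono.comp h1, e.symm.strictMono.comp h2, fun i j => ?_⟩
      have := h3 i j
      unfold OrdMat.H
      by_cases hc : OrdMat.Hn i j
      · rw [decide_eq_true hc]; exact this.2 hc
      · rw [decide_eq_false hc]
        exact Bool.eq_false_iff.2 fun q => hc (this.1 q))
    have hle : (Finset.univ.filter fun p : OrdMat.D h × OrdMat.D h =>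
        ¬ (B (e.symm p.1) (e.symm p.2) = true ↔ OrdMat.A p.1 p.2)).card ≤
        (Finset.univ.filter (fun rc : Fin ((386 * h + 2) * 2 ^ h) × Fin ((386 * h + 2) * 2 ^ h) =>
          decide (OrdMat.A (e rc.1) (e rc.2)) ≠ B rc.1 rc.2)).card := by
      refine Finset.card_le_card_of_injOn (fun p => (e.symm p.1, e.symm p.2)) ?_ ?_
      · intro p hp
        simp only [Finset.coe_filter, Finset.mem_univ, true_and, Set.mem_ofPred_eq,
          OrderIso.apply_symm_apply] at hp ⊢
        intro q
        apply hp
        rw [← q]; simp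
      · intro p _ q _ hpq
        simp only [Prod.mk.injEq, EmbeddingLike.apply_eq_iff_eq] at hpq
        exact Prod.ext hpq.1 hpq.2
    have h3 := Nat.le_trans hfar (by convert hle)
    have h4 : ((2 ^ h * 2 ^ h : ℕ) : ℝ) ≤ _ := Nat.cast_le.2 h3
    refine le_trans (le_of_eq ?_) h4
    have hm : (386 * (h : ℝ) + 2) ≠ 0 := by positivity
    push_cast
    field_simp
  · have hcount : OrderedMatrix.orderedCopyCount OrdMat.H
        (fun x y => decide (OrdMat.A (e x) (e y))) ≤
        2 ^ h * Fintype.card (OrdMat.D h) ^ 130 := by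
      unfold OrderedMatrix.orderedCopyCount
      rw [Fintype.card_subtype]
      rw [← Finset.card_image_of_injective _
        (f := fun p : (Fin 66 → Fin ((386 * h + 2) * 2 ^ h)) × (Fin 66 → Fin ((386 * h + 2) * 2 ^ h)) =>
          ((fun i => e (p.1 i), fun i => e (p.2 i)) :
            (Fin 66 → OrdMat.D h) × (Fin 66 → OrdMat.D h)))]
      · apply OrdMat.count_le hh
        intro p hp
        rw [Finset.mem_image] at hp
        obtain ⟨q, hq, rfl⟩ := hp
        rw [Finset.mem_filter] at hq
        obtain ⟨-, h1, h2, h3⟩ := hq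
        refine ⟨e.strictMono.comp h1, e.strictMono.comp h2, fun i j => ?_⟩
        have := h3 i j
        unfold OrdMat.H at this
        exact decide_eq_decide.1 this
      · intro p q hpq
        simp only [Prod.mk.injEq] at hpq
        refine Prod.ext (funext fun i => e.injective (congrFun hpq.1 i))
          (funext fun i => e.injective (congrFun hpq.2 i))
    rw [OrdMat.card_D] at hcount
    have h4 : (_ : ℝ) ≤ ((2 ^ h * ((386 * h + 2) * 2 ^ h) ^ 130 : ℕ) : ℝ) := Nat.cast_le.2 hcount
    have hpos : (0 : ℝ) < (((386 * h + 2) * 2 ^ h : ℕ) : ℝ) ^ 132 := by positivity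
    rw [div_le_iff₀ hpos]
    refine h4.trans (le_of_eq ?_)
    have key : ∀ m N : ℝ, m ≠ 0 → N ≠ 0 → N * (m * N) ^ 130 = (m ^ 2)⁻¹ * N⁻¹ * (m * N) ^ 132 := by
      intro m N hm hN
      field_simp
    have hm : (386 * (h : ℝ) + 2) ≠ 0 := by positivity
    have hN : (2 : ℝ) ^ h ≠ 0 := by positivity
    have := key _ _ hm hN
    rw [inv_pow]
    exact_mod_cast this

end Crest.Agent.S0066
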