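import Crest.Statements.S0076
import Crest.Agent.KK2.Dbl
import Crest.Agent.KK2.PP

set_option autoImplicit false
set_option linter.unusedSectionVars false
set_option linter.unusedVariables false
open Crest Crest.CombinatoricsR

namespace Crest.Agent.KK2
open Finset Crest.Agent.Tal Crest.CombinatoricsR.RandomGraph Pointwise

variable {n : ℕ}

/-- relabelling acts on the coin positions -/
instance slotAction (n : ℕ) : MulAction (Equiv.Perm (Fin n)) (EdgeSlot n) where
  smul g z := ⟨z.1.map g, fun h => z.2 ((Sym2.isDiag_map g.injective).mp h)⟩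
  one_smul z := Subtype.ext (by
    change z.1.map (1 : Equiv.Perm (Fin n)) = z.1
    simp)
  mul_smul g k z := Subtype.ext (by
    change z.1.map (g * k : Equiv.Perm (Fin n)) = (z.1.map k).map g
    rw [Sym2.map_map]; rfl)

lemma smul_val (g : Equiv.Perm (Fin n)) (z : EdgeSlot n) : (g • z).1 = z.1.map g := rfl

lemma graphOf_adj_iff (ω : EdgeSlot n → Bool) (u v : Fin n) :
    (graphOf ω).Adj u v ↔ ∃ z : EdgeSlot n, z.1 = s(u, v) ∧ ω z = true := by
  unfold graphOf
  rw [SimpleGraph.fromEdgeSet_adj]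
  constructor
  · rintro ⟨⟨h1, h2⟩, -⟩; exact ⟨⟨_, h1⟩, rfl, h2⟩
  · rintro ⟨⟨z, hz⟩, rfl, h2⟩
    exact ⟨⟨hz, h2⟩, by simpa using hz⟩

variable {W : Type} [Fintype W] [DecidableEq W]

/-- the edge set of the image of `H` -/
noncomputable def img (H : SimpleGraph W) (φ : W ↪ Fin n) : Finset (EdgeSlot n) := by
  classical exact univ.filter (fun z => ∃ u v, H.Adj u v ∧ z.1 = s(φ u, φ v))

lemma mem_img {H : SimpleGraph W} {φ : W ↪ Fin n} {z : EdgeSlot n} :
    z ∈ img H φ ↔ ∃ u v, H.Adj u v ∧ z.1 = s(φ u, φ v) := by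
  simp [img]

lemma card_img (H : SimpleGraph W) [DecidableRel H.Adj] (φ : W ↪ Fin n) :
    (img H φ).card ≤ H.edgeFinset.card := by
  rw [← Finset.card_image_of_injective _ Subtype.val_injective]
  refine le_trans (Finset.card_le_card (t := H.edgeFinset.image (Sym2.map φ)) ?_)
    Finset.card_image_le
  intro e he
  obtain ⟨z, hz, rfl⟩ := Finset.mem_image.mp he
  obtain ⟨u, v, huv, h⟩ := mem_img.mp hz
  exact Finset.mem_image.mpr ⟨s(u, v), by simpa using huv, by rw [h]; simp⟩

lemma contained_of {H : SimpleGraph W} {φ : W ↪ Fin n} (g : Equiv.Perm (Fin n))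
    {ω : EdgeSlot n → Bool} (h : ∀ z ∈ g • img H φ, ω z = true) : H.IsContained (graphOf ω) := by
  refine ⟨⟨⟨fun u => g (φ u), fun {u v} huv => ?_⟩, g.injective.comp φ.injective⟩⟩
  have h1 : ¬ (s(φ u, φ v)).IsDiag := by simpa using huv.ne
  exact (graphOf_adj_iff ω _ _).mpr ⟨g • ⟨_, h1⟩, by rw [smul_val]; simp,
    h _ (Finset.smul_mem_smul_finset (mem_img.mpr ⟨u, v, huv, rfl⟩))⟩

/-- the subgraph spanned by a set of edges of the image -/
def sub (H : SimpleGraph W) (φ : W ↪ Fin n) (I : Finset (EdgeSlot n)) : H.Subgraph where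
  verts := {u | ∃ v, H.Adj u v ∧ ∃ z ∈ I, z.1 = s(φ u, φ v)}
  Adj u v := H.Adj u v ∧ ∃ z ∈ I, z.1 = s(φ u, φ v)
  adj_sub h := h.1
  edge_vert h := ⟨_, h⟩
  symm := ⟨fun u v h => ⟨h.1.symm, by rw [Sym2.eq_swap]; exact h.2⟩⟩

lemma copyCount_le {H : SimpleGraph W} {φ : W ↪ Fin n} {I : Finset (EdgeSlot n)}
    (hI : I ⊆ img H φ) (ω : EdgeSlot n → Bool) :
    (((graphOf ω).copyCount (sub H φ I).coe : ℕ) : ℝ) ≤
      ∑ J ∈ orb (Equiv.Perm (Fin n)) I, ind (∀ z ∈ J, ω z = true) := by
  classical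
  rw [sum_ind_eq_card, SimpleGraph.copyCount]
  have key : ∀ G' : (graphOf ω).Subgraph, Nonempty ((sub H φ I).coe ≃g G'.coe) →
      (∃ g : Equiv.Perm (Fin n), ∀ z : EdgeSlot n, z ∈ g • I ↔ z.1 ∈ G'.edgeSet) ∧
        ∀ x, x ∈ G'.verts ↔ ∃ y, G'.Adj x y := by
    rintro G' ⟨e⟩
    obtain ⟨g, hg⟩ := Equiv.Perm.exists_extending_pair
      (fun u : (sub H φ I).verts => φ u.1) (fun u => (e u).1)
      (φ.injective.comp Subtype.val_injective) (Subtype.val_injective.comp e.injective)
    refine ⟨⟨g, fun z => ⟨fun hz => ?_, fun hz => ?_⟩⟩, fun x => ⟨fun hx => ?_, ?_⟩⟩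
    · obtain ⟨y, hy, rfl⟩ := Finset.mem_smul_finset.mp hz
      obtain ⟨u, v, huv, h⟩ := mem_img.mp (hI hy)
      have a1 : (sub H φ I).Adj u v := ⟨huv, y, hy, h⟩
      have a2 := (e.map_adj_iff (v := ⟨u, a1.fst_mem⟩) (w := ⟨v, a1.snd_mem⟩)).mpr a1
      rw [smul_val, h, Sym2.map_mk, hg ⟨u, a1.fst_mem⟩, hg ⟨v, a1.snd_mem⟩]
      exact a2
    · obtain ⟨z, hz0⟩ := z
      induction z using Sym2.ind with
      | _ x y =>
        have a0 : G'.Adj x y := hz
        obtain ⟨u, hu⟩ := e.surjective ⟨x, a0.fst_mem⟩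
        obtain ⟨v, hv⟩ := e.surjective ⟨y, a0.snd_mem⟩
        have a1 : G'.coe.Adj (e u) (e v) := by rw [hu, hv]; exact a0
        obtain ⟨-, w, hw, h⟩ := e.map_adj_iff.mp a1
        refine Finset.mem_smul_finset.mpr ⟨w, hw, Subtype.ext ?_⟩
        rw [smul_val, h, Sym2.map_mk, hg u, hg v, hu, hv]
    · obtain ⟨⟨u, hu⟩, h⟩ := e.surjective ⟨x, hx⟩
      obtain ⟨v, hv⟩ := id hu
      have a1 : (sub H φ I).Adj u v := hv
      have a2 := (e.map_adj_iff (v := ⟨u, hu⟩) (w := ⟨v, a1.snd_mem⟩)).mpr a1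
      rw [h] at a2
      exact ⟨_, a2⟩
    · rintro ⟨y, hy⟩; exact hy.fst_mem
  have hc := Finset.card_le_card_of_injOn
    (s := univ.filter (fun G' : (graphOf ω).Subgraph => Nonempty ((sub H φ I).coe ≃g G'.coe)))
    (t := (orb (Equiv.Perm (Fin n)) I).filter (fun J => ∀ z ∈ J, ω z = true))
    (fun G' => univ.filter (fun z : EdgeSlot n => z.1 ∈ G'.edgeSet)) (by
      intro G' hG'
      obtain ⟨⟨g, hg⟩, -⟩ := key G' (Finset.mem_filter.mp hG').2
      refine Finset.mem_coe.mpr (Finset.mem_filter.mpr ⟨Finset.mem_image.mpr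
        ⟨g, Finset.mem_univ _, by ext z; simp [hg]⟩, fun z hz => ?_⟩)
      obtain ⟨z, hz0⟩ := z
      induction z using Sym2.ind with
      | _ x y =>
        have a0 : G'.Adj x y := (Finset.mem_filter.mp hz).2
        obtain ⟨w, hw, h⟩ := (graphOf_adj_iff ω _ _).mp a0.adj_sub
        rwa [← show w = ⟨_, hz0⟩ from Subtype.ext hw]) (by
      intro G1 h1 G2 h2 e
      have k1 := (key G1 (Finset.mem_filter.mp h1).2).2
      have k2 := (key G2 (Finset.mem_filter.mp h2).2).2
      have hadj : ∀ x y, G1.Adj x y ↔ G2.Adj x y := by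
        intro x y
        by_cases hxy : x = y
        · subst hxy; exact iff_of_false (fun h => h.adj_sub.ne rfl) (fun h => h.adj_sub.ne rfl)
        · have := Finset.ext_iff.mp e ⟨s(x, y), by simpa using hxy⟩
          simpa using this
      ext x y
      · rw [k1, k2]; simp only [hadj]
      · exact hadj x y)
  refine Nat.cast_le.mpr ?_
  convert hc

lemma expect_le {H : SimpleGraph W} {φ : W ↪ Fin n} {I : Finset (EdgeSlot n)}
    (hI : I ⊆ img H φ) {p : ℝ} (h0 : 0 ≤ p) (h1 : p ≤ 1) :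
    gnpExpect n p (fun G => (G.copyCount (sub H φ I).coe : ℝ)) ≤
      ((orb (Equiv.Perm (Fin n)) I).card : ℝ) * p ^ I.card := by
  refine (E_mono h0 h1 (copyCount_le hI)).trans (le_of_eq ?_)
  unfold E
  rw [PE_sum, ← nsmul_eq_mul, ← Finset.sum_const]
  refine Finset.sum_congr rfl fun J hJ => ?_
  obtain ⟨g, -, rfl⟩ := Finset.mem_image.mp hJ
  have := E_cond p (g • I) (fun _ => 1)
  simp only [mul_one, E_const, Finset.card_smul_finset] at this
  exact this

end Crest.Agent.KK2

namespace Crest.Agent.S0076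

/-- Let n ≥ 2 and let H be a finite simple graph with h ≥ 1 edges on at most n vertices. Suppose the edge probability p ∈ [0, 1] is such that for every subgraph F of H the expected number of subgraphs of the binomial random graph on n labelled vertices that are isomorphic to F is at least 1/2. Then at edge probability min(1, 2^11 · e^50 · p · (1 + log₂ h)) that random graph contains a (not necessarily induced) copy of H with probability at least 1/2. -/
theorem result
    (n : ℕ) (hn : 2 ≤ n) (W : Type) [Fintype W] [DecidableEq W] (H : SimpleGraph W)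
    [DecidableRel H.Adj] (hW : Fintype.card W ≤ n) (hH : 1 ≤ H.edgeFinset.card)
    (p : ℝ) (hp0 : 0 ≤ p) (hp1 : p ≤ 1)
    (hE : ∀ F : H.Subgraph, (1 : ℝ) / 2 ≤
      Crest.CombinatoricsR.RandomGraph.gnpExpect n p (fun G => (G.copyCount F.coe : ℝ))) :
    (1 : ℝ) / 2 ≤ Crest.CombinatoricsR.RandomGraph.gnpProb n
      (min 1 (2048 * Real.exp 50 * p * (1 + Real.logb 2 (H.edgeFinset.card : ℝ))))
      {G | H.IsContained G} := by
  classical
  open Finset Crest.Agent.Tal Crest.Agent.KK2 Pointwise in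
  obtain ⟨φ⟩ : Nonempty (W ↪ Fin n) :=
    Function.Embedding.nonempty_of_card_le (by rwa [Fintype.card_fin])
  have hs : ∀ I ⊆ KK2.img H φ,
      1 / 2 ≤ ((KK2.orb (Equiv.Perm (Fin n)) I).card : ℝ) * p ^ I.card :=
    fun I hI => (hE _).trans (KK2.expect_le hI hp0 hp1)
  have hp : 0 < p := by
    rcases hp0.eq_or_lt with h | h
    · exfalso
      obtain ⟨e, he⟩ := Finset.card_pos.mp hH
      induction e using Sym2.ind with
      | _ u v =>
        have huv : H.Adj u v := by simpa using he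
        have h1 : ¬ (s(φ u, φ v)).IsDiag := by simpa using huv.ne
        have := hs {⟨_, h1⟩} (Finset.singleton_subset_iff.mpr (KK2.mem_img.mpr ⟨u, v, huv, rfl⟩))
        rw [← h] at this
        norm_num at this
    · exact h
  have hl : 0 ≤ Real.logb 2 (H.edgeFinset.card : ℝ) :=
    Real.logb_nonneg (by norm_num) (by exact_mod_cast hH)
  have hG : (0 : ℝ) < Fintype.card (Equiv.Perm (Fin n)) := by exact_mod_cast Fintype.card_pos
  have h1 := KK2.pp_main (κ := 2 * (Real.exp 40 * p))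
    (ρ := 2048 * Real.exp 50 * p * (1 + Real.logb 2 (H.edgeFinset.card : ℝ))) (by positivity)
    (𝓗 := Finset.univ.image (fun g : Equiv.Perm (Fin n) =>
      (KK2.img H φ).image (fun z => g⁻¹ • z)))
    (Finset.univ_nonempty.image _) (l := H.edgeFinset.card)
    (fun S hS => by
      obtain ⟨g, -, rfl⟩ := Finset.mem_image.mp hS
      exact Finset.card_image_le.trans (KK2.card_img H φ))
    (fun 𝓖 h𝓖 => by
      have a1 : ∀ T ∈ 𝓖, ∑ g : Equiv.Perm (Fin n),
          Tal.ind (T.image (fun z => g • z) ⊆ KK2.img H φ) ≤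
          Fintype.card (Equiv.Perm (Fin n)) * (2 * (Real.exp 40 * p)) ^ T.card := by
        intro T _
        rcases Nat.eq_zero_or_pos T.card with h0 | h0
        · rw [h0, pow_zero, mul_one]
          refine (Finset.sum_le_sum fun g _ => Tal.ind_le_one _).trans (by simp)
        · rw [Tal.sum_ind_eq_card]
          refine (KK2.spread_of_sparse hp _ hs T).trans
            (mul_le_mul_of_nonneg_left ?_ hG.le)
          rw [mul_pow 2]
          exact mul_le_mul_of_nonneg_right (le_self_pow₀ (by norm_num) h0.ne') (by positivity)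
      have a2 : ∀ g : Equiv.Perm (Fin n), (1 : ℝ) ≤
          ∑ T ∈ 𝓖, Tal.ind (T.image (fun z => g • z) ⊆ KK2.img H φ) := by
        intro g
        obtain ⟨T, hT, h⟩ := h𝓖 _ (Finset.mem_image_of_mem _ (Finset.mem_univ g))
        refine le_trans (Tal.ind_pos ?_).ge (Finset.single_le_sum
          (f := fun T => Tal.ind (T.image (fun z => g • z) ⊆ KK2.img H φ))
          (fun _ _ => Tal.ind_nonneg _) hT)
        intro z hz
        obtain ⟨y, hy, rfl⟩ := Finset.mem_image.mp hz
        obtain ⟨w, hw, rfl⟩ := Finset.mem_image.mp (h hy)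
        rwa [smul_inv_smul]
      have a3 := Finset.sum_le_sum (s := Finset.univ) fun g _ => a2 g
      rw [Finset.sum_comm] at a3
      have a4 := a3.trans (Finset.sum_le_sum a1)
      rw [← Finset.mul_sum, Finset.sum_const, Finset.card_univ, nsmul_eq_mul] at a4
      exact le_of_mul_le_mul_left a4 hG)
    (by
      refine mul_le_mul_of_nonneg_right ?_ (by linarith)
      have := Real.exp_le_exp.mpr (by norm_num : (40 : ℝ) ≤ 50)
      have h2 := Real.exp_pos 50
      nlinarith)
  unfold Crest.CombinatoricsR.RandomGraph.gnpProb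
  rw [Tal.bernoulliProb_eq]
  refine h1.trans (Tal.E_mono (le_min (by norm_num) (by positivity)) (min_le_left _ _)
    fun ω => Tal.ind_mono fun h => ?_)
  unfold KK2.Miss at h
  push Not at h
  obtain ⟨S, hS, h⟩ := h
  obtain ⟨g, -, rfl⟩ := Finset.mem_image.mp hS
  exact KK2.contained_of g⁻¹ h

end Crest.Agent.S0076
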