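import Crest.Statements.S0078
import Crest.Agent.FK.Main

set_option autoImplicit false
open Crest Crest.CombinatoricsR

namespace Crest.Agent.FK
open Crest.CombinatoricsR.HypergraphCube

lemma bprob_eq {ι : Type} [Fintype ι] [DecidableEq ι] (q : Pr) (A : Set (ι → Bool))
    (g : (ι → Bool) → ℝ) (h1 : ∀ x ∈ A, g x = 1) (h0 : ∀ x ∉ A, g x = 0) :
    Crest.FinProb.bernoulliProb q.p A = E q g := by
  classical
  unfold Crest.FinProb.bernoulliProb E
  rw [Finset.sum_filter]
  refine Finset.sum_congr rfl fun x _ => ?_
  by_cases h : x ∈ A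
  · rw [if_pos h, h1 x h, mul_one, wt_eq]
  · rw [if_neg h, h0 x h, mul_zero]

/-- the hypergraph structure on the slots -/
def hyp (n r : ℕ) : HG (HyperedgeSlot n r) n r where
  vs e := e.1
  act σ :=
    { toFun := relabelSlot σ
      invFun := relabelSlot σ.symm
      left_inv := fun e => Subtype.ext (by ext; simp [relabelSlot])
      right_inv := fun e => Subtype.ext (by ext; simp [relabelSlot]) }
  card_vs e := e.2
  inj := Subtype.val_injective
  vs_act _ _ := rfl

end Crest.Agent.FK

namespace Crest.Agent.S0078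
open Crest.Agent.FK Crest.CombinatoricsR.HypergraphCube

/-- For every r ≥ 3 there is a real constant C such that for all n ≥ r, all 0 < p < 1 and every Boolean function f of the simple r-uniform hypergraph on n labelled vertices that is invariant under renaming the vertices (no monotonicity assumed), the variance of f under independent edge-coins of bias p, namely P(f = true) · (1 - P(f = true)), is at most C · (log n)^(-r/(r-1)) times the total pivotal influence of f at bias p (natural logarithm). -/
theorem result (r : ℕ) (hr : 3 ≤ r) :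
    ∃ C : ℝ, ∀ n : ℕ, r ≤ n → ∀ p : ℝ, 0 < p → p < 1 →
      ∀ f : (Crest.CombinatoricsR.HypergraphCube.HyperedgeSlot n r → Bool) → Bool,
        Crest.CombinatoricsR.HypergraphCube.IsSymmetric f →
          Crest.CombinatoricsR.HypergraphCube.probTrue p f *
              (1 - Crest.CombinatoricsR.HypergraphCube.probTrue p f) ≤
            C / Real.log n ^ ((r : ℝ) / ((r : ℝ) - 1)) *
              Crest.CombinatoricsR.HypergraphCube.totalInfluence p f := by
  refine ⟨(360 * r) ^ 2, fun n hn p hp0 hp1 f hf => ?_⟩
  set q : Pr := ⟨p, hp0, hp1⟩ with hq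
  set g : (HyperedgeSlot n r → Bool) → ℝ := fun x => if f x = true then 1 else 0 with hg
  have hg01 : ∀ x, g x = 0 ∨ g x = 1 := fun x => by
    simp only [hg]; split_ifs <;> simp
  have e1 : probTrue p f = E q g :=
    bprob_eq q _ g (fun x hx => if_pos hx) (fun x hx => if_neg hx)
  have e2 : totalInfluence p f = ∑ e, E q (fun x => der e g x ^ 2) := by
    refine Finset.sum_congr rfl fun e _ => bprob_eq q _ _ (fun x hx => ?_) (fun x hx => ?_)
    · simp only [Set.mem_setOf_eq] at hx
      simp only [der, hg]
      revert hx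
      cases f (Function.update x e true) <;> cases f (Function.update x e false) <;> simp
    · simp only [Set.mem_setOf_eq, not_not] at hx
      simp only [der, hg, hx]; simp
  rw [e1, e2]
  have hr' : (3 : ℝ) ≤ r := by exact_mod_cast hr
  have hn' : (3 : ℝ) ≤ n := by exact_mod_cast hr.trans hn
  set L := Real.log n with hL
  have hL1 : 1 ≤ L := by
    rw [hL, Real.le_log_iff_exp_le (by linarith)]
    linarith [Real.exp_one_lt_d9]
  set Z := L ^ ((r : ℝ) / ((r : ℝ) - 1)) with hZ
  have hZ0 : 0 < Z := Real.rpow_pos_of_pos (by linarith) _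
  have hZ1 : Z ^ (r - 1) = L ^ r := by
    rw [hZ, ← Real.rpow_natCast, ← Real.rpow_mul (by linarith), ← Real.rpow_natCast]
    congr 1
    rw [Nat.cast_sub (by omega)]; push_cast
    have : (r : ℝ) - 1 ≠ 0 := by linarith
    field_simp
  have hI : 0 ≤ ∑ e, E q (fun x => der e g x ^ 2) :=
    Finset.sum_nonneg fun e _ => E_nonneg q fun x => sq_nonneg _
  rw [div_mul_eq_mul_div, le_div_iff₀ hZ0]
  rcases le_total (360 * (r : ℝ)) L with h | h
  · have := var_le q (hyp n r) g hg01 (fun σ x => by
      simp only [hg]; exact congrArg (fun b => if b = true then (1 : ℝ) else 0) (hf σ x))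
      (by omega) (Real.exp_log (by linarith)).symm h hZ0 hZ1.le
    refine this.trans (mul_le_mul_of_nonneg_right (by nlinarith) hI)
  · have h1 := poincare q g hg01
    have h2 : Z ≤ L ^ 2 := by
      have h1 : L ^ r ≤ (L ^ 2) ^ (r - 1) := by
        rw [← pow_mul]; exact pow_le_pow_right₀ hL1 (by omega)
      exact le_of_pow_le_pow_left₀ (n := r - 1) (by omega) (by positivity) (hZ1.le.trans h1)
    have h3 : Z ≤ (360 * r) ^ 2 := h2.trans (pow_le_pow_left₀ (by linarith) h 2)
    calc _ ≤ (1 / 4 * ∑ e, E q (fun x => der e g x ^ 2)) * Z :=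
          mul_le_mul_of_nonneg_right h1 hZ0.le
      _ ≤ (1 / 4 * ∑ e, E q (fun x => der e g x ^ 2)) * (360 * r) ^ 2 :=
          mul_le_mul_of_nonneg_left h3 (by positivity)
      _ ≤ _ := by nlinarith [mul_nonneg hI (sq_nonneg (360 * (r : ℝ)))]

end Crest.Agent.S0078
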