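import Crest.Statements.S0077
import Crest.Agent.S0078

set_option autoImplicit false
open Crest Crest.CombinatoricsR

namespace Crest.Agent.FK
open Crest.CombinatoricsR.RandomGraph

/-- the graph structure on the slots -/
def grf (n : ℕ) : HG (EdgeSlot n) n 2 where
  vs e := e.1.toFinset
  act σ :=
    { toFun := fun z => ⟨z.1.map σ, fun h => z.2 ((Sym2.isDiag_map σ.injective).mp h)⟩
      invFun := fun z => ⟨z.1.map σ.symm, fun h => z.2 ((Sym2.isDiag_map σ.symm.injective).mp h)⟩
      left_inv := fun e => Subtype.ext (by simp [Sym2.map_map])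
      right_inv := fun e => Subtype.ext (by simp [Sym2.map_map]) }
  card_vs e := Sym2.card_toFinset_of_not_isDiag _ e.2
  inj := fun e e' h => Subtype.ext (Sym2.ext fun x => by
    rw [← Sym2.mem_toFinset, ← Sym2.mem_toFinset]; exact Iff.of_eq (congrArg (x ∈ ·) h))
  vs_act σ e := by
    ext v; simp only [Sym2.mem_toFinset, Equiv.coe_fn_mk, Sym2.mem_map, Finset.mem_map,
      Equiv.coe_toEmbedding]

lemma graphOf_adj {n : ℕ} (ω : EdgeSlot n → Bool) (u v : Fin n) :
    (graphOf ω).Adj u v ↔ ∃ h : ¬ (s(u, v)).IsDiag, ω ⟨s(u, v), h⟩ = true := by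
  unfold graphOf
  rw [SimpleGraph.fromEdgeSet_adj]
  constructor
  · rintro ⟨h, -⟩; exact h
  · rintro ⟨h1, h2⟩; exact ⟨⟨h1, h2⟩, by simpa using h1⟩

lemma graphOf_act {n : ℕ} (ω : EdgeSlot n → Bool) (σ : Equiv.Perm (Fin n)) :
    (graphOf (fun e => ω ((grf n).act σ e))).map σ.toEmbedding = graphOf ω := by
  ext u v
  obtain ⟨u, rfl⟩ := σ.surjective u
  obtain ⟨v, rfl⟩ := σ.surjective v
  refine (SimpleGraph.map_adj_apply (f := σ.toEmbedding)).trans ?_
  rw [graphOf_adj, graphOf_adj]
  constructor
  · rintro ⟨h1, h2⟩; exact ⟨by simpa using h1, h2⟩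
  · rintro ⟨h1, h2⟩; exact ⟨by simpa using h1, h2⟩

lemma graphOf_mono {n : ℕ} {ω ω' : EdgeSlot n → Bool} (h : ∀ e, ω e = true → ω' e = true) :
    graphOf ω ≤ graphOf ω' := by
  intro u v huv
  rw [graphOf_adj] at huv ⊢
  obtain ⟨h1, h2⟩ := huv
  exact ⟨h1, h _ h2⟩

/-- Russo's formula -/
lemma russo {ι : Type} [Fintype ι] [DecidableEq ι] (q : Pr) (g : (ι → Bool) → ℝ) :
    HasDerivAt (fun y => ∑ x, Crest.FinProb.bernoulliWeight y x * g x)
      (∑ e, E q (der e g)) q.p := by
  have h1 : ∀ x : ι → Bool, HasDerivAt (fun y => Crest.FinProb.bernoulliWeight y x * g x)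
      ((∑ e, (∏ j ∈ Finset.univ.erase e, pr q (x j)) • (if x e then (1 : ℝ) else -1)) * g x)
      q.p := fun x => by
    refine HasDerivAt.mul_const ?_ _
    refine HasDerivAt.fun_finsetProd (u := Finset.univ)
      (f := fun i y => if x i then y else 1 - y) fun i _ => ?_
    cases x i
    · simpa using (hasDerivAt_id q.p).const_sub 1
    · simpa using hasDerivAt_id' q.p
  have h2 := HasDerivAt.fun_sum (u := Finset.univ) fun x _ => h1 x
  refine h2.congr_deriv ?_
  symm
  simp only [Finset.sum_mul, smul_eq_mul]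
  rw [Finset.sum_comm]
  refine Finset.sum_congr rfl fun e _ => ?_
  have hp0 := q.h0
  have hp1 : 0 < 1 - q.p := by linarith [q.h1]
  set ψ : Bool → ℝ := fun b => if b then 1 / q.p else -1 / (1 - q.p) with hψ
  have a1 : ∑ x : ι → Bool, (∏ j ∈ Finset.univ.erase e, pr q (x j))
      * (if x e then (1 : ℝ) else -1) * g x = E q (fun x => g x * ψ (x e)) := by
    refine Finset.sum_congr rfl fun x _ => ?_
    unfold wt
    rw [← Finset.mul_prod_erase _ _ (Finset.mem_univ e)]
    beta_reduce
    generalize (∏ j ∈ Finset.univ.erase e, pr q (x j)) = w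
    cases x e <;> simp [hψ, pr] <;> field_simp
  have i0 : Inv {e} (fun x => g (Function.update x e false)) := fun x y => by
    have : Function.update (({e} : Finset ι).piecewise y x) e false
        = Function.update x e false := by
      funext j
      by_cases h : j = e
      · subst h; simp
      · simp [Finset.piecewise, h]
    simp only [this]
  have a2 : ∀ x, g x * ψ (x e) = g (Function.update x e false) * ψ (x e)
      + der e g x * (if x e then 1 / q.p else 0) := fun x => by
    have b : g x = g (Function.update x e (x e)) := by rw [Function.update_eq_self]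
    rw [b]; unfold der
    cases x e <;> simp [hψ]
    ring
  rw [a1]
  simp only [a2]
  rw [E_add, E_inv_mul q i0 ψ, E_inv_mul q (inv_der e g) (fun b => if b then 1 / q.p else 0)]
  have s1 : ∑ b, pr q b * ψ b = 0 := by simp [pr, hψ]; field_simp; ring
  have s2 : ∑ b, pr q b * (if b then 1 / q.p else 0) = 1 := by simp [pr]; field_simp
  rw [s1, s2]; ring

end Crest.Agent.FK

namespace Crest.Agent.S0077
open Crest.Agent.FK Crest.CombinatoricsR.RandomGraph

/-- Let n ≥ 2 and let P be a family of simple graphs on n labelled vertices that is invariant under renaming vertices, closed under adding edges, non-empty and not everything; let 0 < ε < 1/2. If the binomial random graph with edge probability p ∈ [0, 1] lies in P with probability at least ε, then at every edge probability q ∈ [0, 1] with q ≥ p + 2^19 · log(1/(2ε)) / (log n)² it lies in P with probability at least 1 - ε: the threshold interval from ε to 1 - ε is at most that long. -/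
theorem result (n : ℕ) (hn : 2 ≤ n)
    (P : Set (SimpleGraph (Fin n)))
    (hsymm : ∀ σ : Equiv.Perm (Fin n), ∀ G : SimpleGraph (Fin n), G ∈ P → G.map σ.toEmbedding ∈ P)
    (hmono : ∀ G G' : SimpleGraph (Fin n), G ≤ G' → G ∈ P → G' ∈ P)
    (hne : P.Nonempty) (hnu : P ≠ Set.univ) (ε : ℝ) (hε0 : 0 < ε) (hε : ε < 1 / 2)
    (p q : ℝ) (hp0 : 0 ≤ p) (hp1 : p ≤ 1) (hq0 : 0 ≤ q) (hq1 : q ≤ 1)
    (hp : ε ≤ Crest.CombinatoricsR.RandomGraph.gnpProb n p P)
    (hq : p + 2 ^ 19 / Real.log n ^ 2 * Real.log (1 / (2 * ε)) ≤ q) :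
    1 - ε ≤ Crest.CombinatoricsR.RandomGraph.gnpProb n q P := by
  classical
  set g : (EdgeSlot n → Bool) → ℝ := fun x => if graphOf x ∈ P then 1 else 0 with hg
  have hg01 : ∀ x, g x = 0 ∨ g x = 1 := fun x => by
    simp only [hg]; split_ifs <;> simp
  set μ : ℝ → ℝ := fun y => ∑ x, Crest.FinProb.bernoulliWeight y x * g x with hμ
  have eμ : ∀ y, gnpProb n y P = μ y := fun y => by
    unfold gnpProb Crest.FinProb.bernoulliProb
    rw [Finset.sum_filter]
    refine Finset.sum_congr rfl fun x _ => ?_
    by_cases h : graphOf x ∈ P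
    · rw [if_pos (by exact h)]; simp [hg, h]
    · rw [if_neg (by exact h)]; simp [hg, h]
  rw [eμ] at hp ⊢
  have hn' : (2 : ℝ) ≤ n := by exact_mod_cast hn
  set L := Real.log n with hL
  have hL0 : 0 < L := Real.log_pos (by linarith)
  have hsym : (grf n).Symm g := fun σ x => by
    have : graphOf (fun e => x ((grf n).act σ e)) ∈ P ↔ graphOf x ∈ P := by
      constructor
      · intro h; rw [← graphOf_act x σ]; exact hsymm σ _ h
      · intro h
        have h2 := hsymm σ.symm _ h
        rw [← graphOf_act x σ, SimpleGraph.map_map] at h2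
        convert h2
        ext u v; simp
    simp only [hg, this]
  have hder : ∀ e x, der e g x ^ 2 = der e g x := fun e x => by
    have hm := hmono _ _ (graphOf_mono (ω := Function.update x e false)
      (ω' := Function.update x e true) fun j hj => by
        by_cases h : j = e
        · subst h; simp
        · simpa [h] using hj)
    simp only [der, hg]
    by_cases h0 : graphOf (Function.update x e false) ∈ P
    · simp [h0, hm h0]
    · by_cases h1 : graphOf (Function.update x e true) ∈ P <;> simp [h0, h1]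
  have main : ∀ y, 0 < y → y < 1 → ∃ d, HasDerivAt μ d y ∧ 0 ≤ d ∧
      μ y * (1 - μ y) * L ^ 2 ≤ 2 ^ 17 * d := fun y h0 h1 => by
    set r : Pr := ⟨y, h0, h1⟩ with hr
    have hI : 0 ≤ ∑ e, E r (fun x => der e g x ^ 2) :=
      Finset.sum_nonneg fun e _ => E_nonneg r fun x => sq_nonneg _
    have e : ∑ e, E r (fun x => der e g x ^ 2) = ∑ e, E r (der e g) := by simp only [hder]
    refine ⟨_, russo r g, e ▸ hI, ?_⟩
    rw [← e]
    change E r g * (1 - E r g) * L ^ 2 ≤ _
    rcases le_total 720 L with h | h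
    · have := var_le r (grf n) g hg01 hsym le_rfl (L := L) (Z := L ^ 2)
        (Real.exp_log (by linarith)).symm (by push_cast; linarith) (by positivity) (by simp)
      refine this.trans (mul_le_mul_of_nonneg_right (by norm_num) hI)
    · have h1 := mul_le_mul_of_nonneg_right (poincare r g hg01) (sq_nonneg L)
      have h2 : L ^ 2 ≤ 720 ^ 2 := pow_le_pow_left₀ hL0.le h 2
      nlinarith
  have cont : Continuous μ := by
    refine continuous_finsetSum _ fun x _ => Continuous.mul ?_ continuous_const
    refine continuous_finsetProd _ fun i _ => ?_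
    cases x i
    · simp only [Bool.false_eq_true, if_false]; fun_prop
    · simpa using continuous_id'
  have hl : 0 < Real.log (1 / (2 * ε)) := Real.log_pos (by
    rw [lt_div_iff₀ (by linarith)]; linarith)
  have hpq : p ≤ q := by
    have : 0 ≤ 2 ^ 19 / L ^ 2 * Real.log (1 / (2 * ε)) := by positivity
    linarith
  have hint : ∀ y ∈ interior (Set.Icc p q), 0 < y ∧ y < 1 := fun y hy => by
    rw [interior_Icc] at hy; exact ⟨by linarith [hy.1], by linarith [hy.2]⟩
  have mono : MonotoneOn μ (Set.Icc p q) := by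
    refine monotoneOn_of_deriv_nonneg (convex_Icc p q) cont.continuousOn (fun y hy => ?_)
      fun y hy => ?_
    · obtain ⟨d, h, -⟩ := main y (hint y hy).1 (hint y hy).2
      exact h.differentiableAt.differentiableWithinAt
    · obtain ⟨d, h, h', -⟩ := main y (hint y hy).1 (hint y hy).2
      rw [h.deriv]; exact h'
  by_contra hc
  push Not at hc
  have rng : ∀ y ∈ Set.Icc p q, 0 < μ y ∧ 0 < 1 - μ y := fun y hy => by
    have h1 := mono (Set.left_mem_Icc.mpr hpq) hy hy.1
    have h2 := mono hy (Set.right_mem_Icc.mpr hpq) hy.2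
    constructor <;> linarith
  set ψ : ℝ → ℝ := fun y => Real.log (μ y) - Real.log (1 - μ y) - L ^ 2 / 2 ^ 17 * y with hψ
  have dψ : ∀ y ∈ interior (Set.Icc p q), ∃ d, HasDerivAt ψ d y ∧ 0 ≤ d := fun y hy => by
    obtain ⟨d, h, h', h''⟩ := main y (hint y hy).1 (hint y hy).2
    obtain ⟨a1, a2⟩ := rng y (interior_subset hy)
    refine ⟨_, ((h.log a1.ne').sub ((h.const_sub 1).log a2.ne')).sub
      ((hasDerivAt_id' y).const_mul _), ?_⟩
    have : d / μ y - -d / (1 - μ y) = d / (μ y * (1 - μ y)) := by field_simp; ring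
    rw [this, sub_nonneg, mul_one, le_div_iff₀ (mul_pos a1 a2)]
    linarith
  have monoψ : MonotoneOn ψ (Set.Icc p q) := by
    refine monotoneOn_of_deriv_nonneg (convex_Icc p q) ?_ (fun y hy => ?_) fun y hy => ?_
    · refine ContinuousOn.sub (ContinuousOn.sub ?_ ?_) (by fun_prop)
      · exact cont.continuousOn.log fun y hy => (rng y hy).1.ne'
      · exact (continuous_const.sub cont).continuousOn.log fun y hy => (rng y hy).2.ne'
    · obtain ⟨d, h, -⟩ := dψ y hy
      exact h.differentiableAt.differentiableWithinAt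
    · obtain ⟨d, h, h'⟩ := dψ y hy
      rw [h.deriv]; exact h'
  have fin := monoψ (Set.left_mem_Icc.mpr hpq) (Set.right_mem_Icc.mpr hpq) hpq
  simp only [hψ] at fin
  obtain ⟨a1, a2⟩ := rng p (Set.left_mem_Icc.mpr hpq)
  obtain ⟨a3, a4⟩ := rng q (Set.right_mem_Icc.mpr hpq)
  have b1 : Real.log ε ≤ Real.log (μ p) := Real.log_le_log hε0 hp
  have b2 : Real.log (1 - μ p) ≤ Real.log (1 - ε) := Real.log_le_log a2 (by linarith)
  have b3 : Real.log (μ q) < Real.log (1 - ε) := Real.log_lt_log a3 hc
  have b4 : Real.log ε ≤ Real.log (1 - μ q) := Real.log_le_log hε0 (by linarith)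
  have b5 : Real.log (1 - ε) - Real.log ε ≤ 2 * Real.log (1 / (2 * ε)) := by
    rw [← Real.log_div (by linarith) hε0.ne', show (2 : ℝ) = (2 : ℕ) by norm_num, ← Real.log_pow]
    refine Real.log_le_log (div_pos (by linarith) hε0) ?_
    push_cast
    rw [div_pow, div_le_div_iff₀ hε0 (by positivity)]
    nlinarith [mul_nonneg hε0.le (sq_nonneg (2 * ε - 1))]
  have b6 : 4 * Real.log (1 / (2 * ε)) ≤ L ^ 2 / 2 ^ 17 * (q - p) := by
    calc 4 * Real.log (1 / (2 * ε))
        = L ^ 2 / 2 ^ 17 * (2 ^ 19 / L ^ 2 * Real.log (1 / (2 * ε))) := by field_simp; norm_num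
      _ ≤ _ := mul_le_mul_of_nonneg_left (by linarith) (by positivity)
  linarith

end Crest.Agent.S0077
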