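import Crest.Statements.S0094
import Crest.Agent.Ent.C

set_option autoImplicit false
open Pointwise Crest.AnalysisR
open Crest Crest.AnalysisR

namespace Crest.Agent.S0094

open Finset in
lemma inner_eq {n : ℕ} (v z : EuclideanSpace ℝ (Fin n)) : inner ℝ v z = ∑ i, v i * z i := by
  simp [PiLp.inner_apply, mul_comm]

open Finset in
lemma body {n : ℕ} {X : Type} (R : X → Fin n → ℝ) (hR : ∀ x i, |R x i| ≤ 3) {a : ℝ} (ha : 1 ≤ a) :
    ∃ K : Set (EuclideanSpace ℝ (Fin n)), Convex ℝ K ∧ IsCompact K ∧ (interior K).Nonempty ∧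
      (∀ x ∈ K, -x ∈ K) ∧ (∀ x, WithLp.toLp 2 (R x) ∈ K) ∧
      ∀ z : EuclideanSpace ℝ (Fin n), (∀ x, |∑ i, R x i * z i| ≤ 1) → ∑ i, |z i| ≤ 2 * a →
        z ∈ polarSet K := by
  let P : Set (EuclideanSpace ℝ (Fin n)) :=
    {z | (∀ x, |∑ i, R x i * z i| ≤ 1) ∧ ∑ i, |z i| ≤ 2 * a}
  have hP : ∀ z ∈ P, -z ∈ P := fun z hz =>
    ⟨fun x => by simpa [sum_neg_distrib] using hz.1 x, by simpa using hz.2⟩
  have hsym : ∀ x ∈ polarSet P, -x ∈ polarSet P := fun x hx z hz => by
    have := hx _ (hP z hz)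
    rwa [inner_neg_left, ← inner_neg_right] at this
  refine ⟨polarSet P, ?_, ?_, ⟨0, mem_interior.mpr ⟨Metric.ball 0 (1 / (2 * a)), ?_,
    Metric.isOpen_ball, Metric.mem_ball_self (by positivity)⟩⟩, hsym, fun x z hz => ?_,
    fun z h1 h2 v hv => ?_⟩
  · intro x hx y hy s t hs ht hst z hz
    have h1 := hx z hz
    have h2 := hy z hz
    rw [inner_add_right, inner_smul_right, inner_smul_right]
    nlinarith
  · refine Metric.isCompact_of_isClosed_isBounded ?_ ?_
    · have : polarSet P = ⋂ z ∈ P, {y | inner ℝ z y ≤ 1} := by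
        ext y; simp [polarSet]
      rw [this]
      exact isClosed_biInter fun z _ => isClosed_le (by fun_prop) continuous_const
    · have h3 : ∀ v ∈ polarSet P, ∀ i, v i ≤ 3 := by
        intro v hv i
        have := hv (EuclideanSpace.single i (1 / 3)) ⟨fun x => by
          have := hR x i
          simp only [EuclideanSpace.single_apply, mul_ite, mul_zero, sum_ite_eq', mem_univ, if_true]
          rw [abs_mul, abs_of_pos (by norm_num : (0 : ℝ) < 1 / 3)]
          linarith, by
          simp only [EuclideanSpace.single_apply, apply_ite abs, abs_zero, sum_ite_eq', mem_univ,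
            if_true]
          rw [abs_of_pos (by norm_num : (0 : ℝ) < 1 / 3)]
          linarith⟩
        rw [EuclideanSpace.inner_single_left] at this
        simp only [conj_trivial] at this
        linarith
      refine (Metric.isBounded_closedBall (x := 0) (r := √(n * 9))).subset fun v hv => ?_
      rw [mem_closedBall_zero_iff, EuclideanSpace.norm_eq]
      refine Real.sqrt_le_sqrt ((sum_le_sum (g := fun _ => (9 : ℝ)) fun i _ => ?_).trans (by simp))
      have h4 := h3 v hv i
      have h5 := h3 _ (hsym v hv) i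
      simp only [PiLp.neg_apply] at h5
      rw [Real.norm_eq_abs, sq_abs]
      nlinarith
  · intro v hv z hz
    rw [mem_ball_zero_iff] at hv
    rw [inner_eq]
    calc ∑ i, z i * v i ≤ ∑ i, |z i| * (1 / (2 * a)) := sum_le_sum fun i _ =>
          (le_abs_self _).trans (by
            rw [abs_mul]
            exact mul_le_mul_of_nonneg_left ((PiLp.norm_apply_le v i).trans hv.le) (abs_nonneg _))
      _ ≤ 2 * a * (1 / (2 * a)) := by
          rw [← sum_mul]
          exact mul_le_mul_of_nonneg_right hz.2 (by positivity)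
      _ = 1 := by field_simp
  · rw [real_inner_comm, inner_eq]
    exact (le_abs_self _).trans (hz.1 x)
  · rw [real_inner_comm]
    exact hv z ⟨h1, h2⟩

open Finset in
lemma l1_of_polar {n : ℕ} {y : EuclideanSpace ℝ (Fin n)}
    (hy : y ∈ polarSet {x : EuclideanSpace ℝ (Fin n) | ∀ i, |x i| ≤ 1}) : ∑ i, |y i| ≤ 1 := by
  have := hy (WithLp.toLp 2 fun i => if 0 ≤ y i then 1 else -1) fun i => by
    dsimp only
    split_ifs <;> simp
  rw [inner_eq] at this
  refine le_trans (le_of_eq (sum_congr rfl fun i _ => ?_)) this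
  dsimp only
  split_ifs with h
  · rw [abs_of_nonneg h, one_mul]
  · rw [abs_of_neg (not_le.mp h), neg_one_mul]

lemma log_le {k l : ℕ} (h : k ≤ l) : Real.log k ≤ Real.log l := by
  rcases k.eq_zero_or_pos with rfl | hk
  · simpa using Real.log_natCast_nonneg l
  · exact Real.log_le_log (by exact_mod_cast hk) (by exact_mod_cast h)

/-- For all real a, b ≥ 1 there are n ≥ 1 and a compact convex set K in Euclidean n-space with nonempty interior, symmetric about 0, such that, with L the cube of points having all coordinates in [-1, 1] and polars taken for the standard inner product (the y pairing to at most 1 with each point of the set): some m translates of a⁻¹ • (polar of K) cover the polar of L, while any k translates of L covering K satisfy b * log m < log k. So log N(K, L) > b log N(L°, a⁻¹K°) for covering numbers N. -/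
theorem result
    (a b : ℝ) (ha : 1 ≤ a) (hb : 1 ≤ b) :
    ∃ n : ℕ, 0 < n ∧ ∃ K : Set (EuclideanSpace ℝ (Fin n)),
      Convex ℝ K ∧ IsCompact K ∧ (interior K).Nonempty ∧ (∀ x ∈ K, -x ∈ K) ∧
      ∃ t₁ : Finset (EuclideanSpace ℝ (Fin n)),
        polarSet {x : EuclideanSpace ℝ (Fin n) | ∀ i, |x i| ≤ 1} ⊆ ⋃ y ∈ t₁, (y +ᵥ a⁻¹ • polarSet K) ∧
        ∀ t₂ : Finset (EuclideanSpace ℝ (Fin n)),
          K ⊆ ⋃ x ∈ t₂, (x +ᵥ {z : EuclideanSpace ℝ (Fin n) | ∀ i, |z i| ≤ 1}) →
          b * Real.log t₁.card < Real.log t₂.card := by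
  classical
  set m : ℕ := ⌈15 * a⌉₊ with hm
  have hma : 15 * a ≤ m := Nat.le_ceil _
  have hm0 : (0 : ℝ) < m := by linarith
  obtain ⟨U, Ω, _, _, lev, hne, mono, top, hT, weak⟩ := Ent.comb (m := m) (by exact_mod_cast hm0)
    (κ := 1 / (4 * b)) (by positivity)
  set N := Fintype.card Ω with hN
  have hN1 : (1 : ℝ) ≤ N := by exact_mod_cast Fintype.card_pos
  set h : ℕ := ⌊1 / (4 * b) * N⌋₊ with hh
  have hbh : b * h ≤ N / 4 := by
    calc b * h ≤ b * (1 / (4 * b) * N) := by gcongr; exact Nat.floor_le (by positivity)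
      _ = _ := by field_simp
  set D : ℝ := b * (h * Real.log N + 2 ^ h * Real.log (2 * m + 1)) + N * Real.log 2 with hD
  obtain ⟨q, hq, hqD⟩ : ∃ q : ℕ, 0 < q ∧ 4 * D < Real.log q := by
    refine ⟨⌈Real.exp (4 * D)⌉₊ + 1, Nat.succ_pos _, ?_⟩
    rw [Real.lt_log_iff_exp_lt (by positivity)]
    push_cast
    linarith [Nat.le_ceil (Real.exp (4 * D))]
  have hq' : (0 : ℝ) < q := by exact_mod_cast hq
  have hlq : 0 ≤ Real.log q := Real.log_natCast_nonneg q
  obtain ⟨u₀, -⟩ := hT ∅ (by simp)
  have : Nonempty (U × (Ω → Fin q)) := ⟨(u₀, fun _ => ⟨0, hq⟩)⟩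
  let e := (Fintype.equivFin (U × (Ω → Fin q))).symm
  let R : (Ω → Fin q) → Fin (Fintype.card (U × (Ω → Fin q))) → ℝ :=
    fun x i => 3 / m * lev (e i).1 (Ent.ag x (e i).2)
  obtain ⟨K, h1, h2, h3, h4, h5, h6⟩ := body R (fun x i => by
    have : (lev (e i).1 (Ent.ag x (e i).2) : ℝ) ≤ m :=
      Nat.cast_le.mpr ((mono _ _ _ (Finset.subset_univ _)).trans (top _).le)
    rw [abs_of_nonneg (by positivity)]
    calc R x i ≤ 3 / m * m := mul_le_mul_of_nonneg_left this (by positivity)
      _ = 3 := by field_simp) ha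
  obtain ⟨t, ht, ht'⟩ := Ent.cover (h := h) hq mono top (fun i => (e i).1) (fun i => (e i).2)
    fun μ h0 h1 => by
      obtain ⟨H, hH, hH'⟩ := weak _ _ (fun i => (e i).1) (fun i => (e i).2) μ h0 h1
      exact ⟨H, Nat.le_floor hH, hH'⟩
  refine ⟨_, Fintype.card_pos, K, h1, h2, h3, h4, t, fun y hy => ?_, fun t₂ ht₂ => ?_⟩
  · have hy1 := l1_of_polar hy
    obtain ⟨y', hy', hy2, hy3⟩ := ht' y hy1
    refine Set.mem_iUnion₂.mpr ⟨y', hy', a⁻¹ • a • (y - y'),
      Set.smul_mem_smul_set (h6 _ (fun x => ?_) ?_), ?_⟩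
    · have e1 : ∑ i, R x i * (a • (y - y')) i =
          3 * a / m * ∑ i, (y i - y' i) * lev (e i).1 (Ent.ag x (e i).2) := by
        rw [Finset.mul_sum]
        refine Finset.sum_congr rfl fun i _ => ?_
        simp only [R, PiLp.smul_apply, PiLp.sub_apply, smul_eq_mul]
        ring
      rw [e1, abs_mul, abs_of_nonneg (by positivity)]
      calc _ ≤ 3 * a / m * 5 := mul_le_mul_of_nonneg_left (hy3 x) (by positivity)
        _ ≤ 1 := by rw [div_mul_eq_mul_div, div_le_one hm0]; linarith
    · calc _ ≤ ∑ i, a * (|y i| + |y' i|) := Finset.sum_le_sum fun i _ => by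
            simp only [PiLp.smul_apply, PiLp.sub_apply, smul_eq_mul]
            rw [abs_mul, abs_of_nonneg (by positivity)]
            exact mul_le_mul_of_nonneg_left (abs_sub _ _) (by positivity)
        _ ≤ _ := by
            rw [← Finset.mul_sum, Finset.sum_add_distrib]
            nlinarith
    · simp [smul_smul, inv_mul_cancel₀ (by positivity : a ≠ 0)]
  · have hp : ∀ x, ∃ p ∈ t₂, ∀ i, |R x i - p i| ≤ 1 := by
      intro x
      obtain ⟨p, hp, z, hz, hz'⟩ := Set.mem_iUnion₂.mp (ht₂ (h5 x))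
      refine ⟨p, hp, fun i => ?_⟩
      have := congrArg (fun v : EuclideanSpace ℝ _ => v i) hz'
      simp only [vadd_eq_add, PiLp.add_apply] at this
      rw [← this, add_sub_cancel_left]
      exact hz i
    choose p hp hp' using hp
    have hcard : (Finset.univ : Finset (Ω → Fin q)).card ≤ 2 ^ N * q ^ (N / 2) * t₂.card := by
      refine Finset.card_le_mul_card_image_of_maps_to (f := p) (fun x _ => hp x) _ fun p₀ _ => ?_
      rcases (Finset.univ.filter fun x => p x = p₀).eq_empty_or_nonempty with h0 | ⟨x₀, hx₀⟩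
      · rw [h0]; simp
      refine le_trans (Finset.card_le_card fun x hx => ?_) (Ent.card_near hq x₀)
      refine Finset.mem_filter.mpr ⟨Finset.mem_univ _, not_le.mp fun hc => ?_⟩
      obtain ⟨u, hu⟩ := hT _ hc
      have a1 := hp' x (e.symm (u, x₀))
      have a2 := hp' x₀ (e.symm (u, x₀))
      have a3 : Ent.ag x₀ x₀ = Finset.univ := Finset.eq_univ_of_forall fun _ => Ent.mem_ag.mpr rfl
      rw [(Finset.mem_filter.mp hx).2] at a1
      rw [(Finset.mem_filter.mp hx₀).2] at a2
      simp only [R, Equiv.apply_symm_apply, hu, a3, top] at a1 a2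
      rw [div_mul_cancel₀ _ hm0.ne'] at a2
      obtain ⟨a4, a5⟩ := abs_le.mp a1
      obtain ⟨a6, a7⟩ := abs_le.mp a2
      simp only [Nat.cast_zero, mul_zero] at a4 a5
      linarith
    rw [Finset.card_univ, Fintype.card_fun, Fintype.card_fin, ← hN] at hcard
    have hk : 0 < t₂.card := Finset.card_pos.mpr ⟨_, hp fun _ => ⟨0, hq⟩⟩
    have hk' : (0 : ℝ) < t₂.card := by exact_mod_cast hk
    have l1 := log_le hcard
    have l2 := log_le ht
    push_cast at l1 l2
    rw [Real.log_mul (by positivity) hk'.ne', Real.log_mul (by positivity) (by positivity)] at l1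
    rw [Real.log_mul (by positivity) (by positivity), Real.log_pow,
      Real.log_mul (by positivity) hq'.ne'] at l2
    simp only [Real.log_pow] at l1 l2
    push_cast at l2
    have l3 : ((N / 2 : ℕ) : ℝ) * Real.log q ≤ N / 2 * Real.log q :=
      mul_le_mul_of_nonneg_right Nat.cast_div_le hlq
    have l4 := mul_le_mul_of_nonneg_left l2 (by linarith : 0 ≤ b)
    have l5 := mul_le_mul_of_nonneg_right hbh hlq
    have l6 := mul_le_mul_of_nonneg_right hN1 hlq
    nlinarith

end Crest.Agent.S0094
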