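import Crest.Statements.S0109
import Crest.Agent.OT.Main

set_option autoImplicit false
open MeasureTheory
open scoped ENNReal NNReal
open Crest.AnalysisR.OT
open Crest Crest.AnalysisR Crest.AnalysisR.OT

namespace Crest.Agent.S0109

/-- Fix d ≥ 2, a compact convex K ⊆ ℝᵈ with nonempty interior, ρ the uniform probability measure on K, and a nonempty compact Y ⊆ ℝᵈ. There is a constant C such that for all probability measures μ, ν carried by Y, all quadratic optimal transport maps Tμ from ρ to μ and Tν from ρ to ν, and every coupling π of μ and ν, ∫ ‖Tμ - Tν‖² dρ ≤ C · (∫ ‖y - z‖² dπ)^(1/3). With the best coupling: the L²(ρ) distance of the maps is at most √C times the cube root of the Wasserstein-2 distance of the targets. -/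
theorem result
    (d : ℕ) (hd : 2 ≤ d) (K : Set (EuclideanSpace ℝ (Fin d))) (hKc : IsCompact K) (hKv : Convex ℝ K)
    (hKi : (interior K).Nonempty) (Y : Set (EuclideanSpace ℝ (Fin d))) (hYc : IsCompact Y) (hYn : Y.Nonempty) :
    ∃ C : ℝ≥0, ∀ μ ν : Measure (EuclideanSpace ℝ (Fin d)), IsProbabilityOn Y μ → IsProbabilityOn Y ν →
      ∀ Tμ Tν : EuclideanSpace ℝ (Fin d) → EuclideanSpace ℝ (Fin d),
        IsOptimalMap (uniformProbOn K) μ Tμ → IsOptimalMap (uniformProbOn K) ν Tν →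
        ∀ π : Measure (EuclideanSpace ℝ (Fin d) × EuclideanSpace ℝ (Fin d)), IsPairCoupling μ ν π →
          ∫⁻ x, ‖Tμ x - Tν x‖ₑ ^ 2 ∂(uniformProbOn K) ≤ C * quadCost π ^ (1 / 3 : ℝ) := by
  obtain ⟨R, hR0, hR⟩ := hKc.isBounded.exists_pos_norm_le
  obtain ⟨L, hL0, hL⟩ := hYc.isBounded.exists_pos_norm_le
  set κ := (volume K).toReal with hκ
  have hκ0 : 0 < κ := ENNReal.toReal_pos (OT.volume_pos_of_interior hKi) hKc.measure_lt_top.ne
  set V := (volume (Metric.closedBall (0 : EuclideanSpace ℝ (Fin d)) (R + 1))).toReal with hV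
  have hV0 : 0 ≤ V := ENNReal.toReal_nonneg
  set A : ℝ := d * (8 * (163920 * R ^ 2 * 2)) with hA
  set B : ℝ := κ⁻¹ * (d * (36 * (L + 1) ^ 2 * V)) with hB
  set M : ℝ := 2 * L + 1 with hM
  refine ⟨(A * (1 + M) ^ 2 + B).toNNReal, ?_⟩
  rintro μ ν ⟨hμ, hμY⟩ ⟨hν, hνY⟩ Tμ Tν hTμ hTν π ⟨rfl, rfl⟩
  have hπ : IsProbabilityMeasure π := by
    constructor
    have := hμ.measure_univ
    rwa [Measure.map_apply measurable_fst MeasurableSet.univ, Set.preimage_univ] at this
  have hπL : ∀ᵐ p ∂π, ‖p.1‖ ≤ L ∧ ‖p.2‖ ≤ L := by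
    have h1 : ∀ᵐ p ∂π, p.1 ∈ Y :=
      ae_of_ae_map (f := Prod.fst) (p := fun y => y ∈ Y) measurable_fst.aemeasurable hμY
    have h2 : ∀ᵐ p ∂π, p.2 ∈ Y :=
      ae_of_ae_map (f := Prod.snd) (p := fun y => y ∈ Y) measurable_snd.aemeasurable hνY
    filter_upwards [h1, h2] with p h1 h2 using ⟨hL _ h1, hL _ h2⟩
  have hbd : ∀ᵐ p ∂π, ‖‖p.1 - p.2‖ ^ 2‖ ≤ (L + L) ^ 2 := by
    filter_upwards [hπL] with p hp
    rw [Real.norm_of_nonneg (sq_nonneg _)]
    gcongr
    linarith [norm_sub_le p.1 p.2, hp.1, hp.2]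
  have i1 : Integrable (fun p : EuclideanSpace ℝ (Fin d) × EuclideanSpace ℝ (Fin d) =>
      ‖p.1 - p.2‖ ^ 2) π :=
    Integrable.of_bound (Continuous.aestronglyMeasurable (by fun_prop)) _ hbd
  set c := ∫ p, ‖p.1 - p.2‖ ^ 2 ∂π with hc
  have hc0 : 0 ≤ c := integral_nonneg fun p => sq_nonneg _
  have hq : quadCost π = ENNReal.ofReal c := by
    rw [hc, ofReal_integral_eq_lintegral_ofReal i1 (Filter.Eventually.of_forall fun p => sq_nonneg _),
      quadCost]
    congr 1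
    ext p
    rw [← ofReal_norm, ← ENNReal.ofReal_pow (norm_nonneg _)]
  have hcM : c ≤ M ^ 3 := by
    have h1 := norm_integral_le_of_norm_le_const hbd
    rw [probReal_univ, mul_one, Real.norm_of_nonneg hc0] at h1
    refine h1.trans ?_
    rw [hM]
    nlinarith [mul_pos hL0 hL0, mul_pos hL0 (mul_pos hL0 hL0)]
  have key := OT.optimize (I := ∫⁻ x, ‖Tμ x - Tν x‖ₑ ^ 2 ∂(uniformProbOn K)) (A := A) (B := B)
    (M := M) (c := c) (by positivity) (by positivity) (by positivity) hc0 (fun N hN => by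
      refine (OT.limit_step hd hKc hKv hKi hR0 hR π hπL hTμ hTν hN).trans (le_of_eq ?_)
      rw [← ENNReal.ofReal_toReal hKc.measure_lt_top.ne, ← hκ, ← ENNReal.ofReal_inv_of_pos hκ0,
        ← ENNReal.ofReal_mul (by positivity), ENNReal.toReal_ofReal hκ0.le]
      congr 1
      rw [hA, hB, ← hV, ← hc]
      field_simp) hcM
  refine key.trans (le_of_eq ?_)
  rw [hq, ENNReal.ofReal_rpow_of_nonneg hc0 (by norm_num), ENNReal.ofReal_mul (by positivity)]
  rfl

end Crest.Agent.S0109
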