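import Crest.Statements.S0110
import Crest.Agent.OT.Main

set_option autoImplicit false
open MeasureTheory
open scoped ENNReal NNReal
open Crest.AnalysisR.OT
open Crest Crest.AnalysisR Crest.AnalysisR.OT

namespace Crest.Agent.S0110

open Crest.Agent.OT Set Filter Topology
open scoped RealInnerProductSpace

variable {d : ℕ}

def cube (d : ℕ) : Set (E d) := {x | ∀ i, |x i| ≤ 1}

def box (a b : Fin d → ℝ) : Set (E d) := {x | ∀ i, a i ≤ x i ∧ x i ≤ b i}

theorem box_eq (a b : Fin d → ℝ) : box a b = WithLp.ofLp ⁻¹' Icc a b := by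
  ext x; simp [box, Pi.le_def, forall_and]

theorem measurableSet_box (a b : Fin d → ℝ) : MeasurableSet (box a b) := by
  rw [box_eq]
  exact (PiLp.volume_preserving_ofLp (Fin d)).measurable measurableSet_Icc

theorem volume_box (a b : Fin d → ℝ) : volume (box a b) = ∏ i, ENNReal.ofReal (b i - a i) := by
  rw [box_eq, (PiLp.volume_preserving_ofLp (Fin d)).measure_preimage
    measurableSet_Icc.nullMeasurableSet, Real.volume_Icc_pi]

theorem cube_eq : cube d = box (fun _ => -1) (fun _ => 1) := by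
  ext x; simp [cube, box, abs_le]

theorem isCompact_cube : IsCompact (cube d) := by
  rw [cube_eq, box_eq]
  exact (PiLp.homeomorph 2 (fun _ : Fin d => ℝ)).isCompact_preimage.2 isCompact_Icc

theorem convex_cube : Convex ℝ (cube d) := by
  intro x hx y hy a b ha hb hab i
  have h1 := abs_le.1 (hx i)
  have h2 := abs_le.1 (hy i)
  simp only [PiLp.add_apply, PiLp.smul_apply, smul_eq_mul]
  rw [abs_le]
  constructor <;> nlinarith

theorem isOpen_ocube : IsOpen {x : E d | ∀ i, |x i| < 1} := by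
  have : {x : E d | ∀ i, |x i| < 1} = ⋂ i, {x | |x i| < 1} := by ext x; simp
  rw [this]
  exact isOpen_iInter_of_finite fun i => isOpen_lt (by fun_prop) (by fun_prop)

theorem interior_cube : (interior (cube d)).Nonempty :=
  ⟨0, interior_maximal (t := {x : E d | ∀ i, |x i| < 1}) (fun _ hx i => (hx i).le) isOpen_ocube
    (fun i => by simp)⟩

theorem uniform_box {a b : Fin d → ℝ} (h : box a b ⊆ cube d) :
    uniformProbOn (cube d) (box a b) = ∏ i, ENNReal.ofReal ((b i - a i) / 2) := by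
  simp only [uniformProbOn, Measure.smul_apply, smul_eq_mul]
  rw [Measure.restrict_apply (measurableSet_box a b), inter_eq_left.2 h, cube_eq, volume_box,
    volume_box]
  simp only [ENNReal.ofReal_div_of_pos (two_pos (α := ℝ))]
  simp only [div_eq_mul_inv, Finset.prod_mul_distrib]
  rw [mul_comm, ENNReal.prod_inv_distrib (fun _ _ _ _ _ => Or.inl (by norm_num))]
  norm_num

/-- Reflection of one coordinate. -/
noncomputable def refl (i₁ : Fin d) : E d ≃ₗᵢ[ℝ] E d :=
  LinearIsometryEquiv.piLpCongrRight 2 fun i =>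
    if i = i₁ then LinearIsometryEquiv.neg ℝ else LinearIsometryEquiv.refl ℝ ℝ

theorem refl_apply (i₁ : Fin d) (x : E d) (i : Fin d) :
    refl i₁ x i = if i = i₁ then -x i else x i := by
  simp only [refl, LinearIsometryEquiv.piLpCongrRight_apply]
  split_ifs <;> simp

theorem refl_refl (i₁ : Fin d) (x : E d) : refl i₁ (refl i₁ x) = x := by
  ext i; simp only [refl_apply]; split_ifs <;> simp

theorem refl_mem_cube (i₁ : Fin d) (x : E d) : refl i₁ x ∈ cube d ↔ x ∈ cube d := by
  refine forall_congr' fun i => ?_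
  rw [refl_apply]; split_ifs <;> simp

theorem map_refl (i₁ : Fin d) : (uniformProbOn (cube d)).map (refl i₁) = uniformProbOn (cube d) := by
  have h := (refl i₁).measurePreserving.restrict_preimage (isCompact_cube (d := d)).measurableSet
  have e : refl i₁ ⁻¹' cube d = cube d := by ext x; exact refl_mem_cube i₁ x
  rw [e] at h
  rw [uniformProbOn, Measure.map_smul, h.map_eq]

theorem threeAtomic_map {X : Type*} [MeasurableSpace X] (ρ : Measure X) [IsFiniteMeasure ρ]
    {ι : X → Fin 3} (hι : Measurable ι) (hpos : ∀ j, ρ (ι ⁻¹' {j}) ≠ 0) {y : Fin 3 → E d}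
    (hy : Function.Injective y) : IsThreeAtomic (ρ.map (y ∘ ι)) := by
  have hym : Measurable y := measurable_of_finite y
  refine ⟨y, hy, fun j => (ρ (ι ⁻¹' {j})).toReal,
    fun j => ENNReal.toReal_pos (hpos j) (measure_ne_top _ _), ?_⟩
  rw [← Measure.map_map hym hι, ← Measure.sum_smul_dirac (ρ.map ι), Measure.sum_fintype,
    Measure.map_finset_sum' hym.aemeasurable]
  refine Finset.sum_congr rfl fun j _ => ?_
  rw [Measure.map_smul, Measure.map_dirac' hym, ENNReal.ofReal_toReal (measure_ne_top _ _),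
    Measure.map_apply hι (measurableSet_singleton j)]

theorem exists_delta {α : ℝ} (hα : 1 / 3 < α) (C : ℝ≥0) :
    ∃ δ : ℝ, 0 < δ ∧ δ < 1 / 4 ∧ C * (8 * δ ^ 3) ^ α < δ / 16 := by
  have hβ : 0 < 3 * α - 1 := by linarith
  have h1 : Tendsto (fun δ : ℝ => 16 * C * 8 ^ α * δ ^ (3 * α - 1)) (𝓝 0)
      (𝓝 (16 * C * 8 ^ α * (0 : ℝ) ^ (3 * α - 1))) :=
    ((Real.continuousAt_rpow_const 0 _ (Or.inr hβ.le)).tendsto).const_mul _
  rw [Real.zero_rpow hβ.ne', mul_zero] at h1
  have h2 : ∀ᶠ δ : ℝ in 𝓝[>] 0, 16 * C * 8 ^ α * δ ^ (3 * α - 1) < 1 :=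
    (h1.eventually (gt_mem_nhds one_pos)).filter_mono nhdsWithin_le_nhds
  have h3 : ∀ᶠ δ : ℝ in 𝓝[>] 0, δ < 1 / 4 :=
    (gt_mem_nhds (by norm_num : (0 : ℝ) < 1 / 4) : ∀ᶠ δ : ℝ in 𝓝 0, δ < 1 / 4).filter_mono
      nhdsWithin_le_nhds
  obtain ⟨δ, ⟨h4, h5⟩, h6⟩ := ((h2.and h3).and self_mem_nhdsWithin).exists
  have h0 : 0 < δ := h6
  refine ⟨δ, h0, h5, ?_⟩
  have e : (8 * δ ^ 3) ^ α = 8 ^ α * δ ^ (3 * α - 1) * δ := by
    rw [Real.mul_rpow (by norm_num) (by positivity), ← Real.rpow_natCast, ← Real.rpow_mul h0.le,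
      mul_assoc, ← Real.rpow_add_one h0.ne']
    norm_num
  rw [e]
  nlinarith

/-- The exponent one third is optimal, even on the cube with three-atom targets: for d ≥ 2, ρ the uniform probability measure on the cube of points of ℝᵈ with all coordinates in [-1, 1], every α > 1/3 and every C ≥ 0, there are three-atomic probability measures μ, ν on that cube, each admitting a quadratic optimal transport map from ρ, such that for all such optimal maps Tμ, Tν some coupling π of μ, ν has C · (∫ ‖y - z‖² dπ)^α < ∫ ‖Tμ - Tν‖² dρ. Hence ‖Tμ - Tν‖_{L²(ρ)} > √C · W₂(μ, ν)^α. -/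
theorem result
    (d : ℕ) (hd : 2 ≤ d) (α : ℝ) (hα : 1 / 3 < α) (C : ℝ≥0) :
    ∃ μ ν : Measure (EuclideanSpace ℝ (Fin d)),
      IsProbabilityOn {x : EuclideanSpace ℝ (Fin d) | ∀ i, |x i| ≤ 1} μ ∧
      IsProbabilityOn {x : EuclideanSpace ℝ (Fin d) | ∀ i, |x i| ≤ 1} ν ∧
      IsThreeAtomic μ ∧ IsThreeAtomic ν ∧
      (∃ T, IsOptimalMap (uniformProbOn {x : EuclideanSpace ℝ (Fin d) | ∀ i, |x i| ≤ 1}) μ T) ∧
      (∃ T, IsOptimalMap (uniformProbOn {x : EuclideanSpace ℝ (Fin d) | ∀ i, |x i| ≤ 1}) ν T) ∧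
      ∀ Tμ Tν : EuclideanSpace ℝ (Fin d) → EuclideanSpace ℝ (Fin d),
        IsOptimalMap (uniformProbOn {x : EuclideanSpace ℝ (Fin d) | ∀ i, |x i| ≤ 1}) μ Tμ →
        IsOptimalMap (uniformProbOn {x : EuclideanSpace ℝ (Fin d) | ∀ i, |x i| ≤ 1}) ν Tν →
        ∃ π : Measure (EuclideanSpace ℝ (Fin d) × EuclideanSpace ℝ (Fin d)), IsPairCoupling μ ν π ∧
          (C : ℝ≥0∞) * quadCost π ^ α < ∫⁻ x, ‖Tμ x - Tν x‖ₑ ^ 2 ∂(uniformProbOn {x : EuclideanSpace ℝ (Fin d) | ∀ i, |x i| ≤ 1}) := by
  change ∃ μ ν : Measure (E d), IsProbabilityOn (cube d) μ ∧ IsProbabilityOn (cube d) ν ∧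
      IsThreeAtomic μ ∧ IsThreeAtomic ν ∧
      (∃ T, IsOptimalMap (uniformProbOn (cube d)) μ T) ∧
      (∃ T, IsOptimalMap (uniformProbOn (cube d)) ν T) ∧
      ∀ Tμ Tν : E d → E d, IsOptimalMap (uniformProbOn (cube d)) μ Tμ →
        IsOptimalMap (uniformProbOn (cube d)) ν Tν →
        ∃ π : Measure (E d × E d), IsPairCoupling μ ν π ∧
          (C : ℝ≥0∞) * quadCost π ^ α < ∫⁻ x, ‖Tμ x - Tν x‖ₑ ^ 2 ∂(uniformProbOn (cube d))
  obtain ⟨δ, hδ0, hδ1, hδ⟩ := exists_delta hα C
  have hK := isCompact_cube (d := d)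
  have hKc := convex_cube (d := d)
  have hKi := interior_cube (d := d)
  have := isProb_uniform hK hKi
  set ρ := uniformProbOn (cube d) with hρ
  set i₀ : Fin d := ⟨0, by omega⟩ with hi₀
  set i₁ : Fin d := ⟨1, by omega⟩ with hi₁
  have h01 : i₀ ≠ i₁ := by simp [hi₀, hi₁]
  set y : Fin 3 → E d := ![EuclideanSpace.single i₀ 1, EuclideanSpace.single i₀ (-1),
    EuclideanSpace.single i₁ δ] with hy
  set ψ : Fin 3 → ℝ := ![0, 0, -δ] with hψ
  have v0 : ∀ x : E d, ⟪x, y 0⟫ - ψ 0 = x i₀ := fun x => by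
    simp [hy, hψ, EuclideanSpace.inner_single_right]
  have v1 : ∀ x : E d, ⟪x, y 1⟫ - ψ 1 = -x i₀ := fun x => by
    simp [hy, hψ, EuclideanSpace.inner_single_right]
  have v2 : ∀ x : E d, ⟪x, y 2⟫ - ψ 2 = δ * x i₁ + δ := fun x => by
    simp [hy, hψ, EuclideanSpace.inner_single_right]
  have hyi : Function.Injective y := by
    have : (fun j => y j i₀) = ![1, -1, 0] := by
      ext j; fin_cases j <;> simp [hy, h01]
    refine Function.Injective.of_comp (f := fun u : E d => u i₀) ?_
    change Function.Injective fun j => y j i₀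
    rw [this]
    intro j k
    fin_cases j <;> fin_cases k <;> norm_num
  have hyc : ∀ j, y j ∈ cube d := by
    intro j i
    have hδa : |δ| ≤ 1 := by rw [abs_of_pos hδ0]; linarith
    fin_cases j <;> simp only [hy] <;> simp [PiLp.single_apply] <;> split_ifs <;> simp [hδa]
  have hyn : ∀ j, ‖y j‖ ≤ 1 := by
    intro j
    fin_cases j <;> simp [hy]
    rw [abs_of_pos hδ0]; linarith
  obtain ⟨ι, hιm, hι⟩ := exists_measurable_selection (cell y ψ)
    fun j => (isClosed_cell y ψ j).measurableSet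
  replace hιm : Measurable ι := measurable_to_countable' hιm
  replace hι : ∀ x, x ∈ cell y ψ (ι x) := fun x => hι x (exists_mem_cell _ _ _)
  have hstrict : ∀ x j, (∀ k, k ≠ j → ⟪x, y k⟫ - ψ k < ⟪x, y j⟫ - ψ j) → ι x = j := by
    intro x j h
    by_contra hne
    exact absurd (hι x j) (not_le.2 (h _ hne))
  have hι0 : ∀ x : E d, 0 < x i₀ → δ * x i₁ + δ < x i₀ → ι x = 0 := fun x h1 h2 =>
    hstrict x 0 fun k hk => by
      fin_cases k
      · exact absurd rfl hk
      · change ⟪x, y 1⟫ - ψ 1 < _; rw [v0, v1]; linarith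
      · change ⟪x, y 2⟫ - ψ 2 < _; rw [v0, v2]; linarith
  have hι1 : ∀ x : E d, x i₀ < 0 → δ * x i₁ + δ < -x i₀ → ι x = 1 := fun x h1 h2 =>
    hstrict x 1 fun k hk => by
      fin_cases k
      · change ⟪x, y 0⟫ - ψ 0 < _; rw [v0, v1]; linarith
      · exact absurd rfl hk
      · change ⟪x, y 2⟫ - ψ 2 < _; rw [v1, v2]; linarith
  have hι2 : ∀ x : E d, x i₀ < δ * x i₁ + δ → -x i₀ < δ * x i₁ + δ → ι x = 2 := fun x h1 h2 =>
    hstrict x 2 fun k hk => by
      fin_cases k
      · change ⟪x, y 0⟫ - ψ 0 < _; rw [v0, v2]; linarith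
      · change ⟪x, y 1⟫ - ψ 1 < _; rw [v1, v2]; linarith
      · exact absurd rfl hk
  -- boxes
  have hbox : ∀ a b c e : ℝ, -1 ≤ a → b ≤ 1 → -1 ≤ c → e ≤ 1 → a ≤ b → ∃ B : Set (E d),
      MeasurableSet B ∧ ρ B = ENNReal.ofReal ((b - a) * (e - c) / 4) ∧
      ∀ x, x ∈ B ↔ x ∈ cube d ∧ a ≤ x i₀ ∧ x i₀ ≤ b ∧ c ≤ x i₁ ∧ x i₁ ≤ e := by
    intro a b c e ha hb hc he hab
    have hiff : ∀ x, x ∈ box (fun i => if i = i₀ then a else if i = i₁ then c else -1)
        (fun i => if i = i₀ then b else if i = i₁ then e else 1) ↔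
        x ∈ cube d ∧ a ≤ x i₀ ∧ x i₀ ≤ b ∧ c ≤ x i₁ ∧ x i₁ ≤ e := by
      intro x
      constructor
      · intro h
        have h0 := h i₀
        have h1 := h i₁
        simp only [if_true, h01.symm, if_false] at h0 h1
        refine ⟨fun i => ?_, h0.1, h0.2, h1.1, h1.2⟩
        have := h i
        rw [abs_le]
        simp only at this
        split_ifs at this <;> constructor <;> linarith [this.1, this.2]
      · rintro ⟨h, h1, h2, h3, h4⟩ i
        simp only
        split_ifs with p q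
        · rw [p]; exact ⟨h1, h2⟩
        · rw [q]; exact ⟨h3, h4⟩
        · exact abs_le.1 (h i)
    refine ⟨_, measurableSet_box _ _, ?_, hiff⟩
    rw [hρ, uniform_box fun x hx => ((hiff x).1 hx).1,
      Fintype.prod_eq_mul i₀ i₁ h01 (fun i hi => by simp [hi.1, hi.2])]
    simp only [if_true, h01.symm, if_false]
    rw [← ENNReal.ofReal_mul (by linarith)]
    congr 1
    ring
  have hpos : ∀ j, ρ (ι ⁻¹' {j}) ≠ 0 := by
    intro j h
    fin_cases j
    · obtain ⟨B, -, hB, hB'⟩ := hbox (1 / 2) 1 (-1) 1 (by norm_num) le_rfl le_rfl le_rfl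
        (by norm_num)
      have := measure_mono_null (s := B) (fun x hx => by
        obtain ⟨-, h1, -, -, h2⟩ := (hB' x).1 hx
        exact hι0 x (by linarith) (by nlinarith)) h
      rw [hB] at this
      norm_num at this
    · obtain ⟨B, -, hB, hB'⟩ := hbox (-1) (-1 / 2) (-1) 1 le_rfl (by norm_num) le_rfl le_rfl
        (by norm_num)
      have := measure_mono_null (s := B) (fun x hx => by
        obtain ⟨-, -, h1, -, h2⟩ := (hB' x).1 hx
        exact hι1 x (by linarith) (by nlinarith)) h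
      rw [hB] at this
      norm_num at this
    · obtain ⟨B, -, hB, hB'⟩ := hbox 0 (δ / 2) 0 1 (by norm_num) (by linarith) (by norm_num) le_rfl
        (by linarith)
      have := measure_mono_null (s := B) (fun x hx => by
        obtain ⟨-, h0, h1, h2, -⟩ := (hB' x).1 hx
        exact hι2 x (by nlinarith) (by nlinarith)) h
      rw [hB, ENNReal.ofReal_eq_zero] at this
      linarith
  have hym : Measurable y := measurable_of_finite y
  set σ := refl i₁ with hσ
  have hσm : Measurable σ := σ.continuous.measurable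
  set S : E d → E d := y ∘ ι with hS
  have hSm : Measurable S := hym.comp hιm
  set S' : E d → E d := σ ∘ S ∘ σ with hS'
  have hS'm : Measurable S' := hσm.comp (hSm.comp hσm)
  have hν : ρ.map S' = ρ.map (σ ∘ S) := by
    rw [hS', ← Function.comp_assoc, ← Measure.map_map (hσm.comp hSm) hσm, hρ, map_refl]
  have hsub : ∀ x x', pot y ψ x + ⟪x' - x, S x⟫ ≤ pot y ψ x' := fun x x' => pot_subgrad (hι x) x'
  have hsub' : ∀ x x', pot y ψ (σ x) + ⟪x' - x, S' x⟫ ≤ pot y ψ (σ x') := fun x x' => by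
    have := hsub (σ x) (σ x')
    rw [← map_sub, ← σ.inner_map_map, hσ, refl_refl] at this
    exact this
  have hSn : ∀ x, ‖S x‖ ≤ 1 := fun x => hyn _
  have hS'n : ∀ x, ‖S' x‖ ≤ 1 := fun x => by
    simp only [hS', Function.comp_apply, LinearIsometryEquiv.norm_map]; exact hyn _
  have hlip : LipschitzWith (1 : ℝ).toNNReal (pot y ψ) := by
    refine LipschitzWith.of_le_add_mul' _ fun x x' => ?_
    have h1 := hsub x x'
    have h2 := abs_real_inner_le_norm (x' - x) (S x)
    have h3 := mul_le_mul_of_nonneg_left (hSn x) (norm_nonneg (x' - x))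
    rw [dist_comm, dist_eq_norm]
    linarith [neg_abs_le ⟪x' - x, S x⟫]
  have hlip' := hlip.comp σ.lipschitz
  have hint := uniform_ae_interior hK hKc
  have hint' : ∀ᵐ x ∂ρ, x ∈ cube d := hint.mono fun x hx => interior_subset hx
  have hKn : (cube d).Nonempty := hKi.mono interior_subset
  refine ⟨ρ.map S, ρ.map S', ⟨Measure.isProbabilityMeasure_map hSm.aemeasurable, ?_⟩,
    ⟨Measure.isProbabilityMeasure_map hS'm.aemeasurable, ?_⟩, threeAtomic_map ρ hιm hpos hyi, ?_,
    ⟨S, hSm, rfl, fun T hT hTS => subgrad_optimal hK hKn hint' hlip.continuous hSm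
      (Eventually.of_forall hSn) (Eventually.of_forall hsub) hT hTS⟩,
    ⟨S', hS'm, rfl, fun T hT hTS => subgrad_optimal hK hKn hint' hlip'.continuous hS'm
      (Eventually.of_forall hS'n) (Eventually.of_forall hsub') hT hTS⟩, ?_⟩
  · rw [Measure.map_apply hSm hK.measurableSet.compl]
    convert measure_empty (μ := ρ)
    ext x
    simpa [hS] using hyc (ι x)
  · rw [Measure.map_apply hS'm hK.measurableSet.compl]
    convert measure_empty (μ := ρ)
    ext x
    simpa [hS', hS] using (refl_mem_cube i₁ _).2 (hyc (ι (σ x)))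
  · rw [hν]
    exact threeAtomic_map ρ hιm hpos (σ.injective.comp hyi)
  intro T T' hT hT'
  have e1 : T =ᵐ[ρ] S := subgrad_unique hK hKn hint hlip.continuous
    (uniform_ae_of_ae hlip.ae_differentiableAt) hSm (Eventually.of_forall hSn)
    (Eventually.of_forall hsub) hT.1 hT.2.1 (hT.2.2 S hSm rfl)
  have e2 : T' =ᵐ[ρ] S' := subgrad_unique hK hKn hint hlip'.continuous
    (uniform_ae_of_ae hlip'.ae_differentiableAt) hS'm (Eventually.of_forall hS'n)
    (Eventually.of_forall hsub') hT'.1 hT'.2.1 (hT'.2.2 S' hS'm rfl)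
  have hpm : Measurable fun x => (S x, σ (S x)) := hSm.prodMk (hσm.comp hSm)
  refine ⟨ρ.map fun x => (S x, σ (S x)), ⟨?_, ?_⟩, ?_⟩
  · rw [Measure.map_map measurable_fst hpm]; rfl
  · rw [Measure.map_map measurable_snd hpm, hν]; rfl
  have hcost : quadCost (ρ.map fun x => (S x, σ (S x))) ≤ ENNReal.ofReal (8 * δ ^ 3) := by
    obtain ⟨B, hBm, hB, hB'⟩ := hbox (-(2 * δ)) (2 * δ) (-1) 1 (by linarith) (by linarith) le_rfl
      le_rfl (by linarith)
    rw [quadCost, lintegral_map (by fun_prop) hpm]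
    calc _ ≤ ∫⁻ x, B.indicator (fun _ => ENNReal.ofReal (4 * δ ^ 2)) x ∂ρ := by
          apply lintegral_mono_ae
          filter_upwards [hint'] with x hx
          have hx' := hι x
          simp only [hS, Function.comp_apply]
          generalize ι x = j at hx'
          fin_cases j
          · have : σ (y 0) = y 0 := by
              ext i; rw [hσ, refl_apply]; split_ifs with h
              · simp [hy, h, h01.symm]
              · rfl
            simp [this]
          · have : σ (y 1) = y 1 := by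
              ext i; rw [hσ, refl_apply]; split_ifs with h
              · simp [hy, h, h01.symm]
              · rfl
            simp [this]
          · have h0 := hx' 0
            have h1 := hx' 1
            change _ ≤ ⟪x, y 2⟫ - ψ 2 at h0 h1
            rw [v0, v2] at h0
            rw [v1, v2] at h1
            have h2 := abs_le.1 (hx i₁)
            have hxB : x ∈ B := (hB' x).2 ⟨hx, by nlinarith, by nlinarith, h2.1, h2.2⟩
            rw [indicator_of_mem hxB]
            change ‖y 2 - σ (y 2)‖ₑ ^ 2 ≤ _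
            rw [← ofReal_norm, ← ENNReal.ofReal_pow (norm_nonneg _)]
            apply ENNReal.ofReal_le_ofReal
            have h3 : ‖y 2‖ = δ := by simp [hy, abs_of_pos hδ0]
            have h4 := norm_sub_le (y 2) (σ (y 2))
            rw [σ.norm_map, h3] at h4
            nlinarith [norm_nonneg (y 2 - σ (y 2))]
      _ = ENNReal.ofReal (8 * δ ^ 3) := by
          rw [lintegral_indicator_const hBm, hB, ← ENNReal.ofReal_mul (by positivity)]
          congr 1
          ring
  have hlow : ENNReal.ofReal (δ / 16) ≤ ∫⁻ x, ‖T x - T' x‖ₑ ^ 2 ∂ρ := by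
    obtain ⟨B, hBm, hB, hB'⟩ := hbox (3 * δ / 4) (5 * δ / 4) (1 / 2) 1 (by linarith) (by linarith)
      (by norm_num) le_rfl (by linarith)
    calc ENNReal.ofReal (δ / 16) = ∫⁻ x, B.indicator (fun _ => 1) x ∂ρ := by
          rw [lintegral_indicator_const hBm, hB, one_mul]
          congr 1
          ring
      _ ≤ _ := by
          apply lintegral_mono_ae
          filter_upwards [e1, e2] with x h1 h2
          by_cases hx : x ∈ B
          swap
          · rw [indicator_of_notMem hx]; exact bot_le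
          rw [indicator_of_mem hx, h1, h2]
          obtain ⟨-, a1, a2, a3, a4⟩ := (hB' x).1 hx
          have b1 : ι x = 2 := hι2 x (by nlinarith) (by nlinarith)
          have b2 : ι (σ x) = 0 := hι0 _ (by rw [hσ, refl_apply, if_neg h01]; linarith) (by
            rw [hσ, refl_apply, refl_apply, if_neg h01, if_pos rfl]; nlinarith)
          simp only [hS', hS, Function.comp_apply, b1, b2]
          apply one_le_pow₀
          rw [← ofReal_norm, ENNReal.one_le_ofReal]
          have := PiLp.norm_apply_le (y 2 - σ (y 0)) i₀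
          rw [PiLp.sub_apply, hσ, refl_apply, if_neg h01] at this
          simpa [hy, h01] using this
  refine lt_of_lt_of_le ?_ hlow
  calc (C : ℝ≥0∞) * quadCost (ρ.map fun x => (S x, σ (S x))) ^ α
      ≤ C * ENNReal.ofReal (8 * δ ^ 3) ^ α := by gcongr
    _ = ENNReal.ofReal (C * (8 * δ ^ 3) ^ α) := by
        rw [ENNReal.ofReal_rpow_of_pos (by positivity), ENNReal.ofReal_mul C.coe_nonneg,
          ENNReal.ofReal_coe_nnreal]
    _ < _ := (ENNReal.ofReal_lt_ofReal_iff (by positivity)).2 hδ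

end Crest.Agent.S0110
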