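import Crest.Statements.S0118
import Crest.Agent.FE.Core
import Crest.Agent.FE.RM
import Crest.Agent.FE.RMn
import Crest.Agent.FE.UL
import Crest.Agent.FE.W1
import Crest.Agent.FE.W3
import Crest.Agent.FE.W4b
import Crest.Agent.FE.H
import Crest.Agent.FE.FI
import Crest.Agent.FE.CS
import Crest.Agent.FE.LO
import Crest.Agent.FE.G2
import Crest.Agent.FE.G3
import Crest.Agent.FE.T
import Crest.Agent.FE.Net
import Crest.Agent.FE.V
import Crest.Agent.FE.UP

set_option autoImplicit false
open Crest Crest.AnalysisR Crest.AnalysisR.OperatorAlgebra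

namespace Crest.Agent.S0118

/-- There are a unital complex C⋆-algebra with a faithful tracial state τ, an integer n ≥ 2, a self-adjoint n-tuple X and a standard semicircular n-tuple S (Catalan moments) such that X, S₁, …, S_n are free, the free Fisher information of X + √s S is finite for every s > 0 with s ↦ n/(1+s) − Φ*(X + √s S) integrable on (0, ∞), and the microstates free entropy χ(X) (operator-norm cutoff, limsup over matrix sizes) satisfies −∞ < χ(X) ≤ χ*(X) − 1/2, where χ* is the non-microstates free entropy. -/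
theorem result :
    ∃ (A : Type) (_ : CStarAlgebra A) (τ : A →ₗ[ℂ] ℂ) (n : ℕ) (X S : Fin n → A),
      Crest.OpAlg.IsFaithfulTracialState τ ∧ 2 ≤ n ∧ (∀ i, IsSelfAdjoint (X i)) ∧
      Crest.OpAlg.IsStandardSemicircular τ S ∧ Crest.OpAlg.IsFreeFamily τ (Crest.OpAlg.withNoise X S) ∧
      (∀ s : ℝ, 0 < s → Crest.OpAlg.freeFisher τ (Crest.OpAlg.heatTuple X S s) < ⊤) ∧
      MeasureTheory.IntegrableOn
        (fun s : ℝ => (n : ℝ) / (1 + s) - (Crest.OpAlg.freeFisher τ (Crest.OpAlg.heatTuple X S s)).toReal)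
        (Set.Ioi 0) ∧
      ⊥ < Crest.OpAlg.chi τ X ∧ Crest.OpAlg.chi τ X ≤ ((Crest.OpAlg.chiStar τ X S - 1 / 2 : ℝ) : EReal) := by
  open Crest.Agent.FE in
  exact As.goal (rm rmn) ul w1 w3 (W4b.w4 w1) (fi w1 w3 (hard w3)) cs (lo (rm rmn)) (g2 w3) (g3 w1 w3)
    tr_ (vol net) up

end Crest.Agent.S0118
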