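import Crest.Statements.S0122
import Crest.Agent.CRN.Barrier
import Crest.Agent.CRN.Dyn
import Crest.Agent.CRN.Toric

set_option autoImplicit false
open Crest.AnalysisR.MassAction
open Crest Crest.AnalysisR Crest.AnalysisR.MassAction

namespace Crest.Agent.S0122

/-- For a finite reaction network on `d ≥ 1` species that is weakly reversible, with positive rate constants and mass-action kinetics, every positive stoichiometric class `P` contains a nonempty compact convex set `K` that is forward invariant and absorbing: from every point of `P` there is a solution defined for all forward time, it is unique, it stays coordinatewise positive, and it lies in `K` from some finite time on. -/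
theorem result
    (d : ℕ) (hd : 1 ≤ d) (R : Network d) (hR : IsWeaklyReversible R)
    (k : (Fin d → ℕ) × (Fin d → ℕ) → ℝ) (hk : ∀ r ∈ R, 0 < k r)
    (c : Fin d → ℝ) (hc : ∀ i, 0 < c i) :
    ∃ K : Set (Fin d → ℝ), K ⊆ positiveClass R c ∧ K.Nonempty ∧ IsCompact K ∧ Convex ℝ K ∧
      (∀ x : ℝ → (Fin d → ℝ), IsForwardSolution (field R k) x → x 0 ∈ K →
        ∀ t : ℝ, 0 ≤ t → x t ∈ K) ∧
      (∀ x₀ ∈ positiveClass R c,
        (∃ x : ℝ → (Fin d → ℝ), IsForwardSolution (field R k) x ∧ x 0 = x₀) ∧
        (∀ x x' : ℝ → (Fin d → ℝ), IsForwardSolution (field R k) x →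
          IsForwardSolution (field R k) x' → x 0 = x₀ → x' 0 = x₀ →
          ∀ t : ℝ, 0 ≤ t → x t = x' t) ∧
        (∀ x : ℝ → (Fin d → ℝ), IsForwardSolution (field R k) x → x 0 = x₀ →
          (∀ t : ℝ, 0 ≤ t → ∀ i, 0 < x t i) ∧
          ∃ T : ℝ, 0 ≤ T ∧ ∀ t : ℝ, T ≤ t → x t ∈ K)) := by
  classical
  obtain ⟨N₀, hN₀⟩ : ∃ N₀ : ℕ, ∀ r ∈ R, ∀ i, r.1 i ≤ N₀ ∧ r.2 i ≤ N₀ := by
    refine ⟨∑ r ∈ R, ∑ i, (r.1 i + r.2 i), fun r hr i => ?_⟩
    have h1 : ∑ i, (r.1 i + r.2 i) ≤ ∑ r ∈ R, ∑ i, (r.1 i + r.2 i) :=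
      Finset.single_le_sum (f := fun r : (Fin d → ℕ) × (Fin d → ℕ) => ∑ i, (r.1 i + r.2 i))
        (fun _ _ => Nat.zero_le _) hr
    have h2 : r.1 i + r.2 i ≤ ∑ i, (r.1 i + r.2 i) :=
      Finset.single_le_sum (f := fun i => r.1 i + r.2 i) (fun _ _ => Nat.zero_le _)
        (Finset.mem_univ i)
    omega
  obtain ⟨W, a, hW, hsm, h, hex⟩ := CRN.barriers N₀ c hc
  have hf : ContDiff ℝ 1 (field R k) := by
    unfold field
    fun_prop
  have hfS : ∀ x, field R k x ∈ stoichSubspace R := fun x =>
    Submodule.sum_mem _ fun r hr => Submodule.smul_mem _ _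
      (Submodule.subset_span ⟨r, hr, rfl⟩)
  refine CRN.dyn (stoichSubspace R) (field R k) hf hfS c hc W hW hsm a ?_ hex
  have ev := (Filter.eventually_all_finite hW).2 fun p _ =>
    Real.tendsto_exp_atTop.eventually (CRN.toric R hR k hk p.1)
  filter_upwards [h, ev] with θ h1 h2 x hxS hx
  obtain ⟨h3, h4⟩ := h1 x hx
  refine ⟨h3, fun p hp hact => ?_⟩
  obtain ⟨h5, h6⟩ := h4 p hp hact
  have hpos : ∀ i, 0 < x i := fun i => (h3 i).1
  refine h2 p hp x hpos (fun r hr r' hr' hlt => ?_) ?_
  · have hm : ∀ y : Fin d → ℕ, CRN.mono x y = Real.exp (∑ i, (y i : ℝ) * Real.log (x i)) := by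
      intro y
      rw [Real.exp_sum, CRN.mono]
      refine Finset.prod_congr rfl fun i _ => ?_
      rw [Real.exp_nat_mul, Real.exp_log (hpos i)]
    have h7 := h6 (fun i => (r.1 i : ℤ) - (r'.1 i : ℤ)) (fun i => by
      have := (hN₀ r hr i).1
      have := (hN₀ r' hr' i).1
      rw [abs_le]; constructor <;> omega) (by
      unfold CRN.lev at hlt
      rw [← sub_pos, ← Finset.sum_sub_distrib] at hlt
      refine hlt.trans_eq (Finset.sum_congr rfl fun i _ => ?_)
      push_cast; ring)
    rw [hm, hm, ← Real.exp_add, Real.exp_le_exp, ← le_sub_iff_add_le, ← Finset.sum_sub_distrib]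
    refine h7.trans_eq (Finset.sum_congr rfl fun i _ => ?_)
    push_cast; ring
  · by_contra hcon
    push Not at hcon
    apply h5
    have key : ∀ y ∈ stoichSubspace R, ∑ i, p.1 i * y i = 0 := by
      intro y hy
      induction hy using Submodule.span_induction with
      | mem y hy =>
        obtain ⟨r, hr, rfl⟩ := hy
        have := hcon r hr
        unfold CRN.lev at this
        rw [← sub_eq_zero, ← Finset.sum_sub_distrib] at this
        rw [← this]
        refine Finset.sum_congr rfl fun i _ => ?_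
        unfold reactionVector; ring
      | zero => simp
      | add y z _ _ hy hz => simp [mul_add, Finset.sum_add_distrib, hy, hz]
      | smul t y _ hy =>
        have : ∑ i, p.1 i * (t • y) i = t * ∑ i, p.1 i * y i := by
          rw [Finset.mul_sum]
          exact Finset.sum_congr rfl fun i _ => by simp only [Pi.smul_apply, smul_eq_mul]; ring
        rw [this, hy, mul_zero]
    have := key _ hxS
    rw [← sub_eq_zero, ← Finset.sum_sub_distrib, ← this]
    exact Finset.sum_congr rfl fun i _ => by simp only [Pi.sub_apply]; ring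

end Crest.Agent.S0122
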