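import Crest.Statements.S0125
import Crest.Agent.GP.Bridge

set_option autoImplicit false
open Crest Crest.AnalysisR Crest.AnalysisR.OperatorAlgebra

namespace Crest.Agent.S0125

/-- Let H be a separable complex Hilbert space and M a von Neumann algebra on H that is a factor of type II₁: every element of M commuting with all of M is a scalar, M is infinite-dimensional, and M admits a faithful normal tracial state (presented in vector form). Then M is generated as a von Neumann algebra by one of its elements: some x in M is such that every von Neumann algebra on H containing x contains M. Separability of the predual is modelled by separability of H. -/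
theorem result
    (H : Type*) [NormedAddCommGroup H] [InnerProductSpace ℂ H] [CompleteSpace H]
    [TopologicalSpace.SeparableSpace H] (M : VonNeumannAlgebra H) (hM : Crest.OpAlg.IsTypeIIOneFactor M) :
    ∃ x ∈ M, ∀ N : VonNeumannAlgebra H, x ∈ N → M ≤ N := by
  obtain ⟨h1, h2, ξ, hξ⟩ := hM
  obtain ⟨d, hd⟩ := GP.exists_dense hξ
  have G := GP.gd_vN hξ le_rfl h2 h1
  have e : M.toStarSubalgebra.comap M.toStarSubalgebra.subtype = ⊤ := eq_top_iff.mpr fun x _ => x.2
  rw [e] at G
  obtain ⟨x, hx⟩ := G.single hd
  exact ⟨x, x.2, fun N hN y hy => hx _ (GP.cl_vN hξ N) hN ⟨y, hy⟩⟩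

end Crest.Agent.S0125
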