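import Crest.Statements.S0126
import Crest.Agent.GP.Bridge

set_option autoImplicit false
open Crest Crest.AnalysisR Crest.AnalysisR.OperatorAlgebra

namespace Crest.Agent.S0126

/-- Let P ≤ M be von Neumann algebras on a separable complex Hilbert space H, both factors of type II₁, with P irreducible in M (an element of M commuting with all of P is a scalar), and let ξ present a faithful normal tracial state of M, with squared trace 2-norm x ↦ ∑ ‖x (ξ n)‖². Then the unitaries u of M such that every von Neumann algebra on H containing P and u contains M form a countable intersection of relatively 2-norm-open subsets of the unitaries of M, 2-norm-dense in the unitaries of M. -/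
theorem result
    (H : Type*) [NormedAddCommGroup H] [InnerProductSpace ℂ H] [CompleteSpace H]
    [TopologicalSpace.SeparableSpace H] (P M : VonNeumannAlgebra H) (hPM : P ≤ M)
    (hP : Crest.OpAlg.IsTypeIIOneFactor P) (hM : Crest.OpAlg.IsTypeIIOneFactor M)
    (hPM' : ∀ x ∈ M, (∀ y ∈ P, x * y = y * x) → ∃ c : ℂ, x = c • (1 : H →L[ℂ] H))
    (ξ : ℕ → H) (hξ : Crest.OpAlg.IsFaithfulTracialVectorState M ξ) :
    (∃ O : ℕ → Set (H →L[ℂ] H),
      (∀ k : ℕ, ∀ u ∈ M, u ∈ unitary (H →L[ℂ] H) → u ∈ O k → ∃ δ : ℝ, 0 < δ ∧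
        ∀ v ∈ M, v ∈ unitary (H →L[ℂ] H) → Crest.OpAlg.traceNormSq ξ (v - u) < δ → v ∈ O k) ∧
      (∀ u ∈ M, u ∈ unitary (H →L[ℂ] H) →
        ((∀ N : VonNeumannAlgebra H, P ≤ N → u ∈ N → M ≤ N) ↔ ∀ k : ℕ, u ∈ O k))) ∧
    (∀ u ∈ M, u ∈ unitary (H →L[ℂ] H) → ∀ ε : ℝ, 0 < ε →
      ∃ v ∈ M, v ∈ unitary (H →L[ℂ] H) ∧ (∀ N : VonNeumannAlgebra H, P ≤ N → v ∈ N → M ≤ N) ∧
        Crest.OpAlg.traceNormSq ξ (v - u) < ε) := by
  obtain ⟨d, hd⟩ := GP.exists_dense hξ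
  have G := GP.gd_vN hξ hPM hP.2.1 hPM'
  set P' := P.toStarSubalgebra.comap M.toStarSubalgebra.subtype
  have un : ∀ (u : H →L[ℂ] H) (hu : u ∈ M), u ∈ unitary (H →L[ℂ] H) ↔
      (⟨u, hu⟩ : M.toStarSubalgebra) ∈ unitary M.toStarSubalgebra := fun u hu =>
    ⟨fun h => ⟨Subtype.ext h.1, Subtype.ext h.2⟩,
      fun h => ⟨congrArg Subtype.val h.1, congrArg Subtype.val h.2⟩⟩
  have gen : ∀ v : M.toStarSubalgebra,
      (∀ k, ∀ η > 0, ∃ a ∈ GP.Alg P' v, (GP.trM hξ).n (a - d k) < η) →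
      ∀ N : VonNeumannAlgebra H, P ≤ N → v.1 ∈ N → M ≤ N := fun v h N h1 h2 x hx =>
    GP.cl_vN hξ N ⟨x, hx⟩ fun ε hε => by
      obtain ⟨k, hk⟩ := hd ⟨x, hx⟩ _ (half_pos hε)
      obtain ⟨a, ha, h3⟩ := h k _ (half_pos hε)
      have : GP.Alg P' v ≤ N.toStarSubalgebra.comap M.toStarSubalgebra.subtype :=
        StarAlgebra.adjoin_le (Set.insert_subset h2 fun y hy => h1 hy)
      exact ⟨a, this ha, by linarith [(GP.trM hξ).n_tri a (d k) ⟨x, hx⟩]⟩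
  refine ⟨⟨fun k => {u | ∃ hu : u ∈ M, ∃ a ∈ GP.Alg P' ⟨u, hu⟩,
    (GP.trM hξ).n (a - d k.unpair.1) < 1 / ((k.unpair.2 : ℝ) + 1)}, ?_, fun u hu hu' => ⟨?_, ?_⟩⟩,
    fun u hu hu' ε hε => ?_⟩
  · rintro k u hu - ⟨_, a, ha, h⟩
    obtain ⟨δ, hδ, h1⟩ := GP.Tr.open_alg' (T := GP.trM hξ) ha (sub_pos.mpr h)
    refine ⟨δ ^ 2, by positivity, fun v hv hv' h2 => ?_⟩
    obtain ⟨a', h3, h4⟩ := h1 ⟨v, hv⟩ ((un v hv).mp hv') (by
      rw [← sq_le_sq₀ (GP.Tr.n_nonneg _ _) hδ.le, GP.n_trM_sq]; exact h2.le)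
    exact ⟨hv, a', h3, by linarith [(GP.trM hξ).n_tri a' a (d k.unpair.1)]⟩
  · refine fun h k => ⟨hu, GP.bicomm hξ _ _ (fun z hz => ?_) _ Nat.one_div_pos_of_nat⟩
    let S : Set (H →L[ℂ] H) := Subtype.val '' (GP.Alg P' ⟨u, hu⟩ : Set M.toStarSubalgebra)
    have hS : ∀ z, (∀ a ∈ S, a * z = z * a) →
        z ∈ StarSubalgebra.centralizer ℂ S := fun z hz => by
      rw [StarSubalgebra.mem_centralizer_iff]
      rintro _ ⟨a, ha, rfl⟩
      exact ⟨hz _ ⟨a, ha, rfl⟩, hz _ ⟨star a, star_mem ha, rfl⟩⟩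
    let N : VonNeumannAlgebra H := ⟨StarSubalgebra.centralizer ℂ S, by
      simp [Set.centralizer_centralizer_centralizer]⟩
    have hN : ∀ a ∈ S, a ∈ N.commutant := fun a ha =>
      VonNeumannAlgebra.mem_commutant_iff.mpr fun g hg =>
        ((StarSubalgebra.mem_centralizer_iff ℂ).mp hg a ha).1.symm
    have := h N.commutant (fun y hy => hN y ⟨⟨y, hPM hy⟩, StarAlgebra.subset_adjoin _ _
      (Set.mem_insert_of_mem _ hy), rfl⟩) (hN u ⟨_, StarAlgebra.subset_adjoin _ _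
      (Set.mem_insert _ _), rfl⟩) (d k.unpair.1).2
    exact (VonNeumannAlgebra.mem_commutant_iff.mp this z
      (hS z (by rintro _ ⟨a, ha, rfl⟩; exact hz a ha))).symm
  · refine fun h => gen ⟨u, hu⟩ fun k η hη => ?_
    obtain ⟨l, hl⟩ := exists_nat_one_div_lt hη
    obtain ⟨_, a, ha, h⟩ := h (Nat.pair k l)
    rw [Nat.unpair_pair] at h
    exact ⟨a, ha, h.trans hl⟩
  · obtain ⟨v, h1, h2, h3⟩ := GP.Tr.baire G.hT G.lq d ((un u hu).mp hu') (Real.sqrt_pos.mpr hε)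
    refine ⟨v, v.2, (un _ v.2).mpr h1, gen v h3, ?_⟩
    have := (Real.lt_sqrt (GP.Tr.n_nonneg _ _)).mp h2
    rwa [GP.n_trM_sq] at this

end Crest.Agent.S0126
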