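import Crest.Statements.S0142
import Crest.Agent.FP.Main

set_option autoImplicit false
open Crest Crest.AnalysisR

namespace Crest.Agent.S0142

/-- Let X be a real Banach space that is reflexive, in the sense that the canonical embedding of X into its double dual is surjective. Then every self-map of a nonempty, closed, bounded, convex subset of X that does not increase distances has a fixed point. -/
theorem result
    {X : Type*} [NormedAddCommGroup X] [NormedSpace ℝ X] [CompleteSpace X]
    (hX : Function.Surjective (NormedSpace.inclusionInDoubleDual ℝ X))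
    (C : Set X) (hC₁ : C.Nonempty) (hC₂ : IsClosed C) (hC₃ : Bornology.IsBounded C)
    (hC₄ : Convex ℝ C) (F : X → X) (hF₁ : Set.MapsTo F C C)
    (hF₂ : ∀ a ∈ C, ∀ b ∈ C, ‖F a - F b‖ ≤ ‖a - b‖) :
    ∃ x ∈ C, F x = x := by
  exact Crest.Agent.FP.fixed hX ⟨hC₁, hC₂, hC₃, hC₄, hF₁, hF₂⟩

end Crest.Agent.S0142
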