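import Crest.Statements.S0160
import Crest.Agent.Nk.Main

set_option autoImplicit false
open Crest Crest.AnalysisR Crest.AnalysisR.OperatorAlgebra

namespace Crest.Agent.S0160

/-- There is a unital complex C⋆-algebra A that is infinite-dimensional, is simple (its only closed two-sided ideals are the zero ideal and A), carries a faithful tracial state, and whose irreducible representations on complex Hilbert spaces are pairwise unitarily equivalent. A representation is a ⋆-homomorphism into the bounded operators on a Hilbert space, not required to preserve the unit; irreducible ones are nonzero by definition; A and the Hilbert spaces are taken in the lowest universe. -/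
theorem result :
    ∃ (A : Type) (_ : CStarAlgebra A),
      ¬ FiniteDimensional ℂ A ∧
      (∀ I : TwoSidedIdeal A, IsClosed (I : Set A) → I = ⊥ ∨ I = ⊤) ∧
      (∃ τ : A →ₗ[ℂ] ℂ, Crest.OpAlg.IsFaithfulTracialState τ) ∧
      ∀ (H₁ : Type) [NormedAddCommGroup H₁] [InnerProductSpace ℂ H₁] [CompleteSpace H₁]
        (H₂ : Type) [NormedAddCommGroup H₂] [InnerProductSpace ℂ H₂] [CompleteSpace H₂]
        (π₁ : A →⋆ₙₐ[ℂ] (H₁ →L[ℂ] H₁)) (π₂ : A →⋆ₙₐ[ℂ] (H₂ →L[ℂ] H₂)),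
        Crest.OpAlg.IsIrreducibleRep π₁ → Crest.OpAlg.IsIrreducibleRep π₂ →
          Crest.OpAlg.AreUnitarilyEquivalent π₁ π₂ := by
  obtain ⟨task, htask⟩ := Nk.exists_task
  obtain ⟨S, hS, hI⟩ := Nk.exists_tower task (Nk.gtr_m0 Nk.LL)
  choose PP hP hU using hI
  have hC : ∀ (k : Nk.Task Nk.LL) (T : Set Nk.LL), T.Countable → ∃ α, T ⊆ Set.Iio α ∧
      ∀ PP', Nk.Valid S.t (Nk.AA S (Set.Iio α)) PP' → Nk.Coded S (Set.Iio α) k PP' → PP α = PP' := by
    intro k T hT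
    obtain ⟨α, rfl, h⟩ := htask k T hT
    exact ⟨α, h, hU α⟩
  refine ⟨S.C, S.i, Nk.not_finite hS, fun I _ => Nk.simple hS hP hC I,
    ⟨S.t.τ.toLinearMap, S.t.τ_one, fun a => ?_, fun a h => ?_, S.t.τ_comm⟩, ?_⟩
  · change (S.t.τ _).im = 0 ∧ 0 ≤ (S.t.τ _).re
    rw [S.t.τ_star_self, Complex.ofReal_im, Complex.ofReal_re]
    exact ⟨rfl, sq_nonneg _⟩
  · change S.t.τ _ = 0 at h
    rw [S.t.τ_star_self] at h
    have h2 : S.t.n2 a ^ 2 = 0 := by exact_mod_cast h
    exact S.t.n2_eq_zero (pow_eq_zero_iff two_ne_zero |>.1 h2)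
  · intro H₁ _ _ _ H₂ _ _ _ π₁ π₂ h₁ h₂
    obtain ⟨σ₁, e₁, i₁, ξ₁, n₁⟩ := Nk.exists_unital h₁.1 h₁.2
    obtain ⟨σ₂, e₂, i₂, ξ₂, n₂⟩ := Nk.exists_unital h₂.1 h₂.2
    obtain ⟨U, hU⟩ := Nk.irr_equiv hS hP hC i₁ i₂ n₁ n₂
    exact ⟨U, fun a v => by rw [← e₁, ← e₂, hU]⟩

end Crest.Agent.S0160
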