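import Crest.Statements.S0167
import Crest.Agent.AUC.Daugavet

set_option autoImplicit false
open Crest Crest.AnalysisR

namespace Crest.Agent.S0167

/-- Let E be an infinite-dimensional closed subspace of the real L¹ of a probability space whose closed unit ball is totally bounded for convergence in measure and whose norm has the Daugavet property. Then at every unit x ∈ E and every t > 0 the averaged midpoint quantity sup_F inf_y ((‖x+ty‖+‖x-ty‖)/2 - 1) equals max(t/2, t-1) and the one-sided one sup_F inf_y (‖x+ty‖ - 1) equals max(0, t-2), as matching lower and upper bounds, and E admits no equivalent asymptotically uniformly convex norm. -/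
theorem result (Ω : Type) [MeasurableSpace Ω] (P : MeasureTheory.Measure Ω) [MeasureTheory.IsProbabilityMeasure P]
    (E : Submodule ℝ (MeasureTheory.Lp ℝ 1 P)) (hcl : IsClosed (E : Set (MeasureTheory.Lp ℝ 1 P)))
    (hinf : ¬ FiniteDimensional ℝ E)
    (htb : Crest.AnalysisR.L1Subspace.UnitBallTotallyBoundedInMeasure P E)
    (hD : Crest.AnalysisR.L1Subspace.HasDaugavetProperty E) :
    (∀ t : ℝ, 0 < t →
      (Crest.AnalysisR.L1Subspace.toRealBanach P E hcl).MidpointModulusGE
          (Crest.AnalysisR.L1Subspace.toRealBanach P E hcl).norm t (max (t / 2) (t - 1)) ∧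
        (Crest.AnalysisR.L1Subspace.toRealBanach P E hcl).MidpointModulusLE
          (Crest.AnalysisR.L1Subspace.toRealBanach P E hcl).norm t (max (t / 2) (t - 1)) ∧
        (Crest.AnalysisR.L1Subspace.toRealBanach P E hcl).OneSidedModulusGE
          (Crest.AnalysisR.L1Subspace.toRealBanach P E hcl).norm t (max 0 (t - 2)) ∧
        (Crest.AnalysisR.L1Subspace.toRealBanach P E hcl).OneSidedModulusLE
          (Crest.AnalysisR.L1Subspace.toRealBanach P E hcl).norm t (max 0 (t - 2))) ∧
      ∀ N : E → ℝ, (Crest.AnalysisR.L1Subspace.toRealBanach P E hcl).IsEquivNorm N →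
        ¬ (Crest.AnalysisR.L1Subspace.toRealBanach P E hcl).IsAUC N := by
  have : CompleteSpace E := hcl.completeSpace_coe
  refine ⟨fun t ht => ⟨?_, ?_, ?_, ?_⟩, ?_⟩
  · intro x hx η hη
    obtain ⟨S, hS, h⟩ := AUC.l1_lower htb x ht hη
    refine ⟨(S : Set E), hS.isCof, fun y hy hy1 => ?_⟩
    change E at x y
    change ‖x‖ = 1 at hx
    change ‖y‖ = 1 at hy1
    change max (t / 2) (t - 1) - η ≤ (‖x + t • y‖ + ‖x - t • y‖) / 2 - 1
    have h1 := h y hy hy1
    have h2 := norm_sub_le (x + t • y) (x - t • y)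
    rw [show x + t • y - (x - t • y) = (2 * t) • y by module, norm_smul, hy1, Real.norm_eq_abs,
      abs_of_pos (by positivity)] at h2
    rw [sub_le_iff_le_add, max_le_iff]
    constructor <;> linarith
  · intro x hx F hF η hη
    obtain ⟨S, rfl, hS⟩ := (AUC.isCof_iff (X := E) F).1 hF
    obtain ⟨y, hy, hy1, h1, h2⟩ := AUC.dp_upper hD x hx hS ht hη
    refine ⟨y, hy, hy1, ?_⟩
    change E at x
    change (‖x + t • y‖ + ‖x - t • y‖) / 2 - 1 ≤ max (t / 2) (t - 1) + η
    have h3 : max 1 (t - 1) + t - 1 ≤ 2 * max (t / 2) (t - 1) := by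
      rcases max_choice 1 (t - 1) with h | h <;> rw [h]
      · linarith [le_max_left (t / 2) (t - 1)]
      · linarith [le_max_right (t / 2) (t - 1)]
    linarith
  · intro x hx η hη
    change E at x
    change ‖x‖ = 1 at hx
    obtain ⟨φ, hφ, hφx⟩ := exists_dual_vector'' ℝ x
    refine ⟨_, (AUC.cof_ker φ).isCof, fun y hy hy1 => ?_⟩
    change E at y
    change ‖y‖ = 1 at hy1
    change max 0 (t - 2) - η ≤ ‖x + t • y‖ - 1
    have hy0 : φ y = 0 := hy
    have h1 := φ.le_opNorm (x + t • y)
    rw [map_add, map_smul, hy0, smul_zero, add_zero, hφx, hx] at h1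
    have h2 : ‖φ‖ * ‖x + t • y‖ ≤ ‖x + t • y‖ := mul_le_of_le_one_left (norm_nonneg _) hφ
    have h3 := norm_sub_le (x + t • y) x
    rw [add_sub_cancel_left, norm_smul, hy1, hx, Real.norm_eq_abs, abs_of_pos ht] at h3
    simp only [RCLike.ofReal_one, norm_one] at h1
    rw [sub_le_iff_le_add, max_le_iff]
    constructor <;> linarith
  · intro x hx F hF η hη
    obtain ⟨S, rfl, hS⟩ := (AUC.isCof_iff (X := E) F).1 hF
    obtain ⟨y, hy, hy1, h1, -⟩ := AUC.dp_upper hD x hx hS ht hη
    refine ⟨y, hy, hy1, ?_⟩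
    change E at x
    change ‖x + t • y‖ - 1 ≤ max 0 (t - 2) + η
    have h3 : max 1 (t - 1) - 1 ≤ max 0 (t - 2) := by
      rcases max_choice 1 (t - 1) with h | h <;> rw [h]
      · linarith [le_max_left 0 (t - 2)]
      · linarith [le_max_right 0 (t - 2)]
    linarith
  · intro N hN
    refine AUC.not_auc (X := E) 1 1 one_pos (fun k => ⟨fun _ => {p | ‖p‖ = 1}, ?_, ?_, ?_⟩) N hN
    · intro j _ p hp
      exact le_of_eq hp
    · have : Nontrivial E := by
        by_contra h
        rw [not_nontrivial_iff_subsingleton] at h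
        exact hinf inferInstance
      obtain ⟨p, hp⟩ := exists_norm_eq E zero_le_one
      exact ⟨p, hp, hp.ge⟩
    · intro j _ p hp S hS ε hε
      obtain ⟨y, hy, hy1, z, hz, h⟩ := AUC.dp_main hD p hp hS hε
      refine ⟨(2 : ℝ) • y, S.smul_mem _ hy, ?_, z, hz, h⟩
      rw [norm_smul, hy1]
      norm_num

end Crest.Agent.S0167
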