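import Crest.Statements.S0169
import Crest.Agent.AUC.Prod

set_option autoImplicit false
open MeasureTheory ProbabilityTheory
open Crest Crest.AnalysisR

namespace Crest.Agent.S0169

/-- Let ν be a Borel probability law on ℝ carried by (0,∞), not a point mass, with mean 1 and finite second moment, and W an independent family of real random variables on a probability space indexed by the vertices of the countably branching tree (finite lists of naturals; root [], parent of a :: v is v), each non-root one with law ν. Then the closed linear span in L¹ of the path products ∏_{root ≺ u ≼ v} W_u is infinite-dimensional and has no equivalent asymptotically uniformly convex norm. -/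
theorem result (ν : Measure ℝ) [IsProbabilityMeasure ν] (hpos : ν (Set.Ioi 0) = 1)
    (hnc : ∀ c : ℝ, ν ≠ Measure.dirac c) (hmean : ∫ x, x ∂ν = 1)
    (hm2 : Integrable (fun x : ℝ => x ^ 2) ν)
    (Ω : Type) [MeasurableSpace Ω] (μ : Measure Ω) [IsProbabilityMeasure μ]
    (W : List ℕ → Ω → ℝ) (hW : Crest.AnalysisR.TreeProduct.IsRealization ν μ W) :
    ¬ FiniteDimensional ℝ (Crest.AnalysisR.TreeProduct.productSpan μ W) ∧
      ∀ N : (Crest.AnalysisR.TreeProduct.spanBanach μ W).X → ℝ,
        (Crest.AnalysisR.TreeProduct.spanBanach μ W).IsEquivNorm N →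
          ¬ (Crest.AnalysisR.TreeProduct.spanBanach μ W).IsAUC N := by
  obtain ⟨p, θ, K, hθ, h1, h2, h3⟩ := Crest.Agent.AUC.prod_main hpos hnc hmean hm2 hW
  refine ⟨Crest.Agent.AUC.not_finiteDimensional_of_sqrt (fun n => p [n] - p []) K θ hθ
    (fun n => (h2 n []).ge) (h3 []), ?_⟩
  have : CompleteSpace (Crest.AnalysisR.TreeProduct.productSpan μ W) :=
    (Submodule.isClosed_topologicalClosure _).completeSpace_coe
  intro N hN
  refine Crest.Agent.AUC.not_auc_of_sqrt (X := Crest.AnalysisR.TreeProduct.productSpan μ W)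
    (min θ 1) 1 (lt_min hθ one_pos) (fun k => ⟨fun _ => Set.range p, ?_, ?_, ?_⟩) N hN
  · rintro j - _ ⟨v, rfl⟩
    exact (h1 v).le
  · exact ⟨p [], ⟨[], rfl⟩, (min_le_right _ _).trans (h1 _).ge⟩
  · rintro j - _ ⟨v, rfl⟩
    refine ⟨fun n => p (n :: v) - p v, K, fun n => (min_le_left _ _).trans (h2 n v).ge,
      fun n => ⟨n :: v, by simp⟩, h3 v⟩

end Crest.Agent.S0169
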