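import Crest.Statements.S0175
import Crest.Agent.MM.Geometry
import Crest.Agent.MM.Split

set_option autoImplicit false
open MeasureTheory
open scoped ENNReal ContDiff
open Crest.AnalysisR.OT
open Crest Crest.AnalysisR Crest.AnalysisR.OT

namespace Crest.Agent.S0175

/-- For every d ≥ 2 and s > 0 there is a smooth, compactly supported, nonnegative ρ on ℝᵈ with integral 1 and smooth square root such that, for μ = ρ dx and the cost summing ‖xᵢ - xⱼ‖^(-s) over the three pairs of a triple: some coupling with all three marginals μ has finite cost, minimal among all such couplings; every pair of Borel maps T₂, T₃ pushing μ to itself gives the plan x ↦ (x, T₂ x, T₃ x) strictly larger cost; and such pairs have costs arbitrarily close to that minimum. -/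
theorem result
    (d : ℕ) (hd : 2 ≤ d) (s : ℝ) (hs : 0 < s) :
    ∃ ρ : EuclideanSpace ℝ (Fin d) → ℝ, (∀ x, 0 ≤ ρ x) ∧ ContDiff ℝ ∞ ρ ∧ HasCompactSupport ρ ∧
      ContDiff ℝ ∞ (fun x => Real.sqrt (ρ x)) ∧ ∫ x, ρ x = 1 ∧
      ∃ π₀ : Measure (EuclideanSpace ℝ (Fin d) × EuclideanSpace ℝ (Fin d) × EuclideanSpace ℝ (Fin d)),
        IsCoupling₃ (measOfDensity ρ) π₀ ∧ ∫⁻ p, tripleCost s p ∂π₀ < ⊤ ∧
        (∀ π : Measure (EuclideanSpace ℝ (Fin d) × EuclideanSpace ℝ (Fin d) × EuclideanSpace ℝ (Fin d)), IsCoupling₃ (measOfDensity ρ) π →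
          ∫⁻ p, tripleCost s p ∂π₀ ≤ ∫⁻ p, tripleCost s p ∂π) ∧
        (∀ T₂ T₃ : EuclideanSpace ℝ (Fin d) → EuclideanSpace ℝ (Fin d), Measurable T₂ → Measurable T₃ →
          (measOfDensity ρ).map T₂ = measOfDensity ρ → (measOfDensity ρ).map T₃ = measOfDensity ρ →
          ∫⁻ p, tripleCost s p ∂π₀ < ∫⁻ x, tripleCost s (x, T₂ x, T₃ x) ∂(measOfDensity ρ)) ∧
        (∀ ε : ℝ≥0∞, 0 < ε → ∃ T₂ T₃ : EuclideanSpace ℝ (Fin d) → EuclideanSpace ℝ (Fin d), Measurable T₂ ∧ Measurable T₃ ∧
          (measOfDensity ρ).map T₂ = measOfDensity ρ ∧ (measOfDensity ρ).map T₃ = measOfDensity ρ ∧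
          ∫⁻ x, tripleCost s (x, T₂ x, T₃ x) ∂(measOfDensity ρ) < ∫⁻ p, tripleCost s p ∂π₀ + ε) := by
  classical
  set e : Bool → EuclideanSpace ℝ (Fin d) := fun i =>
    EuclideanSpace.single (if i then ⟨0, by omega⟩ else ⟨1, by omega⟩) 1 with he
  obtain ⟨Y, ψ, hYm, hψm, hYd, hYi, L, hL, hev⟩ := MM.geometry hs (e := e)
    (fun i => by simp [he]) (by simp [he, EuclideanSpace.inner_single_left])
  have hcen := fun {k k'} (h : k ≠ k') => MM.one_le_dist_cen (e := e)
    (fun i => by simp [he]) (by simp [he, EuclideanSpace.inner_single_left]) h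
  choose X hXm hX using fun j => MM.density_push volume (hYm j) (hYd j) (hYi j)
  obtain ⟨r, ⟨⟨g1, g2, g3, g4, g5⟩, hD⟩, hr⟩ :=
    ((hev.and (Filter.eventually_all.2 hX)).and self_mem_nhdsWithin).exists
  have hr : 0 < r := hr
  set S := Metric.closedBall (0 : EuclideanSpace ℝ (Fin d)) r with hS
  have hSc : IsCompact S := isCompact_closedBall _ _
  have hdis : ∀ {k k' x}, x ∈ Metric.ball (MM.cen e k) (1 / 2) →
      x ∈ Metric.ball (MM.cen e k') (1 / 2) → k = k' := by
    intro k k' x hx hy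
    by_contra h
    exact Set.disjoint_left.1 (Metric.ball_disjoint_ball (le_trans (by norm_num) (hcen h))) hx hy
  -- the bump
  let f : ContDiffBump (0 : EuclideanSpace ℝ (Fin d)) := ⟨r / 2, r, by positivity, by linarith⟩
  have hfc : Continuous fun x => f x ^ 2 := f.continuous.pow 2
  have hfs : HasCompactSupport fun x => f x ^ 2 :=
    f.hasCompactSupport.comp_left (g := fun t : ℝ => t ^ 2) (by simp)
  have hI : 0 < ∫ x, f x ^ 2 := hfc.integral_pos_of_hasCompactSupport_nonneg_nonzero hfs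
    (fun x => sq_nonneg _) (x := 0) (by
      rw [f.one_of_mem_closedBall (Metric.mem_closedBall_self f.rIn_pos.le)]; norm_num)
  set b : EuclideanSpace ℝ (Fin d) → ℝ := fun x => f x / √(3 * ∫ x, f x ^ 2) with hb
  have hbd : ContDiff ℝ ∞ b := f.contDiff.div_const _
  have hb0 : ∀ x, 0 ≤ b x := fun x => div_nonneg f.nonneg (Real.sqrt_nonneg _)
  have hbS : Function.support b ⊆ S := fun x hx => by
    have : x ∈ Function.support f := fun h => hx (by simp [hb, h])
    rw [f.support_eq] at this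
    exact Metric.ball_subset_closedBall this
  have hb2 : ∀ x, b x ^ 2 = f x ^ 2 / (3 * ∫ x, f x ^ 2) := fun x => by
    rw [hb, div_pow, Real.sq_sqrt (by positivity)]
  set m : Measure (EuclideanSpace ℝ (Fin d)) :=
    volume.withDensity fun x => ENNReal.ofReal (b x ^ 2) with hm
  have hm1 : m Set.univ = ENNReal.ofReal (1 / 3) := by
    rw [hm, withDensity_apply _ MeasurableSet.univ, Measure.restrict_univ,
      ← ofReal_integral_eq_lintegral_ofReal]
    · simp only [hb2]
      rw [integral_div]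
      congr 1
      field_simp
    · simp only [hb2]
      exact (hfc.integrable_of_hasCompactSupport hfs).div_const _
    · exact Filter.Eventually.of_forall fun x => sq_nonneg _
  have : IsFiniteMeasure m := ⟨by rw [hm1]; exact ENNReal.ofReal_lt_top⟩
  have hm0 : m ≠ 0 := fun h => by
    rw [h, Measure.coe_zero, Pi.zero_apply, eq_comm, ENNReal.ofReal_eq_zero] at hm1
    norm_num at hm1
  have hbm : Measurable fun x => ENNReal.ofReal (b x ^ 2) :=
    (hbd.continuous.pow 2).measurable.ennreal_ofReal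
  have hmS : ∀ᵐ x ∂m, x ∈ S := by
    rw [hm, ae_withDensity_iff hbm]
    exact Filter.Eventually.of_forall fun x hx => hbS fun h => hx (by simp [h])
  choose σ hσd hσ0 hσS hσ using fun j => (hD j).2.2 b hbd hb0 hbS
  set σ' : Option (Bool × Bool) → EuclideanSpace ℝ (Fin d) → ℝ := fun k => k.elim b σ with hσ'
  have hσ'S : ∀ k, Function.support (σ' k) ⊆ MM.par Y k '' S := by
    rintro (_ | j)
    · simpa [hσ', MM.par] using hbS
    · exact hσS j
  have hσ'b : ∀ k x, σ' k x ≠ 0 → x ∈ Metric.ball (MM.cen e k) (1 / 2) := fun k x hx => by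
    obtain ⟨a, ha, rfl⟩ := hσ'S k hx
    exact g1 k a ha
  have hσ'd : ∀ k, ContDiff ℝ ∞ (σ' k) := by
    rintro (_ | j)
    exacts [hbd, hσd j]
  have hσ'0 : ∀ k x, 0 ≤ σ' k x := by
    rintro (_ | j)
    exacts [hb0, hσ0 j]
  set τ : EuclideanSpace ℝ (Fin d) → ℝ := fun x => ∑ k, σ' k x with hτ
  have hτd : ContDiff ℝ ∞ τ := ContDiff.sum fun k _ => hσ'd k
  have hτ0 : ∀ x, 0 ≤ τ x := fun x => Finset.sum_nonneg fun k _ => hσ'0 k x
  have hτ2 : ∀ x, ENNReal.ofReal (τ x ^ 2) = ∑ k, ENNReal.ofReal (σ' k x ^ 2) := by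
    intro x
    by_cases h : ∃ k, σ' k x ≠ 0
    · obtain ⟨k, hk⟩ := h
      have h0 : ∀ k', k' ≠ k → σ' k' x = 0 := fun k' h' => by
        by_contra h
        exact h' (hdis (hσ'b k' x h) (hσ'b k x hk))
      simp only [hτ]
      rw [Finset.sum_eq_single k (fun k' _ h' => h0 k' h') (by simp),
        Finset.sum_eq_single k (fun k' _ h' => by simp [h0 k' h']) (by simp)]
    · push Not at h
      simp [hτ, h]
  have hμ : measOfDensity (fun x => τ x ^ 2) = MM.tot m Y := by
    have h1 : ∀ k, Measurable fun x => ENNReal.ofReal (σ' k x ^ 2) := fun k =>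
      ((hσ'd k).continuous.pow 2).measurable.ennreal_ofReal
    rw [MM.tot, Finset.smul_sum]
    rw [← Finset.sum_congr rfl fun j _ => hσ j]
    ext A hA
    rw [measOfDensity, withDensity_apply _ hA, Measure.add_apply, Measure.finsetSum_apply, hm]
    simp only [withDensity_apply _ hA, hτ2]
    rw [lintegral_finsetSum _ fun k _ => h1 k, Fintype.sum_option]
    rfl
  obtain ⟨lab, hlabm, hlab⟩ := Crest.Agent.OT.exists_measurable_selection
    (fun j : Bool × Bool => Metric.ball (MM.cen e (some j)) (1 / 2))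
    fun j => Metric.isOpen_ball.measurableSet
  have hlabm : Measurable lab := measurable_to_countable' hlabm
  have hl : ∀ j, ∀ a ∈ S, lab (Y j a) = j := fun j a ha =>
    Option.some_injective _ (hdis (hlab _ ⟨j, g1 (some j) a ha⟩) (g1 (some j) a ha))
  have hYS : ∀ j, ∀ a ∈ S, Y j a ∉ S := fun j a ha h => by
    have := hdis (g1 none _ h) (g1 (some j) a ha)
    simp at this
  set X' : EuclideanSpace ℝ (Fin d) → EuclideanSpace ℝ (Fin d) := fun y => X (lab y) y with hX'
  have hX'm : Measurable X' := by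
    have : Measurable fun p : EuclideanSpace ℝ (Fin d) × (Bool × Bool) => X p.2 p.1 :=
      measurable_from_prod_countable_left fun j => hXm j
    exact this.comp (measurable_id.prodMk hlabm)
  have hXY : ∀ j, ∀ a ∈ S, X' (Y j a) = a := fun j a ha => by
    simp only [hX', hl j a ha]
    exact (hD j).2.1 a ha
  set Ψ : EuclideanSpace ℝ (Fin d) → ℝ≥0∞ := fun y => if y ∈ S then ENNReal.ofReal (ψ none y)
    else ENNReal.ofReal (ψ (some (lab y)) (X' y)) with hΨ
  have hΨm : Measurable Ψ := by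
    have : Measurable fun p : EuclideanSpace ℝ (Fin d) × (Bool × Bool) =>
        ψ (some p.2) (X' p.1) := measurable_from_prod_countable_left fun j =>
          (hψm (some j)).comp hX'm
    exact Measurable.ite hSc.measurableSet (hψm none).ennreal_ofReal
      (this.comp (measurable_id.prodMk hlabm)).ennreal_ofReal
  have hΨp : ∀ k, ∀ a ∈ S, Ψ (MM.par Y k a) = ENNReal.ofReal (ψ k a) := by
    rintro (_ | j) a ha
    · simp [hΨ, MM.par, ha]
    · simp [hΨ, MM.par, hYS j a ha, hl j a ha, hXY j a ha]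
  have hT : ∀ {y}, (y ∈ S ∨ ∃ j, ∃ a ∈ S, y = Y j a) → ∃ k, ∃ a ∈ S, y = MM.par Y k a := by
    rintro y (h | ⟨j, a, ha, rfl⟩)
    exacts [⟨none, y, h, rfl⟩, ⟨some j, a, ha, rfl⟩]
  have key := MM.abstract_main (tripleCost s) (MM.continuous_tripleCost s).measurable
    (MM.tripleCost_swap12 s) (MM.tripleCost_swap23 s) m hm0 hSc.measurableSet hmS hYm hlabm hX'm
    hYS hl hXY hΨm (B := ENNReal.ofReal 3) ENNReal.ofReal_ne_top (fun y hy => by
      obtain ⟨k, a, ha, rfl⟩ := hT hy
      rw [hΨp k a ha]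
      exact ENNReal.ofReal_le_ofReal (g2 k a ha)) (fun x y z hx hy hz => by
      obtain ⟨k₁, a₁, h1, rfl⟩ := hT hx
      obtain ⟨k₂, a₂, h2, rfl⟩ := hT hy
      obtain ⟨k₃, a₃, h3, rfl⟩ := hT hz
      rw [hΨp _ _ h1, hΨp _ _ h2, hΨp _ _ h3]
      exact g3 _ _ _ _ h1 _ h2 _ h3) (fun j a ha => by
      rw [g4 j a ha, ← hΨp _ _ ha, ← hΨp _ _ ha, ← hΨp _ _ ha]
      rfl) hL (fun j a ha x hx => by
      refine (g5 j a ha x hx).trans (le_of_eq ?_)
      rw [← hΨp _ _ ha, ← hΨp _ _ ha, ← hΨp _ _ hx]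
      rfl) (fun δ hδ => MM.split_short m hSc hmS measurable_norm (fun a => by
      have : Nontrivial (EuclideanSpace ℝ (Fin d)) :=
        ⟨⟨e true, 0, fun h => by simpa [he] using congrArg norm h⟩⟩
      refine withDensity_absolutelyContinuous _ _ ?_
      convert Measure.addHaar_sphere volume (0 : EuclideanSpace ℝ (Fin d)) a using 2
      ext x
      simp) hδ)
  have hcs : HasCompactSupport fun x => τ x ^ 2 := by
    refine HasCompactSupport.intro (K := Metric.closedBall 0 2) (isCompact_closedBall _ _)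
      fun x hx => ?_
    have h0 : ∀ k, σ' k x = 0 := fun k => by
      by_contra h
      have h1 := hσ'b k x h
      have h2 : ‖MM.cen e k‖ ≤ 1 := by
        rcases k with _ | j
        · simp [MM.cen]
        · exact (MM.norm_cen (fun i => by simp [he]) j).le
      rw [mem_ball_iff_norm] at h1
      refine hx (mem_closedBall_zero_iff.2 ?_)
      linarith [norm_le_insert' x (MM.cen e k)]
    simp [hτ, h0]
  refine ⟨fun x => τ x ^ 2, fun x => sq_nonneg _, hτd.pow 2, hcs, ?_, ?_, ?_⟩
  · simpa only [Real.sqrt_sq (hτ0 _)] using hτd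
  · have h1 : measOfDensity (fun x => τ x ^ 2) Set.univ = 1 := by
      rw [hμ, MM.tot, Measure.add_apply, Measure.smul_apply, Measure.finsetSum_apply]
      simp only [Measure.map_apply (hYm _) MeasurableSet.univ, Set.preimage_univ, hm1]
      rw [Finset.sum_const, Finset.card_univ, nsmul_eq_mul, smul_eq_mul,
        show (2⁻¹ : ℝ≥0∞) = ENNReal.ofReal 2⁻¹ by rw [ENNReal.ofReal_inv_of_pos two_pos]; simp,
        ← ENNReal.ofReal_natCast, ← ENNReal.ofReal_mul (by positivity),
        ← ENNReal.ofReal_mul (by positivity), ← ENNReal.ofReal_add (by positivity) (by positivity)]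
      norm_num
    rw [measOfDensity, withDensity_apply _ MeasurableSet.univ, Measure.restrict_univ] at h1
    rw [integral_eq_lintegral_of_nonneg_ae (Filter.Eventually.of_forall fun x => sq_nonneg _)
      (hτd.continuous.pow 2).aestronglyMeasurable, h1]
    rfl
  · rw [hμ]
    exact key

end Crest.Agent.S0175
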