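import Crest.Statements.S0241
import Crest.Agent.Ising.Final

set_option autoImplicit false
universe u
open Crest Crest.ProbabilityR

namespace Crest.Agent.S0241

/-- Let `d ≥ 3`, `β ≥ 0`, `tanh β ≤ (d-1)^(-1/2)`. On every connected acyclic graph with all degrees `d` (the infinite `d`-regular tree) some measurable map from `[0,1]^V` to spin configurations commutes with every automorphism on every input and, fed independent uniform labels, outputs the free zero-field Ising state: each spin pattern on a finite connected vertex set `S` has probability `1/2` times the product over edges inside `S` of `(1 ± tanh β)/2`, with `+` for agreeing endpoints. -/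
theorem result (d : ℕ) (hd : 3 ≤ d) (β : ℝ)
    (hβ : 0 ≤ β) (hθ : Real.tanh β ≤ ((d : ℝ) - 1) ^ (-(1 / 2 : ℝ))) (V : Type u)
    (G : SimpleGraph V) [G.LocallyFinite] (hT : G.IsTree) (hreg : G.IsRegularOfDegree d) :
    ∃ Φ : (V → unitInterval) → (V → Bool),
      Measurable Φ ∧
      (∀ (g : G ≃g G) (x : V → unitInterval), Φ (x ∘ ⇑g) = Φ x ∘ ⇑g) ∧
      ∀ (S : Finset V) (η : V → Bool), (G.induce (S : Set V)).Connected →
        (Crest.ProbabilityR.Labels.labelMeasure V).map Φ {σ | ∀ v ∈ S, σ v = η v} =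
          ENNReal.ofReal (Crest.ProbabilityR.TreeIsing.isingWeight G (Real.tanh β) S η) := by
  classical
  have hG : Crest.Agent.Ising.Reg G (d - 1) := by
    refine ⟨hT, fun p u h => ?_, fun u => ?_, by omega⟩
    · unfold Crest.Agent.Ising.ch
      rw [Finset.card_erase_of_mem (by simpa using h.symm), G.card_neighborFinset_eq_degree,
        hreg.degree_eq]
    · unfold Crest.Agent.Ising.ch
      have := Finset.card_erase_le (s := G.neighborFinset u) (a := u)
      rw [G.card_neighborFinset_eq_degree, hreg.degree_eq] at this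
      omega
  have h0 : 0 ≤ Real.tanh β := by
    rw [Real.tanh_eq_sinh_div_cosh]
    exact div_nonneg (Real.sinh_nonneg_iff.2 hβ) (Real.cosh_pos β).le
  have hd' : (3 : ℝ) ≤ d := by exact_mod_cast hd
  have hb : ((d - 1 : ℕ) : ℝ) * Real.tanh β ^ 2 ≤ 1 := by
    rw [Nat.cast_sub (by omega), Nat.cast_one]
    have e : (((d : ℝ) - 1) ^ (-(1 / 2 : ℝ))) ^ 2 = ((d : ℝ) - 1)⁻¹ := by
      rw [← Real.rpow_natCast, ← Real.rpow_mul (by linarith), ← Real.rpow_neg_one]
      norm_num
    have := pow_le_pow_left₀ h0 hθ 2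
    rw [e] at this
    calc _ ≤ ((d : ℝ) - 1) * ((d : ℝ) - 1)⁻¹ := mul_le_mul_of_nonneg_left this (by linarith)
      _ = 1 := mul_inv_cancel₀ (by linarith)
  have h1 : Real.tanh β ≤ 3 / 4 := by
    rw [Nat.cast_sub (by omega), Nat.cast_one] at hb
    nlinarith [sq_nonneg (Real.tanh β)]
  obtain ⟨Ψ, m, e, l⟩ := Crest.Agent.Ising.exists_factor hG h0 h1 hb
  obtain ⟨f, hf, hm⟩ := Crest.Agent.FIID.exists_expand.{u}
  have mf : Measurable fun (x : V → unitInterval) (a : ℕ × V) => f (x a.2) a.1 := by fun_prop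
  refine ⟨fun x => Ψ fun a => f (x a.2) a.1, m.comp mf, fun g x => e g fun a => f (x a.2) a.1, fun S η hS => ?_⟩
  rw [← l S η hS]
  exact congrFun (congrArg _ ((MeasureTheory.Measure.map_map m mf).symm.trans
    (congrArg _ (hm V)))) _

end Crest.Agent.S0241
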