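import Crest.Statements.S0254
import Crest.Agent.FIID.FUSF

set_option autoImplicit false
open Crest Crest.ProbabilityR

namespace Crest.Agent.S0254

/-- One rule from (graph on `ℕ`, labels in `[0,1]^ℕ`) to edge sets, jointly measurable in (adjacency table, labels) and commuting on every input with every permutation of `ℕ` acting on graph, labels and pairs, gives i.i.d. uniform labels the free uniform spanning forest's law on every connected locally finite graph: along every exhaustion by finite connected induced pieces, for finite edge sets `F` the chance that the piece's uniform spanning tree contains `F` tends to that for the output. -/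
theorem result :
    ∃ Φ : SimpleGraph ℕ → (ℕ → unitInterval) → (Sym2 ℕ → Bool),
      Measurable (fun p : (ℕ → ℕ → Bool) × (ℕ → unitInterval) =>
          Φ (Crest.ProbabilityR.GraphTables.graphOfTable p.1) p.2) ∧
      (∀ (σ : Equiv.Perm ℕ) (G : SimpleGraph ℕ) (x : ℕ → unitInterval),
          Φ (G.comap ⇑σ) (x ∘ ⇑σ) = Φ G x ∘ Sym2.map ⇑σ) ∧
      ∀ G : SimpleGraph ℕ, G.Connected → (∀ v : ℕ, (G.neighborSet v).Finite) →
        ∀ S : ℕ → Finset ℕ, Monotone S → (∀ v : ℕ, ∃ n, v ∈ S n) →
          (∀ n, (G.induce (S n : Set ℕ)).Connected) →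
          ∀ F : Finset (Sym2 ℕ), (↑F : Set (Sym2 ℕ)) ⊆ G.edgeSet →
            Filter.Tendsto (fun n => Crest.ProbabilityR.SpanningTrees.ustContains G (S n) F) Filter.atTop
              (nhds (((Crest.ProbabilityR.Labels.labelMeasure ℕ).map (Φ G) {ω | ∀ e ∈ F, ω e = true}).toReal)) := by
  obtain ⟨f, hf, hmap⟩ := FIID.exists_expand
  refine ⟨fun G x => FIID.ruleG G (fun a => f (x a.2) a.1), ?_, ?_, ?_⟩
  · refine FIID.measurable_ruleG (G := fun p : (ℕ → ℕ → Bool) × (ℕ → unitInterval) =>
      GraphTables.graphOfTable p.1) (fun u v => ?_) fun b => ?_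
    · have h : ∀ a b : ℕ, Measurable fun p : (ℕ → ℕ → Bool) × (ℕ → unitInterval) =>
          p.1 a b = true := fun a b =>
        measurableSet_setOfPred.1 (measurableSet_eq_fun (by fun_prop) measurable_const)
      simp only [GraphTables.graphOfTable, SimpleGraph.fromRel_adj]
      exact measurable_const.and ((h u v).or (h v u))
    · exact (measurable_pi_apply b.1).comp (hf.comp (by fun_prop))
  · intro σ G x
    funext e
    exact FIID.ruleG_comap σ G (fun a => f (x a.2) a.1) e
  · intro G hG hfin S hm hex hc F hF
    have hc' := fun n => (FIID.connected_induce_iff G (S n)).1 (hc n)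
    have hw : Measurable fun (x : ℕ → unitInterval) (a : ℕ × ℕ) => f (x a.2) a.1 :=
      measurable_pi_iff.2 fun a => (measurable_pi_apply a.1).comp (hf.comp (measurable_pi_apply a.2))
    have hrule : Measurable (FIID.ruleG G) :=
      FIID.measurable_ruleG (G := fun _ => G) (fun _ _ => measurable_const)
        fun b => measurable_pi_apply b
    have h1 := FIID.law_ruleG hG hfin hm hex hc' hF
    rw [← hmap ℕ, MeasureTheory.Measure.map_map hrule hw] at h1
    have h2 := FIID.tendsto_pr hm hex hc' hF
    rw [← h1] at h2
    simp only [FIID.ustContains_eq]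
    exact h2

end Crest.Agent.S0254
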