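import Crest.Statements.S0255
import Crest.Agent.FIID.Labels
import Crest.Agent.FIID.Stable

set_option autoImplicit false
open Crest Crest.ProbabilityR

namespace Crest.Agent.S0255

open MeasureTheory Crest.Agent.FIID in
lemma incl_eq_sum {I : Type*} [DecidableEq I] (ν : Measure (I → Bool)) [IsProbabilityMeasure ν]
    (E S : Finset I) (hS : S ⊆ E) :
    incl ν S = ∑ A ∈ E.powerset with S ⊆ A, (ν {ω | ∀ i ∈ E, (ω i = true ↔ i ∈ A)}).toReal := by
  have h1 : {ω : I → Bool | ∀ j ∈ S, ω j = true} =
      ⋃ A ∈ E.powerset.filter (S ⊆ ·), {ω | ∀ i ∈ E, (ω i = true ↔ i ∈ A)} := by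
    ext ω
    simp only [Set.mem_ofPred_eq, Finset.mem_filter, Finset.mem_powerset, Set.mem_iUnion,
      exists_prop]
    constructor
    · intro h
      refine ⟨E.filter (fun i => ω i = true), ⟨Finset.filter_subset _ _, fun j hj => ?_⟩, ?_⟩
      · exact Finset.mem_filter.2 ⟨hS hj, h j hj⟩
      · intro i hi; simp [hi]
    · rintro ⟨A, ⟨_, h2⟩, h3⟩ j hj
      exact (h3 j (hS hj)).2 (h2 hj)
  unfold incl
  rw [h1, measureReal_biUnion_finset]
  · rfl
  · intro A hA B hB hAB
    simp only [Finset.coe_filter, Finset.mem_powerset, Set.mem_ofPred_eq] at hA hB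
    refine Set.disjoint_left.2 fun ω h1 h2 => hAB ?_
    ext i
    constructor
    · intro hi; exact (h2 i (hA.1 hi)).1 ((h1 i (hA.1 hi)).2 hi)
    · intro hi; exact (h1 i (hB.1 hi)).1 ((h2 i (hB.1 hi)).2 hi)
  · intro A _
    have : {ω : I → Bool | ∀ i ∈ E, (ω i = true ↔ i ∈ A)}
        = ⋂ i ∈ E, (fun ω : I → Bool => ω i) ⁻¹' {b | b = true ↔ i ∈ A} := by
      ext; simp
    rw [this]
    exact Finset.measurableSet_biInter _ fun i _ =>
      measurable_pi_apply i (MeasurableSet.of_discrete)


/-- For a countable group `Γ` and a strongly Rayleigh probability law `ν` on binary configurations `Γ → Bool` that is invariant under every left shift `a ↦ (h ↦ a (g⁻¹ h))`, there is a measurable map from independent uniform labels indexed by `Γ` to configurations that commutes with every left shift and pushes the label law forward to `ν`. -/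
theorem result (Γ : Type*) [Group Γ]
    [Countable Γ] (ν : MeasureTheory.Measure (Γ → Bool)) [MeasureTheory.IsProbabilityMeasure ν]
    (hsr : Crest.ProbabilityR.StronglyRayleigh.IsStronglyRayleigh ν)
    (hinv : Crest.ProbabilityR.StronglyRayleigh.IsShiftInvariant ν) :
    ∃ Φ : (Γ → unitInterval) → (Γ → Bool), Measurable Φ ∧
      (∀ (g : Γ) (u : Γ → unitInterval),
        Φ (Crest.ProbabilityR.StronglyRayleigh.leftShift g u) =
          Crest.ProbabilityR.StronglyRayleigh.leftShift g (Φ u)) ∧
      (Crest.ProbabilityR.Labels.labelMeasure Γ).map Φ = ν := by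
  classical
  obtain ⟨e, he⟩ := exists_surjective_nat Γ
  obtain ⟨f, hf, hmap⟩ := FIID.exists_expand
  let τ : Γ → (Γ ↪ Γ) := fun g => ⟨fun h => g * h, mul_right_injective g⟩
  let Fs : Γ → ℕ → Finset Γ := fun i k => ((Finset.range k).image e).map (τ i)
  have hw : ∀ a : ℕ × Γ, Measurable fun u : Γ → unitInterval => f (u a.2) a.1 := fun a =>
    (measurable_pi_apply a.1).comp (hf.comp (measurable_pi_apply a.2))
  have hout : Measurable (FIID.out2 (FIID.incl ν) Fs) :=
    FIID.measurable_out2 (q := fun _ => FIID.incl ν) (Fs := fun _ => Fs)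
      (fun _ => measurable_const) (fun _ _ _ => MeasurableSet.const _)
      (fun a => measurable_pi_apply a)
  refine ⟨fun u => FIID.out2 (FIID.incl ν) Fs (fun a => f (u a.2) a.1),
    hout.comp (measurable_pi_iff.2 hw), ?_, ?_⟩
  · intro g u
    funext h
    refine FIID.out2_map (τ g⁻¹) (FIID.incl ν) (FIID.incl ν) ?_ Fs Fs ?_
      (fun a => f (u a.2) a.1) h
    · intro S
      unfold FIID.incl MeasureTheory.Measure.real
      rw [← hinv g _ (FIID.measurableSet_incl S)]
      congr 2
      ext ω
      simp [StronglyRayleigh.leftShift, τ]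
    · intro i k
      simp only [Fs, Finset.map_map]
      congr 1
      ext x
      simp [τ, mul_assoc]
  · have h1 : (fun u : Γ → unitInterval => FIID.out2 (FIID.incl ν) Fs (fun a => f (u a.2) a.1))
        = FIID.out2 (FIID.incl ν) Fs ∘ fun u (a : ℕ × Γ) => f (u a.2) a.1 := rfl
    rw [h1, ← MeasureTheory.Measure.map_map hout (measurable_pi_iff.2 hw), hmap]
    have hst : ∀ E : Finset Γ,
        FIID.Stable (fun A => (ν {ω | ∀ i ∈ E, (ω i = true ↔ i ∈ A)}).toReal) E :=
      fun E z hz => hsr E z hz
    refine FIID.map_out2 ν (fun i k => ?_) (fun i k => ?_) ?_ ?_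
    · exact FIID.probAt_of_stable (fun _ => ENNReal.toReal_nonneg) (hst (insert i (Fs i k)))
        (Finset.subset_insert _ _) (Finset.mem_insert_self _ _) _ (incl_eq_sum ν _)
    · exact FIID.lipAt_of_stable (fun _ => ENNReal.toReal_nonneg) (hst (insert i (Fs i k)))
        (Finset.subset_insert _ _) (Finset.mem_insert_self _ _) _ (incl_eq_sum ν _)
    · intro i k l hkl
      exact Finset.map_subset_map.2 (Finset.image_subset_image (Finset.range_mono hkl))
    · intro i j
      obtain ⟨n, hn⟩ := he (i⁻¹ * j)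
      refine ⟨n + 1, Finset.mem_map.2 ⟨e n, Finset.mem_image_of_mem _ (by simp), ?_⟩⟩
      simp [τ, hn]

end Crest.Agent.S0255
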