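import Crest.Statements.S0303
import Crest.Agent.ZD.HypM
import Crest.Agent.ZD.Diam0
import Crest.Agent.DF.Hand

set_option autoImplicit false
open Crest Crest.AlgebraR

namespace Crest.Agent.S0303

/-- There is a group in which only the identity has finite order, which is word-hyperbolic (it has a finite generating set whose word metric satisfies the four-point condition for some constant), and which is not residually finite (some non-identity element lies in every normal subgroup of finite index). -/
theorem result :
    ∃ (G : Type) (_ : Group G),
      (∀ g : G, IsOfFinOrder g → g = 1) ∧ Crest.GroupTheory.IsHyperbolicGroup G ∧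
        ¬ Group.ResiduallyFinite G := by
  obtain ⟨S, _, _, Γ, U, x₀, -, h, a, b, c, hab, hac, hc⟩ := DF.exists_f2 (DF.mach_of
    fun Pt _ _ => ZD.diam_of (fun _ _ _ _ _ _ M g B => ZD.switching M g B) Pt)
  exact h.s0303 a b c hab hac hc

end Crest.Agent.S0303
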