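import Crest.Statements.S0316
import Crest.Agent.Quadric.FlowProps

set_option autoImplicit false
open Crest Crest.GeometryTopology

namespace Crest.Agent.S0316

section aux

open scoped ContDiff Topology NNReal
open Crest.GeometryTopology.Quadric Set Crest.Agent.Quadric

/-- time reparametrisation -/
noncomputable def tb (t : ℝ) : ℝ := Real.sin (Real.pi / 2 * t)

theorem tb_lt (t : ℝ) : |tb t| < 2 := (Real.abs_sin_le_one _).trans_lt (by norm_num)

theorem tb_zero : tb 0 = 0 := by simp [tb]

theorem tb_one : tb 1 = 1 := by simp [tb]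

theorem hasDerivAt_tb (t : ℝ) :
    HasDerivAt tb (Real.cos (Real.pi / 2 * t) * (Real.pi / 2)) t := by
  have : HasDerivAt (fun t : ℝ => Real.pi / 2 * t) (Real.pi / 2) t := by
    simpa using (hasDerivAt_id t).const_mul (Real.pi / 2)
  exact this.sin

theorem contDiff_tb : ContDiff ℝ ∞ tb := by unfold tb; fun_prop

/-- the lifted isotopy -/
noncomputable def lift {ε : ℝ} {ψ : ℝ × E → E} (h : FlowProps ε ψ) : HamiltonianConeLift where
  Ψ p := G (Real.pi * p.1) (ψ (tb p.1, p.2))
  H p := Real.pi * U1 p.2 +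
    Real.cos (Real.pi / 2 * p.1) * (Real.pi / 2) * ε * Fh (G (-(Real.pi * p.1)) p.2)
  smooth_Ψ := by
    have h1 : ContDiff ℝ ∞ fun p : ℝ × E => ψ (tb p.1, p.2) := by
      rw [contDiff_iff_contDiffAt]
      intro p
      exact (h.smooth (tb p.1, p.2) (tb_lt _)).comp p
        (((contDiff_tb.comp contDiff_fst).prodMk contDiff_snd).contDiffAt)
    exact contDiff_G.comp (f := fun p : ℝ × E => (Real.pi * p.1, ψ (tb p.1, p.2)))
      ((contDiff_const.mul contDiff_fst).prodMk h1)
  smooth_H := by
    have h1 : ContDiff ℝ ∞ fun p : ℝ × E => Fh (G (-(Real.pi * p.1)) p.2) :=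
      contDiff_Fh.comp (contDiff_G.comp (f := fun p : ℝ × E => (-(Real.pi * p.1), p.2))
        ((contDiff_const.mul contDiff_fst).neg.prodMk contDiff_snd))
    have h2 : ContDiff ℝ ∞ fun p : ℝ × E => U1 p.2 := contDiff_U1.comp contDiff_snd
    have h3 : ContDiff ℝ ∞ fun p : ℝ × E => Real.cos (Real.pi / 2 * p.1) * (Real.pi / 2) * ε := by
      fun_prop
    exact (contDiff_const.mul h2).add (h3.mul h1)
  mapsTo_cone t z hz := G_mem _ (h.mem z hz _ (tb_lt t))
  compatible t z hz c hc := ⟨c, by simp only [h.equi z hz c hc _ (tb_lt t), G_smul]⟩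
  start z _ := ⟨1, by simp [tb_zero, h.init, G_zero]⟩
  invariant t z _ c hc := by simp only [U1_smul hc, G_smul, Fh_smul hc]
  hamilton t _ z hz w _ := by
    have hθ : HasDerivAt (fun s : ℝ => Real.pi * s) Real.pi t := by
      simpa using (hasDerivAt_id t).const_mul Real.pi
    have h1 := (h.deriv z hz (tb t) (tb_lt t)).scomp t (hasDerivAt_tb t)
    have h2 := hasDerivAt_G hθ h1
    have h3 : deriv (fun s : ℝ => G (Real.pi * s) (ψ (tb s, z))) t = _ := h2.deriv
    simp only [h3]
    set y := G (Real.pi * t) (ψ (tb t, z)) with hy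
    set κ := Real.cos (Real.pi / 2 * t) * (Real.pi / 2) with hκ
    have hl : HasDerivAt (fun s : ℝ => y + s • w) w 0 := by
      simpa using ((hasDerivAt_id (0 : ℝ)).smul_const w).const_add y
    have hG : HasDerivAt (fun s : ℝ => G (-(Real.pi * t)) (y + s • w)) (G (-(Real.pi * t)) w) 0 := by
      have := hasDerivAt_G (hasDerivAt_const (0 : ℝ) (-(Real.pi * t))) hl
      simpa using this
    have hH := ((hasDerivAt_U1 hl).const_mul Real.pi).fun_add
      ((hasDerivAt_Fh hG).const_mul (κ * ε))
    have hd : DifferentiableAt ℝ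
        (fun x : E => Real.pi * U1 x + κ * ε * Fh (G (-(Real.pi * t)) x)) y := by
      have h1 : ContDiff ℝ ∞ fun x : E => Fh (G (-(Real.pi * t)) x) :=
        contDiff_Fh.comp (contDiff_G.comp (f := fun x : E => (-(Real.pi * t), x))
          (contDiff_const.prodMk contDiff_id))
      exact (((contDiff_const.mul contDiff_U1).add (contDiff_const.mul h1)).differentiable
        (by simp)) y
    have hd' : HasFDerivAt (fun x : E => Real.pi * U1 x + κ * ε * Fh (G (-(Real.pi * t)) x))
        (fderiv ℝ (fun x : E => Real.pi * U1 x + κ * ε * Fh (G (-(Real.pi * t)) x)) y)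
        ((fun s : ℝ => y + s • w) 0) := by simpa using hd.hasFDerivAt
    have hc := hd'.comp_hasDerivAt (0 : ℝ) hl
    have hfin := hc.unique hH
    rw [hfin]
    simp only [zero_smul, add_zero, Function.comp_apply]
    rw [← ham_A1, ← ham_Xv, hy, G_G, ← herm_G, smul_smul, G_rsmul]
    simp only [herm_eq, Pi.add_apply, Pi.smul_apply, Complex.real_smul, map_add, map_mul,
      Complex.conj_ofReal, Complex.add_im, Complex.mul_im, Complex.mul_re, Complex.add_re,
      Complex.ofReal_re, Complex.ofReal_im]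
    ring

theorem lift_one {ε : ℝ} {ψ : ℝ × E → E} (h : FlowProps ε ψ) (z : E) :
    (lift h).Ψ (1, z) = G Real.pi (ψ (1, z)) := by
  simp [lift, tb_one]

theorem G_pi_of_four {z : E} (h : z 4 = 0) : G Real.pi z = (-1 : ℂ) • z := by
  rw [G_pi]
  funext j
  fin_cases j <;> simp [h]

theorem fixed_eq {ε : ℝ} {ψ : ℝ × E → E} (h : FlowProps ε ψ) :
    fixedLines (lift h) = {ℓ | ∃ u1 u2 : ℝ, Crit u1 u2 ∧ ℓ = Submodule.span ℂ {zeta u1 u2}} := by
  ext ℓ
  constructor
  · rintro ⟨z, hz, rfl, hmem⟩
    rw [lift_one, Submodule.mem_span_singleton] at hmem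
    obtain ⟨c, hc⟩ := hmem
    have hψ := h.mem z hz 1 (by norm_num)
    have hc1 : ‖c‖ = 1 := norm_eq_one_of_smul_mem hz (hc ▸ G_mem _ hψ)
    have h4 : z 4 = 0 := by
      by_contra h4
      have e4 := congrFun hc 4
      simp only [G_pi, Pi.smul_apply, smul_eq_mul, Matrix.cons_val, h.four z hz] at e4
      have c1 : c = 1 := mul_right_cancel₀ h4 (by rw [e4, one_mul])
      subst c1
      have hs := h.small z hz
      have key : ∀ j, z j = -ψ (1, z) j → ‖z j‖ ≤ 1 / 4 := fun j hj => by
        have := (norm_le_pi_norm (ψ (1, z) - z) j).trans hs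
        have e : (ψ (1, z) - z) j = -2 * z j := by
          rw [Pi.sub_apply]; linear_combination hj
        rw [e, norm_mul] at this
        simp only [norm_neg, Complex.norm_ofNat] at this
        linarith
      rw [one_smul, G_pi] at hc
      exact not_four_ne hz (key 0 (by simpa using congrFun hc 0))
        (key 1 (by simpa using congrFun hc 1)) (key 2 (by simpa using congrFun hc 2))
        (key 3 (by simpa using congrFun hc 3))
    have hq : qv (ψ (1, z)) = qv z := by rw [← qv_G_pi, ← hc, qv_smul hc1]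
    obtain ⟨u1, u2, hu, d, hd⟩ := eq_smul_zeta hz h4 (h.per z hz hq)
    refine ⟨u1, u2, hu, ?_⟩
    have hd1 : ‖d‖ = 1 := norm_eq_one_of_smul_mem (zeta_mem hu.sq) (hd ▸ hz)
    have hd0 : d ≠ 0 := by rintro rfl; simp at hd1
    rw [hd, Submodule.span_singleton_smul_eq (Ne.isUnit hd0)]
  · rintro ⟨u1, u2, hu, rfl⟩
    have hz := zeta_mem hu.sq
    refine ⟨zeta u1 u2, hz, rfl, ?_⟩
    obtain ⟨c, hc⟩ := h.eigen _ hz (-(4 * u2)) (by rw [Xv_zeta hu]; push_cast; rfl)
    rw [lift_one, hc, G_smul, G_pi_of_four (by simp [zeta]), smul_smul]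
    exact Submodule.smul_mem _ _ (Submodule.mem_span_singleton_self _)

theorem span_zeta_inj {u1 u2 v1 v2 : ℝ}
    (h : Submodule.span ℂ {zeta u1 u2} = Submodule.span ℂ {zeta v1 v2}) : u2 = v2 := by
  have : zeta u1 u2 ∈ Submodule.span ℂ {zeta v1 v2} := h ▸ Submodule.mem_span_singleton_self _
  rw [Submodule.mem_span_singleton] at this
  obtain ⟨c, hc⟩ := this
  have e0 := congrFun hc 0
  have e2 := congrFun hc 2
  simp only [zeta, Pi.smul_apply, smul_eq_mul, Matrix.cons_val, Matrix.cons_val_zero] at e0 e2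
  have c1 : c = 1 := mul_right_cancel₀ (b := (⟨1 / 2, 1 / 2⟩ : ℂ))
    (fun h => by simpa using congrArg Complex.re h) (by rw [e0, one_mul])
  subst c1
  have := congrArg Complex.im e2
  simp at this
  linarith

theorem ncard_fixed {ε : ℝ} {ψ : ℝ × E → E} (h : FlowProps ε ψ) :
    (fixedLines (lift h)).ncard = 3 := by
  rw [fixed_eq, Set.ncard_eq_three]
  have h3 : (0 : ℝ) < Real.sqrt 3 := Real.sqrt_pos.mpr (by norm_num)
  have h3' : Real.sqrt 3 ^ 2 = 3 := Real.sq_sqrt (by norm_num)
  refine ⟨Submodule.span ℂ {zeta 1 0}, Submodule.span ℂ {zeta (-1 / 2) (Real.sqrt 3 / 2)},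
    Submodule.span ℂ {zeta (-1 / 2) (-(Real.sqrt 3 / 2))}, fun e => ?_, fun e => ?_,
    fun e => ?_, ?_⟩
  · have := span_zeta_inj e; linarith
  · have := span_zeta_inj e; linarith
  · have := span_zeta_inj e; linarith
  · ext ℓ
    simp only [mem_ofPred_eq, mem_insert_iff, mem_singleton_iff]
    constructor
    · rintro ⟨u1, u2, (⟨rfl, rfl⟩ | ⟨rfl, hu⟩), rfl⟩
      · exact Or.inl rfl
      · have : (u2 - Real.sqrt 3 / 2) * (u2 + Real.sqrt 3 / 2) = 0 := by linarith
        rcases mul_eq_zero.mp this with e | e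
        · right; left; rw [show u2 = Real.sqrt 3 / 2 by linarith]
        · right; right; rw [show u2 = -(Real.sqrt 3 / 2) by linarith]
    · rintro (rfl | rfl | rfl)
      · exact ⟨1, 0, Or.inl ⟨rfl, rfl⟩, rfl⟩
      · exact ⟨_, _, Or.inr ⟨rfl, by linarith⟩, rfl⟩
      · exact ⟨_, _, Or.inr ⟨rfl, by linarith⟩, rfl⟩

theorem degenerate {ε : ℝ} {ψ : ℝ × E → E} (h : FlowProps ε ψ) :
    HasDegenerateFixedPoint (lift h) := by
  have hz : zeta 1 0 ∈ unitCone := zeta_mem (by norm_num)
  let v : E := ![0, 0, (⟨-4, -4⟩ : ℂ), 0, 0]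
  have hb : ∀ s : ℝ, ‖ψ (1, zeta 1 0 + s • wdeg) - (zeta 1 0 + s • wdeg)‖ ≤
      2 * (ε * ‖v‖) * ‖s ^ 2‖ := fun s => by
    refine (h.disp _).trans (le_of_eq ?_)
    rw [Xv_line, norm_smul]; ring
  have h0 : ψ (1, zeta 1 0) = zeta 1 0 := by
    have := hb 0
    simpa [sub_eq_zero] using this
  refine ⟨zeta 1 0, hz, -1, ?_, wdeg, wdeg_mem, ?_, 0, ?_⟩
  · rw [lift_one, h0, G_pi_of_four (by simp [zeta])]
  · intro r hr
    have := congrArg Complex.re (congrFun hr 3)
    simp [wdeg, zeta] at this
  · have hl : HasDerivAt (fun s : ℝ => zeta 1 0 + s • wdeg) wdeg 0 := by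
      simpa using ((hasDerivAt_id (0 : ℝ)).smul_const wdeg).const_add (zeta 1 0)
    have h1 : HasDerivAt (fun s : ℝ => ψ (1, zeta 1 0 + s • wdeg)) wdeg 0 := by
      rw [hasDerivAt_iff_isLittleO]
      have hO : (fun s : ℝ => ψ (1, zeta 1 0 + s • wdeg) - (zeta 1 0 + s • wdeg)) =O[𝓝 0]
          fun s : ℝ => s ^ 2 := Asymptotics.IsBigO.of_bound _ (Filter.Eventually.of_forall hb)
      have := hO.trans_isLittleO (Asymptotics.isLittleO_pow_id (by norm_num : 1 < 2))
      simpa [h0, sub_sub] using this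
    have h2 := hasDerivAt_G (hasDerivAt_const (0 : ℝ) Real.pi) h1
    have hd : DifferentiableAt ℝ (fun x : E => (lift h).Ψ (1, x)) (zeta 1 0) :=
      ((lift h).smooth_Ψ.comp (contDiff_const.prodMk contDiff_id)).differentiable (by simp) _
    have hd' : HasFDerivAt (fun x : E => (lift h).Ψ (1, x))
        (fderiv ℝ (fun x : E => (lift h).Ψ (1, x)) (zeta 1 0))
        ((fun s : ℝ => zeta 1 0 + s • wdeg) 0) := by simpa using hd.hasFDerivAt
    have h3 := hd'.comp_hasDerivAt (0 : ℝ) hl
    simp only [Function.comp_def, lift_one] at h3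
    have := h3.unique h2
    simp only [lift_one]
    rw [this, G_pi_of_four (z := wdeg) (by simp [wdeg])]
    simp

end aux

/-- There is a Hamiltonian diffeomorphism of the complex quadric threefold (the zero set of z₀² + ⋯ + z₄² in complex projective 4-space, with the restricted Fubini–Study form) having exactly three fixed points, at least one of them degenerate. Hamiltonian isotopies are encoded by smooth lifts to the unit isotropic cone in ℂ⁵ obeying Hamilton's equation; points of the quadric are complex lines through cone points; degenerate means the differential of the time-one map fixes a nonzero tangent vector. -/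
theorem result :
    ∃ L : Crest.GeometryTopology.Quadric.HamiltonianConeLift,
      (Crest.GeometryTopology.Quadric.fixedLines L).ncard = 3 ∧
      Crest.GeometryTopology.Quadric.HasDegenerateFixedPoint L := by
  obtain ⟨ε, ψ, h⟩ := Crest.Agent.Quadric.exists_flow
  exact ⟨lift h, ncard_fixed h, degenerate h⟩

end Crest.Agent.S0316
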