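import Crest.Statements.S0324
import Crest.Agent.Cyl.Forms

set_option autoImplicit false
open MeasureTheory
open scoped ENNReal
open Crest Crest.GeometryTopology Crest.GeometryTopology.Convex

namespace Crest.Agent.S0324

/-- The regular tetrahedron `K` with vertices `(±1, 0, 0)`, `(0, ±1, √2)` is covered by finitely many cylinders `Bᵢ + ℝ uᵢ`, each with unit direction `uᵢ` and base `Bᵢ` a triangle (convex hull of three points) in the plane `uᵢ^⊥`, whose total base area `∑ᵢ area(Bᵢ)` is smaller, by a positive margin, than half the area of the orthogonal projection of `K` onto `v^⊥` for every unit vector `v`; areas are 2-dimensional Hausdorff measure. -/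
theorem result :
    ∃ (m : ℕ) (u p q r : Fin m → EuclideanSpace ℝ (Fin 3)),
      (∀ i, ‖u i‖ = 1) ∧
      (∀ i, inner ℝ (p i) (u i) = 0 ∧ inner ℝ (q i) (u i) = 0 ∧ inner ℝ (r i) (u i) = 0) ∧
      convexHull ℝ {!₂[1, 0, 0], !₂[-1, 0, 0], !₂[0, 1, Real.sqrt 2], !₂[0, -1, Real.sqrt 2]} ⊆
        ⋃ i, {x : EuclideanSpace ℝ (Fin 3) | ∃ b ∈ convexHull ℝ {p i, q i, r i}, ∃ t : ℝ, x = b + t • u i} ∧
      ∃ δ : ℝ, 0 < δ ∧ ∀ v : EuclideanSpace ℝ (Fin 3), ‖v‖ = 1 →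
        ∑ i, (μH[(2 : ℝ)] (convexHull ℝ {p i, q i, r i})).toReal + δ ≤
          (μH[(2 : ℝ)] ((fun y => y - inner ℝ y v • v) '' convexHull ℝ {!₂[1, 0, 0], !₂[-1, 0, 0], !₂[0, 1, Real.sqrt 2], !₂[0, -1, Real.sqrt 2]})).toReal / 2 := by
  obtain ⟨u, p, q, r, hu, hperp, hcov, hsum⟩ := Cyl.stdF.exists_tri_cover 0 1
  obtain ⟨κ, hκ, hH⟩ := Cyl.muH_eq
  let e := Fintype.equivFin (Bool × Fin Cyl.NN)
  refine ⟨_, u ∘ e.symm, p ∘ e.symm, q ∘ e.symm, r ∘ e.symm, fun i => hu _, fun i => hperp _,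
    ?_, κ * (Real.sqrt 2 / 10 ^ 8), by positivity, fun v hv => ?_⟩
  · rw [← Cyl.stdF_tetra]
    intro X hX
    obtain ⟨i, hi⟩ := Set.mem_iUnion.mp (hcov hX)
    exact Set.mem_iUnion.mpr ⟨e i, by simpa using hi⟩
  · have h1 := Cyl.stdF.min_proj 0 one_pos hv
    rw [Cyl.pr_eq, ← Cyl.stdF_tetra]
    simp only [hH, Function.comp_apply]
    rw [← Finset.mul_sum, Equiv.sum_comp e.symm (fun i => ((μHE[2] : Measure Cyl.E3)
      (convexHull ℝ {p i, q i, r i})).toReal)]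
    have h2 := mul_le_mul_of_nonneg_left hsum hκ.le
    have h3 := mul_le_mul_of_nonneg_left h1 hκ.le
    linarith

end Crest.Agent.S0324
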