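import Crest.Statements.S0325
import Crest.Agent.Cyl.Forms

set_option autoImplicit false
open MeasureTheory
open scoped ENNReal
open Crest Crest.GeometryTopology Crest.GeometryTopology.Convex

namespace Crest.Agent.S0325

/-- Let K be the regular tetrahedron with vertices (±1, 0, 0), (0, ±1, √2); areas are Lebesgue-normalised 2-dimensional Hausdorff measure. (1) The least area of an orthogonal projection of K onto a plane is √2: each map y ↦ y − ⟪y, v⟫ v with ‖v‖ = 1 sends K to a set of area ≥ √2, equal for some v. (2) For every 0 < ε ≤ 5·10⁻⁴, K is covered by 2⌈2/ε²⌉ cylinders Bᵢ + ℝ uᵢ, uᵢ a unit vector, Bᵢ a triangle (convex hull of three points) in uᵢ^⊥, of total area A with ‖A/√2 − 1/2 + 13 ε²/6000‖ ≤ 2 ε⁴. -/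
theorem result :
    ((∀ v : EuclideanSpace ℝ (Fin 3), ‖v‖ = 1 →
        ENNReal.ofReal (Real.sqrt 2) ≤ μHE[2] ((fun y => y - inner ℝ y v • v) '' convexHull ℝ {!₂[1, 0, 0], !₂[-1, 0, 0], !₂[0, 1, Real.sqrt 2], !₂[0, -1, Real.sqrt 2]})) ∧
      ∃ v : EuclideanSpace ℝ (Fin 3), ‖v‖ = 1 ∧
        μHE[2] ((fun y => y - inner ℝ y v • v) '' convexHull ℝ {!₂[1, 0, 0], !₂[-1, 0, 0], !₂[0, 1, Real.sqrt 2], !₂[0, -1, Real.sqrt 2]}) = ENNReal.ofReal (Real.sqrt 2)) ∧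
    ∀ ε : ℝ, 0 < ε → ε ≤ 1 / 2000 →
      ∃ (u p q r : Fin (2 * ⌈2 / ε ^ 2⌉₊) → EuclideanSpace ℝ (Fin 3)),
        (∀ i, ‖u i‖ = 1) ∧
        (∀ i, inner ℝ (p i) (u i) = 0 ∧ inner ℝ (q i) (u i) = 0 ∧ inner ℝ (r i) (u i) = 0) ∧
        convexHull ℝ {!₂[1, 0, 0], !₂[-1, 0, 0], !₂[0, 1, Real.sqrt 2], !₂[0, -1, Real.sqrt 2]} ⊆
          ⋃ i, {x : EuclideanSpace ℝ (Fin 3) | ∃ b ∈ convexHull ℝ {p i, q i, r i}, ∃ t : ℝ, x = b + t • u i} ∧
        abs ((∑ i, (μHE[2] (convexHull ℝ ({p i, q i, r i} : Set (EuclideanSpace ℝ (Fin 3))))).toReal) / Real.sqrt 2 -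
            (1 / 2 - 13 / 6000 * ε ^ 2)) ≤ 2 * ε ^ 4 := by
  have he : ‖(!₂[1, 0, 0] : Cyl.E3)‖ = 1 := by
    rw [← Real.sqrt_sq (norm_nonneg _), Cyl.normsq3]; simp
  refine ⟨⟨fun v hv => ?_, !₂[1, 0, 0], he, Cyl.std_proj_eq⟩, fun ε hε hε' => ?_⟩
  · have h1 := Cyl.stdF.min_proj 0 one_pos hv
    rw [Cyl.pr_eq, ← Cyl.stdF_tetra,
      ENNReal.ofReal_le_iff_le_toReal (Cyl.stdF.area_pr_tetra_ne_top 0 1 hv)]
    simpa using h1
  · obtain ⟨m, u, p, q, r, hm, hu, hperp, hcov, hsum⟩ := Cyl.stdF.exists_tri_cover' 0 1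
    set A0 := ∑ i, ((μHE[2] : Measure Cyl.E3) (convexHull ℝ {p i, q i, r i})).toReal with hA0
    set x := Real.sqrt 2 * (1 / 2 - 13 / 6000 * ε ^ 2) - A0 with hx
    have hs : 0 < Real.sqrt 2 := by positivity
    have hε2 : ε ^ 2 ≤ (1 / 2000) ^ 2 := by gcongr
    have hx0 : 0 ≤ x := by
      have : Real.sqrt 2 * (1 / 2 - 1 / 10 ^ 8) ≤ Real.sqrt 2 * (1 / 2 - 13 / 6000 * ε ^ 2) :=
        mul_le_mul_of_nonneg_left (by linarith) hs.le
      linarith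
    let f : Option (Fin m) → Cyl.E3 × Cyl.E3 × Cyl.E3 × Cyl.E3 := fun j =>
      match j with
      | none => (!₂[1, 0, 0], 0, !₂[0, 1, 0], !₂[0, 0, 2 * x])
      | some i => (u i, p i, q i, r i)
    have hcard : Fintype.card (Option (Fin m)) ≤ 2 * ⌈2 / ε ^ 2⌉₊ := by
      have : (8000000 : ℕ) ≤ ⌈2 / ε ^ 2⌉₊ := by
        have h1 : ((8000000 : ℕ) : ℝ) ≤ 2 / ε ^ 2 := by
          rw [le_div_iff₀ (by positivity)]; push_cast; linarith
        exact_mod_cast h1.trans (Nat.le_ceil _)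
      rw [Fintype.card_option, Fintype.card_fin]
      omega
    obtain ⟨g, hg1, hg2, hg3⟩ := Cyl.pad _ hcard f (!₂[1, 0, 0], 0, 0, 0)
    refine ⟨fun j => (g j).1, fun j => (g j).2.1, fun j => (g j).2.2.1, fun j => (g j).2.2.2,
      fun j => ?_, fun j => ?_, ?_, ?_⟩
    · rcases hg1 j with h | ⟨_ | i, h⟩ <;> simp only [h, f]
      exacts [he, he, hu i]
    · rcases hg1 j with h | ⟨_ | i, h⟩ <;> simp only [h, f]
      · simp
      · simp only [Cyl.inner3]; simp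
      · exact hperp i
    · rw [← Cyl.stdF_tetra]
      intro X hX
      obtain ⟨i, hi⟩ := Set.mem_iUnion.mp (hcov hX)
      obtain ⟨j, hj⟩ := hg2 (some i)
      exact Set.mem_iUnion.mpr ⟨j, by simpa only [hj, f] using hi⟩
    · have := hg3 (fun y => ((μHE[2] : Measure Cyl.E3)
        (convexHull ℝ {y.2.1, y.2.2.1, y.2.2.2})).toReal)
        (by simp only [Cyl.area_triangle]; simp [Cyl.gr])
      rw [this, Fintype.sum_option]
      have h2 : ((μHE[2] : Measure Cyl.E3) (convexHull ℝ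
          {(f none).2.1, (f none).2.2.1, (f none).2.2.2})).toReal = x := by
        simp only [f, Cyl.area_triangle]
        have : Cyl.gr (!₂[0, 1, 0] - 0 : Cyl.E3) (!₂[0, 0, 2 * x] - 0) = 2 * x := by
          have e1 : ‖(!₂[0, 1, 0] - 0 : Cyl.E3)‖ ^ 2 * ‖(!₂[0, 0, 2 * x] - 0 : Cyl.E3)‖ ^ 2 -
              inner ℝ (!₂[0, 1, 0] - 0 : Cyl.E3) (!₂[0, 0, 2 * x] - 0) ^ 2 = (2 * x) ^ 2 := by
            simp only [Cyl.normsq3, Cyl.inner3, sub_zero]
            simp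
          rw [Cyl.gr, e1, Real.sqrt_sq (by positivity)]
        rw [this, ENNReal.toReal_ofReal (by positivity)]; ring
      rw [h2]
      simp only [f]
      rw [← hA0, hx, sub_add_cancel, mul_div_cancel_left₀ _ hs.ne', sub_self, abs_zero]
      positivity

end Crest.Agent.S0325
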