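import Crest.Statements.S0326
import Crest.Agent.Cyl.Global

set_option autoImplicit false
open MeasureTheory
open scoped ENNReal
open Crest Crest.GeometryTopology Crest.GeometryTopology.Convex

namespace Crest.Agent.S0326

/-- Let D ⊂ ℝ² be compact, V : ℝ² → ℝ² be C¹ on an open set containing D, and L, h > 0, with tr DV(p) = 0 and −1/L² < det DV(p) ≤ 0 for p ∈ D. Let E ⊂ ℝ × ℝ² be the ruled set of points (s, p + s V(p)), p ∈ D, −L ≤ s ≤ L. For every ε > 0, finitely many squares Tᵢ = cᵢ + [0,1]aᵢ + [0,1]bᵢ (aᵢ ⊥ bᵢ of equal nonzero length) and velocities gᵢ ∈ ℝ² exist whose sheared cylinders {(s, ξ) : ξ ∈ Tᵢ + s gᵢ} cover E, with ∑ᵢ area(Tᵢ) J(gᵢ) ≤ ∫_D J(V(p)) dp + ε, where J(g) = (1 + g₁² + h² g₂²)^(−1/2). -/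
theorem result
    (D : Set (EuclideanSpace ℝ (Fin 2))) (hD : IsCompact D)
    (V : EuclideanSpace ℝ (Fin 2) → EuclideanSpace ℝ (Fin 2)) (U : Set (EuclideanSpace ℝ (Fin 2)))
    (hU : IsOpen U) (hDU : D ⊆ U) (hV : ContDiffOn ℝ 1 V U) (L h : ℝ) (hL : 0 < L) (hh : 0 < h)
    (htr : ∀ p ∈ D, LinearMap.trace ℝ _ (fderiv ℝ V p).toLinearMap = 0)
    (hdet : ∀ p ∈ D, -(L ^ 2)⁻¹ < LinearMap.det (fderiv ℝ V p).toLinearMap ∧
      LinearMap.det (fderiv ℝ V p).toLinearMap ≤ 0)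
    (ε : ℝ) (hε : 0 < ε) :
    ∃ (k : ℕ) (c a b g : Fin k → EuclideanSpace ℝ (Fin 2)),
      (∀ i, a i ≠ 0 ∧ ‖b i‖ = ‖a i‖ ∧ inner ℝ (a i) (b i) = 0) ∧
      {z : ℝ × EuclideanSpace ℝ (Fin 2) | ∃ p ∈ D, abs z.1 ≤ L ∧ z.2 = p + z.1 • V p} ⊆
        ⋃ i, {z : ℝ × EuclideanSpace ℝ (Fin 2) | ∃ x ∈ Set.Icc (0 : ℝ) 1, ∃ y ∈ Set.Icc (0 : ℝ) 1,
          z.2 = c i + x • a i + y • b i + z.1 • g i} ∧
      ∑ i, ‖a i‖ ^ 2 / Real.sqrt (1 + (g i 0) ^ 2 + h ^ 2 * (g i 1) ^ 2) ≤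
        (∫ p in D, 1 / Real.sqrt (1 + (V p 0) ^ 2 + h ^ 2 * (V p 1) ^ 2)) + ε := by
  obtain ⟨T, hT1, hT2, hT3⟩ := Cyl.global_cover D hD V U hU hDU hV L hL htr hdet
    (fun g => 1 / Real.sqrt (1 + (g 0) ^ 2 + h ^ 2 * (g 1) ^ 2))
    (by
      refine continuous_const.div (by fun_prop) fun g => ?_
      positivity)
    (fun g => by positivity)
    (fun g => by
      rw [div_le_one (by positivity)]
      exact Real.one_le_sqrt.mpr (by nlinarith [sq_nonneg (g 0), sq_nonneg (h * g 1)]))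
    ε hε
  let e := T.equivFin
  refine ⟨T.card, fun i => (e.symm i).1.1, fun i => (e.symm i).1.2.1, fun i => (e.symm i).1.2.2.1,
    fun i => (e.symm i).1.2.2.2, fun i => hT1 _ (e.symm i).2, ?_, ?_⟩
  · rintro ⟨s, ξ⟩ ⟨p, hp, hs, hξ⟩
    obtain ⟨t, ht, h'⟩ := hT2 p hp s hs
    refine Set.mem_iUnion.mpr ⟨e ⟨t, ht⟩, ?_⟩
    simp only [Equiv.symm_apply_apply]
    simp only at hξ
    subst hξ
    exact h'
  · refine le_trans (le_of_eq ?_) hT3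
    rw [Equiv.sum_comp e.symm (fun t : T => ‖t.1.2.1‖ ^ 2 /
      Real.sqrt (1 + (t.1.2.2.2 0) ^ 2 + h ^ 2 * (t.1.2.2.2 1) ^ 2)),
      Finset.sum_coe_sort T (fun t => ‖t.2.1‖ ^ 2 /
      Real.sqrt (1 + (t.2.2.2 0) ^ 2 + h ^ 2 * (t.2.2.2 1) ^ 2))]
    exact Finset.sum_congr rfl fun t _ => by ring

end Crest.Agent.S0326
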