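import Crest.Statements.S0327
import Crest.Agent.Cyl.Forms

set_option autoImplicit false
open MeasureTheory
open scoped ENNReal
open Crest Crest.GeometryTopology Crest.GeometryTopology.Convex

namespace Crest.Agent.S0327

/-- Let K ⊂ ℝ³ be a regular tetrahedron (convex hull of four points with equal pairwise distances ℓ > 0); areas are Lebesgue-normalised 2-dimensional Hausdorff measure, π_v y = y − ⟪y, v⟫ v. (1) Finitely many cylinders Bᵢ + ℝ uᵢ, ‖uᵢ‖ = 1, with parallelogram bases Bᵢ = cᵢ + [0,1]aᵢ + [0,1]bᵢ in uᵢ^⊥ cover K, ∑ᵢ area(Bᵢ) being below half of area(π_v K) by a positive margin for all unit v, and ∑ᵢ area(Bᵢ)/area(π_{uᵢ} K) < 1/2. (2) The same with bounded relatively open subsets of the uᵢ^⊥ as bases. -/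
theorem result
    (w : Fin 4 → EuclideanSpace ℝ (Fin 3)) (ℓ : ℝ) (hℓ : 0 < ℓ)
    (hw : ∀ i j, i ≠ j → dist (w i) (w j) = ℓ) :
    (∃ (k : ℕ) (u c a b : Fin k → EuclideanSpace ℝ (Fin 3)),
      (∀ i, ‖u i‖ = 1) ∧
      (∀ i, inner ℝ (c i) (u i) = 0 ∧ inner ℝ (a i) (u i) = 0 ∧ inner ℝ (b i) (u i) = 0) ∧
      convexHull ℝ (Set.range w) ⊆ ⋃ i, {x : EuclideanSpace ℝ (Fin 3) |
        ∃ s ∈ Set.Icc (0 : ℝ) 1, ∃ t ∈ Set.Icc (0 : ℝ) 1, ∃ τ : ℝ, x = c i + s • a i + t • b i + τ • u i} ∧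
      (∃ δ : ℝ, 0 < δ ∧ ∀ v : EuclideanSpace ℝ (Fin 3), ‖v‖ = 1 →
        (∑ i, (μHE[2] {x : EuclideanSpace ℝ (Fin 3) |
            ∃ s ∈ Set.Icc (0 : ℝ) 1, ∃ t ∈ Set.Icc (0 : ℝ) 1, x = c i + s • a i + t • b i}).toReal) + δ ≤
          (μHE[2] ((fun y => y - inner ℝ y v • v) '' convexHull ℝ (Set.range w))).toReal / 2) ∧
      ∑ i, (μHE[2] {x : EuclideanSpace ℝ (Fin 3) |
            ∃ s ∈ Set.Icc (0 : ℝ) 1, ∃ t ∈ Set.Icc (0 : ℝ) 1, x = c i + s • a i + t • b i}).toReal /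
          (μHE[2] ((fun y => y - inner ℝ y (u i) • u i) '' convexHull ℝ (Set.range w))).toReal < 1 / 2) ∧
    (∃ (k : ℕ) (u : Fin k → EuclideanSpace ℝ (Fin 3)) (B : Fin k → Set (EuclideanSpace ℝ (Fin 3))),
      (∀ i, ‖u i‖ = 1) ∧
      (∀ i, Bornology.IsBounded (B i) ∧ ∃ O : Set (EuclideanSpace ℝ (Fin 3)), IsOpen O ∧
        B i = O ∩ {x | inner ℝ x (u i) = 0}) ∧
      convexHull ℝ (Set.range w) ⊆
        ⋃ i, {x : EuclideanSpace ℝ (Fin 3) | ∃ y ∈ B i, ∃ τ : ℝ, x = y + τ • u i} ∧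
      (∃ δ : ℝ, 0 < δ ∧ ∀ v : EuclideanSpace ℝ (Fin 3), ‖v‖ = 1 →
        (∑ i, (μHE[2] (B i)).toReal) + δ ≤
          (μHE[2] ((fun y => y - inner ℝ y v • v) '' convexHull ℝ (Set.range w))).toReal / 2) ∧
      ∑ i, (μHE[2] (B i)).toReal /
          (μHE[2] ((fun y => y - inner ℝ y (u i) • u i) '' convexHull ℝ (Set.range w))).toReal < 1 / 2) := by
  obtain ⟨F, o, hK⟩ := Cyl.exists_frame w ℓ hℓ hw
  rw [hK]
  have hc : 0 < ℓ / 2 := by positivity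
  obtain ⟨k, u, P, a, b, hu, hperp, hcov, hsum⟩ := F.exists_par_cover o (ℓ / 2)
  set m := (ℓ / 2) ^ 2 * Real.sqrt 2 with hm
  have hm0 : 0 < m := by positivity
  have hmin : ∀ v : Cyl.E3, ‖v‖ = 1 → m ≤ ((μHE[2] : Measure Cyl.E3)
      ((fun y => y - inner ℝ y v • v) '' F.tetra o (ℓ / 2))).toReal := fun v hv =>
    F.min_proj o hc hv
  constructor
  · have harea : ∀ i, ((μHE[2] : Measure Cyl.E3) {x : Cyl.E3 | ∃ s ∈ Set.Icc (0 : ℝ) 1,
        ∃ t ∈ Set.Icc (0 : ℝ) 1, x = P i + s • a i + t • b i}).toReal = Cyl.gr (a i) (b i) :=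
      fun i => by rw [Cyl.par_eq, Cyl.area_par, ENNReal.toReal_ofReal (Cyl.gr_nonneg _ _)]
    refine ⟨k, u, P, a, b, hu, hperp, fun X hX => ?_, ⟨m / 10 ^ 9, by positivity, fun v hv => ?_⟩,
      ?_⟩
    · obtain ⟨i, h⟩ := hcov X hX
      exact Set.mem_iUnion.mpr ⟨i, h⟩
    · simp only [harea]
      have := hmin v hv
      linarith
    · simp only [harea]
      exact Cyl.norm_cost _ _ m hm0 (fun i => Cyl.gr_nonneg _ _) (fun i => hmin _ (hu i))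
        (by linarith)
  · obtain ⟨B, hB1, hB2, hB3⟩ := Cyl.open_bases u P a b hu hperp
      (by positivity : 0 < m / (2 * 10 ^ 9))
    refine ⟨k, u, B, hu, hB1, fun X hX => ?_, ⟨m / (2 * 10 ^ 9), by positivity, fun v hv => ?_⟩,
      ?_⟩
    · obtain ⟨i, s, hs, t, ht, τ, h⟩ := hcov X hX
      exact Set.mem_iUnion.mpr ⟨i, _, hB2 i s hs t ht, τ, h⟩
    · have := hmin v hv
      linarith
    · exact Cyl.norm_cost _ _ m hm0 (fun i => ENNReal.toReal_nonneg) (fun i => hmin _ (hu i))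
        (by linarith)

end Crest.Agent.S0327
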