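import Crest.Statements.S0328
import Crest.Agent.Cyl.Fan

set_option autoImplicit false
open MeasureTheory
open scoped ENNReal
open Crest Crest.GeometryTopology Crest.GeometryTopology.Convex

namespace Crest.Agent.S0328

/-- Unit e; a, b, p₀ ∈ e^⊥, a, b independent; α < β; L > 0; R ≥ 0, λ both continuous on [α, β]; w(t) ∈ e^⊥, w′ = λ(t)(a + tb). S = {p₀ + ρ(a + t b) + s(e + w t) : α ≤ t ≤ β, 0 ≤ ρ ≤ R t, ‖s‖ ≤ L}; A = κ ∫_α^β R²/(2√(1 + ‖w‖²)), κ = area spanned by a, b. For η > 0 a δ > 0 makes each partition t₀ < … < t_N of [α, β] of mesh ≤ δ, tags cᵢ, admit N cylinders (axes e + w(cᵢ), nondegenerate triangle bases) covering S, total area within η of A; same for S's pieces tᵢ ≤ t ≤ tᵢ₊₁ projected along these axes. -/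
theorem result
    (e a b p₀ : EuclideanSpace ℝ (Fin 3)) (he : ‖e‖ = 1)
    (ha : inner ℝ a e = 0) (hb : inner ℝ b e = 0) (hp₀ : inner ℝ p₀ e = 0)
    (hab : LinearIndependent ℝ ![a, b]) (L : ℝ) (hL : 0 < L) (α β : ℝ) (hαβ : α < β)
    (R : ℝ → ℝ) (hR : ContinuousOn R (Set.Icc α β)) (hR0 : ∀ t ∈ Set.Icc α β, 0 ≤ R t)
    (w : ℝ → EuclideanSpace ℝ (Fin 3)) (hw : ∀ t ∈ Set.Icc α β, inner ℝ (w t) e = 0)
    (lam : ℝ → ℝ) (hlam : ContinuousOn lam (Set.Icc α β))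
    (hw' : ∀ t ∈ Set.Icc α β, HasDerivWithinAt w (lam t • (a + t • b)) (Set.Icc α β) t)
    (η : ℝ) (hη : 0 < η) :
    ∃ δ : ℝ, 0 < δ ∧ ∀ (N : ℕ) (t : Fin (N + 1) → ℝ) (c : Fin N → ℝ),
      StrictMono t → t 0 = α → t (Fin.last N) = β →
      (∀ i : Fin N, t i.succ - t i.castSucc ≤ δ) →
      (∀ i : Fin N, t i.castSucc ≤ c i ∧ c i ≤ t i.succ) →
      (∃ (p q r : Fin N → EuclideanSpace ℝ (Fin 3)),
        (∀ i, inner ℝ (p i) (e + w (c i)) = 0 ∧ inner ℝ (q i) (e + w (c i)) = 0 ∧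
          inner ℝ (r i) (e + w (c i)) = 0) ∧
        (∀ i, AffineIndependent ℝ ![p i, q i, r i]) ∧
        {x : EuclideanSpace ℝ (Fin 3) | ∃ τ ∈ Set.Icc α β, ∃ ρ ∈ Set.Icc 0 (R τ), ∃ s : ℝ, abs s ≤ L ∧
            x = p₀ + ρ • (a + τ • b) + s • (e + w τ)} ⊆
          ⋃ i, {x : EuclideanSpace ℝ (Fin 3) | ∃ y ∈ convexHull ℝ {p i, q i, r i}, ∃ σ : ℝ,
            x = y + σ • (e + w (c i))} ∧
        abs ((∑ i, (μHE[2] (convexHull ℝ ({p i, q i, r i} : Set (EuclideanSpace ℝ (Fin 3))))).toReal) -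
            Real.sqrt (‖a‖ ^ 2 * ‖b‖ ^ 2 - inner ℝ a b ^ 2) *
              ∫ τ in α..β, R τ ^ 2 / (2 * Real.sqrt (1 + ‖w τ‖ ^ 2))) ≤ η) ∧
      abs ((∑ i : Fin N, (μHE[2] ((fun y => y - (inner ℝ y (e + w (c i)) / ‖e + w (c i)‖ ^ 2) • (e + w (c i))) ''
            {x : EuclideanSpace ℝ (Fin 3) | ∃ τ ∈ Set.Icc (t i.castSucc) (t i.succ), ∃ ρ ∈ Set.Icc 0 (R τ),
              ∃ s : ℝ, abs s ≤ L ∧ x = p₀ + ρ • (a + τ • b) + s • (e + w τ)})).toReal) -
          Real.sqrt (‖a‖ ^ 2 * ‖b‖ ^ 2 - inner ℝ a b ^ 2) *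
            ∫ τ in α..β, R τ ^ 2 / (2 * Real.sqrt (1 + ‖w τ‖ ^ 2))) ≤ η := by
  have hwc : ContinuousOn w (Set.Icc α β) := fun t ht => (hw' t ht).continuousWithinAt
  obtain ⟨Λ, hΛ⟩ := isCompact_Icc.exists_bound_of_continuousOn hlam
  obtain ⟨M, hM⟩ := isCompact_Icc.exists_bound_of_continuousOn hR
  have hα : α ∈ Set.Icc α β := Set.left_mem_Icc.mpr hαβ.le
  have hΛ0 : 0 ≤ Λ := (norm_nonneg _).trans (hΛ α hα)
  have hM0 : 0 ≤ M := (norm_nonneg _).trans (hM α hα)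
  change ∃ δ : ℝ, 0 < δ ∧ ∀ (N : ℕ) (t : Fin (N + 1) → ℝ) (c : Fin N → ℝ), _ → _ → _ → _ → _ →
    (∃ p q r : Fin N → Cyl.E3, _ ∧ _ ∧ _ ∧ |_ - Cyl.gr a b * _| ≤ η) ∧ |_ - Cyl.gr a b * _| ≤ η
  obtain ⟨g, hg⟩ : ∃ g, g = Cyl.gr a b := ⟨_, rfl⟩
  have hg0 : 0 ≤ g := hg ▸ Cyl.gr_nonneg a b
  rw [← hg, ← intervalIntegral.integral_const_mul]
  let F : ℝ → ℝ := fun τ => g * (R τ ^ 2 / (2 * Real.sqrt (1 + ‖w τ‖ ^ 2)))
  have hF : ContinuousOn F (Set.Icc α β) := by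
    refine continuousOn_const.mul ((hR.pow 2).div (by fun_prop) fun τ _ => ?_)
    positivity
  have hβα : 0 < β - α := sub_pos.mpr hαβ
  obtain ⟨θ, hθ, hθ1, hθη⟩ : ∃ θ : ℝ, 0 < θ ∧ θ ≤ 1 ∧
      (β - α) * (θ + g * (2 * M + 2) * θ) ≤ η := by
    refine ⟨min 1 (η / ((β - α) * (1 + g * (2 * M + 2)))), by positivity, min_le_left _ _, ?_⟩
    have := min_le_right 1 (η / ((β - α) * (1 + g * (2 * M + 2))))
    rw [le_div_iff₀ (by positivity)] at this
    linarith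
  obtain ⟨δ1, hδ1, hRie⟩ := Cyl.riemann F hαβ hF hθ
  obtain ⟨δ2, hδ2, hRu⟩ := Metric.uniformContinuousOn_iff_le.mp
    (isCompact_Icc.uniformContinuousOn_of_continuous hR) θ hθ
  obtain ⟨κ, hκd⟩ : ∃ κ, κ = L * Λ + 1 := ⟨_, rfl⟩
  have hκ : 0 < κ := by rw [hκd]; positivity
  refine ⟨min δ1 (min δ2 (θ / (3 * κ))), by positivity, fun N t c ht h0 hN hmesh hc => ?_⟩
  have hmem : ∀ j, t j ∈ Set.Icc α β := fun j =>
    ⟨h0 ▸ ht.monotone (Fin.zero_le j), hN ▸ ht.monotone (Fin.le_last j)⟩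
  have hsub : ∀ i : Fin N, Set.Icc (t i.castSucc) (t i.succ) ⊆ Set.Icc α β := fun i =>
    Set.Icc_subset_Icc (hmem _).1 (hmem _).2
  have hci : ∀ i, c i ∈ Set.Icc α β := fun i => hsub i (hc i)
  have hlt : ∀ i : Fin N, t i.castSucc < t i.succ := fun i => ht Fin.castSucc_lt_succ
  have hRc : ∀ i : Fin N, ∀ τ ∈ Set.Icc (t i.castSucc) (t i.succ), |R τ - R (c i)| ≤ θ := by
    intro i τ hτ
    refine hRu τ (hsub i hτ) _ (hci i) ?_
    have := (hmesh i).trans ((min_le_right _ _).trans (min_le_left _ _))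
    rw [Real.dist_eq, abs_le]
    constructor <;> linarith [hτ.1, hτ.2, (hc i).1, (hc i).2]
  have hκh : ∀ i : Fin N, 3 * κ * (t i.succ - t i.castSucc) ≤ θ := fun i => by
    have := (hmesh i).trans ((min_le_right _ _).trans (min_le_right _ _))
    rw [le_div_iff₀ (by positivity)] at this
    linarith
  have hpiece := fun i : Fin N => Cyl.fan_piece p₀ he ha hb (hw _ (hci i)) hab (hlt i) hκ
    (H := R (c i) + θ + κ * (t i.succ - t i.castSucc)) (m := max (R (c i) - θ) 0)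
    (by have := hR0 _ (hci i); have := sub_pos.mpr (hlt i); positivity) (le_max_right _ _)
    {x : Cyl.E3 | ∃ τ ∈ Set.Icc (t i.castSucc) (t i.succ), ∃ ρ ∈ Set.Icc 0 (R τ),
      ∃ s : ℝ, abs s ≤ L ∧ x = p₀ + ρ • (a + τ • b) + s • (e + w τ)}
    (by
      rintro x ⟨τ, hτ, ρ, hρ, s, hs, rfl⟩
      obtain ⟨A, B, h1, h2, h3, h4⟩ := Cyl.wdiff a b w lam hlam hw' hΛ (hmem _).1 (hmem _).2
        (hc i) hτ
      have hh := sub_pos.mpr (hlt i)
      have k : ∀ x y : ℝ, |x| ≤ Λ * y → 0 ≤ y → |s * x| ≤ κ * y := fun x y hx hy => by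
        rw [abs_mul, hκd]
        have := mul_le_mul hs hx (abs_nonneg _) hL.le
        nlinarith
      have k2 := abs_le.mp (k _ _ h2 hh.le)
      have k3 := abs_le.mp (k _ _ h3 (sq_nonneg _))
      have k4 := abs_le.mp (k _ _ h4 (sq_nonneg _))
      have k5 := abs_le.mp (hRc i τ hτ)
      have k6 := mul_nonneg hρ.1 (sub_nonneg.mpr hτ.1)
      have k7 := mul_nonneg hρ.1 (sub_nonneg.mpr hτ.2)
      refine ⟨ρ + s * A, ρ * τ + s * B, s, ?_, by linarith [hρ.2], by linarith, by linarith⟩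
      rw [eq_add_of_sub_eq h1]
      module)
    (by
      intro τ hτ ρ hρ
      refine ⟨τ, hτ, ρ, ⟨hρ.1, hρ.2.trans (max_le ?_ (hR0 _ (hsub i hτ)))⟩, 0, by simpa using hL.le,
        by simp⟩
      linarith [(abs_le.mp (hRc i τ hτ)).1])
  choose p q r hperp hind hcov harea hup hlow using hpiece
  have hest : ∀ (i : Fin N) (x : ℝ),
      (t i.succ - t i.castSucc) * (Cyl.gr a b * ((max (R (c i) - θ) 0) ^ 2 /
        (2 * Real.sqrt (1 + ‖w (c i)‖ ^ 2)))) ≤ x →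
      x ≤ (t i.succ - t i.castSucc) * (Cyl.gr a b * ((R (c i) + θ + κ * (t i.succ - t i.castSucc) +
        2 * κ * (t i.succ - t i.castSucc)) ^ 2 / (2 * Real.sqrt (1 + ‖w (c i)‖ ^ 2)))) →
      |x - (t i.succ - t i.castSucc) * F (c i)| ≤
        (t i.succ - t i.castSucc) * (g * (2 * M + 2) * θ) := by
    intro i x h1 h2
    rw [← hg] at h1 h2
    have hh := sub_pos.mpr (hlt i)
    have hk := hκh i
    have hkh := mul_pos hκ hh
    have hr0 := hR0 _ (hci i)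
    have hrM : R (c i) ≤ M := (le_abs_self _).trans (hM _ (hci i))
    have hn : 1 ≤ Real.sqrt (1 + ‖w (c i)‖ ^ 2) := Real.one_le_sqrt.mpr (by nlinarith [sq_nonneg ‖w (c i)‖])
    simp only [F]
    generalize Real.sqrt (1 + ‖w (c i)‖ ^ 2) = n at *
    generalize t i.succ - t i.castSucc = h at *
    generalize R (c i) = ρ at *
    have k : ∀ u v : ℝ, u - v ≤ 2 * ((2 * M + 2) * θ) →
        h * (g * (u / (2 * n))) - h * (g * (v / (2 * n))) ≤ h * (g * (2 * M + 2) * θ) := by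
      intro u v huv
      have : u / (2 * n) - v / (2 * n) ≤ (2 * M + 2) * θ := by
        rw [← sub_div, div_le_iff₀ (by positivity)]
        have : 0 ≤ (2 * M + 2) * θ := by positivity
        nlinarith
      have := mul_le_mul_of_nonneg_left this (mul_nonneg hh.le hg0)
      linarith
    have k1 := k ((ρ + θ + κ * h + 2 * κ * h) ^ 2) (ρ ^ 2) (by
      have : (ρ + θ + κ * h + 2 * κ * h) ^ 2 ≤ (ρ + 2 * θ) ^ 2 :=
        pow_le_pow_left₀ (by positivity) (by linarith) 2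
      nlinarith)
    have k2 := k (ρ ^ 2) ((max (ρ - θ) 0) ^ 2) (by
      rcases le_total (ρ - θ) 0 with h3 | h3
      · rw [max_eq_right h3]; nlinarith
      · rw [max_eq_left h3]; nlinarith)
    exact abs_le.mpr ⟨by linarith, by linarith⟩
  have hm1 : ∀ i : Fin N, t i.succ - t i.castSucc ≤ δ1 := fun i => (hmesh i).trans (min_le_left _ _)
  refine ⟨⟨p, q, r, hperp, hind, ?_, ?_⟩, ?_⟩
  · rintro x ⟨τ, hτ, h⟩
    have : ∃ i : Fin N, τ ∈ Set.Icc (t i.castSucc) (t i.succ) := by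
      by_contra hcon
      push Not at hcon
      have : ∀ j : Fin (N + 1), t j < τ ∨ j = 0 := by
        intro j
        induction j using Fin.induction with
        | zero => exact Or.inr rfl
        | succ i ih =>
          left
          by_contra h2
          refine hcon i ⟨?_, not_lt.mp h2⟩
          rcases ih with ih | ih
          · exact ih.le
          · rw [ih, h0]; exact hτ.1
      rcases this (Fin.last N) with h2 | h2
      · rw [hN] at h2; exact absurd hτ.2 (not_le.mpr h2)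
      · rw [h2, h0] at hN; exact hαβ.ne hN
    obtain ⟨i, hi⟩ := this
    exact Set.mem_iUnion.mpr ⟨i, hcov i x ⟨τ, hi, h⟩⟩
  · refine (hRie N t c ht h0 hN hm1 hc _ _ fun i => hest i _ ?_ (harea i).le).trans hθη
    rw [harea i]
    exact (hlow i).trans (hup i)
  · exact (hRie N t c ht h0 hN hm1 hc _ _ fun i => hest i _ (hlow i) (hup i)).trans hθη

end Crest.Agent.S0328
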