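import Crest.Statements.S0329
import Crest.Agent.Cyl.Forms
import Crest.Agent.S0326

set_option autoImplicit false
open MeasureTheory
open scoped ENNReal
open Crest Crest.GeometryTopology Crest.GeometryTopology.Convex

namespace Crest.Agent.S0329

/-- Let h, M > 0, D ⊂ ℝ² be compact with Lebesgue-null boundary, and V : ℝ² → ℝ² be C¹ on an open set containing D with tr DV(p) = 0 and −1/M² < det DV(p) < 0 for p ∈ D. For every ε > 0 the set of points (x, p₁ + x V₁(p), h (p₂ + x V₂(p))) ∈ ℝ³ with p ∈ D, −M ≤ x ≤ M is covered by finitely many cylinders Bᵢ + ℝ uᵢ, ‖uᵢ‖ = 1, with bases Bᵢ bounded relatively open subsets of the planes uᵢ^⊥ and ∑ᵢ area(Bᵢ) ≤ h ∫_D (1 + V₁² + h² V₂²)^(−1/2) + ε (areas: normalised 2-dimensional Hausdorff measure). -/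
theorem result
    (h M : ℝ) (hh : 0 < h) (hM : 0 < M) (D : Set (EuclideanSpace ℝ (Fin 2))) (hD : IsCompact D)
    (hbd : volume (frontier D) = 0)
    (V : EuclideanSpace ℝ (Fin 2) → EuclideanSpace ℝ (Fin 2)) (U : Set (EuclideanSpace ℝ (Fin 2)))
    (hU : IsOpen U) (hDU : D ⊆ U) (hV : ContDiffOn ℝ 1 V U)
    (htr : ∀ p ∈ D, LinearMap.trace ℝ _ (fderiv ℝ V p).toLinearMap = 0)
    (hdet : ∀ p ∈ D, -(M ^ 2)⁻¹ < LinearMap.det (fderiv ℝ V p).toLinearMap ∧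
      LinearMap.det (fderiv ℝ V p).toLinearMap < 0)
    (ε : ℝ) (hε : 0 < ε) :
    ∃ (k : ℕ) (u : Fin k → EuclideanSpace ℝ (Fin 3)) (B : Fin k → Set (EuclideanSpace ℝ (Fin 3))),
      (∀ i, ‖u i‖ = 1) ∧
      (∀ i, Bornology.IsBounded (B i) ∧ ∃ O : Set (EuclideanSpace ℝ (Fin 3)), IsOpen O ∧
        B i = O ∩ {x | inner ℝ x (u i) = 0}) ∧
      {z : EuclideanSpace ℝ (Fin 3) | ∃ p ∈ D, ∃ x : ℝ, abs x ≤ M ∧
          z = !₂[x, p 0 + x * V p 0, h * (p 1 + x * V p 1)]} ⊆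
        ⋃ i, {z : EuclideanSpace ℝ (Fin 3) | ∃ y ∈ B i, ∃ τ : ℝ, z = y + τ • u i} ∧
      ∑ i, (μHE[2] (B i)).toReal ≤
        h * (∫ p in D, 1 / Real.sqrt (1 + (V p 0) ^ 2 + h ^ 2 * (V p 1) ^ 2)) + ε := by
  obtain ⟨k, c, a, b, g, hsq, hcov, hsum⟩ := Crest.Agent.S0326.result D hD V U hU hDU hV M h hM hh
    htr (fun p hp => ⟨(hdet p hp).1, (hdet p hp).2.le⟩) (ε / (2 * h)) (by positivity)
  let N : Fin k → ℝ := fun i => Real.sqrt (1 + (g i 0) ^ 2 + h ^ 2 * (g i 1) ^ 2)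
  have hN : ∀ i, 0 < N i := fun i => by simp only [N]; positivity
  have hN2 : ∀ i, N i ^ 2 = 1 + (g i 0) ^ 2 + h ^ 2 * (g i 1) ^ 2 := fun i =>
    Real.sq_sqrt (by positivity)
  clear_value (hNd : N = _)
  let u : Fin k → Cyl.E3 := fun i => !₂[1 / N i, g i 0 / N i, h * g i 1 / N i]
  let l : Cyl.E2 → Cyl.E3 := fun ξ => !₂[0, ξ 0, h * ξ 1]
  have hu : ∀ i, ‖u i‖ = 1 := fun i => by
    rw [← Real.sqrt_sq (norm_nonneg _), Cyl.normsq3, Real.sqrt_eq_one]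
    have := (hN i).ne'
    simp only [u, Matrix.cons_val_zero, Matrix.cons_val_one, Matrix.cons_val]
    field_simp
    linarith [hN2 i]
  obtain ⟨B, hB1, hB2, hB3⟩ := Cyl.open_bases u (fun i => Cyl.pr (u i) (l (c i)))
    (fun i => Cyl.pr (u i) (l (a i))) (fun i => Cyl.pr (u i) (l (b i))) hu
    (fun i => ⟨Cyl.inner_pr (hu i) _, Cyl.inner_pr (hu i) _, Cyl.inner_pr (hu i) _⟩)
    (by positivity : 0 < ε / 2)
  refine ⟨k, u, B, hu, hB1, ?_, ?_⟩
  · rintro z ⟨p, hp, x, hx, rfl⟩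
    obtain ⟨i, s, hs, t, ht, h'⟩ := Set.mem_iUnion.mp (hcov (a := (x, p + x • V p)) ⟨p, hp, hx, rfl⟩)
    refine Set.mem_iUnion.mpr ⟨i, _, hB2 i s hs t ht,
      x * N i + inner ℝ (l (c i) + s • l (a i) + t • l (b i)) (u i), ?_⟩
    rw [← Cyl.pr_smul, ← Cyl.pr_smul, ← Cyl.pr_add, ← Cyl.pr_add, Cyl.pr, add_smul, add_comm (_ • u i),
      ← add_assoc, sub_add_cancel]
    have h0 := congrArg (fun v : Cyl.E2 => v 0) h'
    have h1 := congrArg (fun v : Cyl.E2 => v 1) h'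
    simp only [PiLp.add_apply, PiLp.smul_apply, smul_eq_mul] at h0 h1
    have := (hN i).ne'
    ext j; fin_cases j
    · simp [l, u]; field_simp
    · simp [l, u]; field_simp; linarith
    · simp [l, u]; field_simp; linarith
  · have hgr : ∀ i, Cyl.gr (Cyl.pr (u i) (l (a i))) (Cyl.pr (u i) (l (b i))) =
        h * (‖a i‖ ^ 2 / N i) := fun i => by
      obtain ⟨-, h1, h2⟩ := hsq i
      have h3 : ‖b i‖ ^ 2 = ‖a i‖ ^ 2 := by rw [h1]
      have h4 : (a i 0 * b i 1 - a i 1 * b i 0) ^ 2 = (‖a i‖ ^ 2) ^ 2 := by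
        rw [sq (‖a i‖ ^ 2)]
        nth_rewrite 2 [← h3]
        rw [Cyl.inner2] at h2
        rw [Cyl.normsq2, Cyl.normsq2]
        linear_combination (-(a i 0 * b i 0 + a i 1 * b i 1)) * h2
      have h5 : |a i 0 * b i 1 - a i 1 * b i 0| = ‖a i‖ ^ 2 := by
        rw [← Real.sqrt_sq_eq_abs, h4, Real.sqrt_sq (sq_nonneg _)]
      rw [Cyl.gr_pr (hu i), ← h5]
      have : Cyl.det3 (u i) (l (a i)) (l (b i)) = h / N i * (a i 0 * b i 1 - a i 1 * b i 0) := by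
        simp [Cyl.det3, u, l]; ring
      rw [this, abs_mul, abs_of_pos (div_pos hh (hN i))]; ring
    simp only [hgr] at hB3
    rw [← Finset.mul_sum] at hB3
    have h6 := mul_le_mul_of_nonneg_left hsum hh.le
    have h7 : h * (ε / (2 * h)) = ε / 2 := by field_simp
    simp only [hNd] at hB3
    linarith

end Crest.Agent.S0329
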