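import Crest.Statements.S0348
import Crest.Agent.LC.LowN

set_option autoImplicit false
open MeasureTheory Filter
open scoped ENNReal
open Crest Crest.GeometryTopology Crest.GeometryTopology.Covering

namespace Crest.Agent.S0348

/-- There are constants `c > 0` and `n₀` such that for every `n ≥ n₀` some centrally symmetric convex body `K` in `ℝ^n` has translative covering density at least `c n log n`: for every locally finite set `X` of translation vectors with `K + X = ℝ^n`, the product of `vol(K)` with the upper limit, as `R → ∞`, of the number of points of `X` in the cube `[-R, R]^n` divided by `(2R)^n` is at least `c n log n`. -/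
theorem result :
    ∃ c : ℝ, 0 < c ∧ ∃ n₀ : ℕ, ∀ n : ℕ, n₀ ≤ n →
      ∃ K : Set (Fin n → ℝ), IsCompact K ∧ Convex ℝ K ∧ (interior K).Nonempty ∧
        (∀ x ∈ K, -x ∈ K) ∧
        ∀ X : Set (Fin n → ℝ), (∀ R : ℝ, (X ∩ {x | ∀ i, |x i| ≤ R}).Finite) →
          (∀ y : Fin n → ℝ, ∃ x ∈ X, y - x ∈ K) →
          ENNReal.ofReal (c * n * Real.log n) ≤
            volume K * limsup (fun R : ℝ => ((X ∩ {x | ∀ i, |x i| ≤ R}).ncard : ℝ≥0∞) /
              ENNReal.ofReal ((2 * R) ^ n)) atTop := by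
  obtain ⟨β, hβ⟩ : ∃ β : ℕ, 10 ^ 9 ≤ β := ⟨_, le_rfl⟩
  obtain ⟨n₀, hn₀⟩ := Filter.eventually_atTop.mp (Crest.Agent.LC.Low.eventually_big (20 * β))
  refine ⟨1 / (64 * (27 + 2 * β)) / 112, by positivity, n₀, fun n hn => ?_⟩
  obtain ⟨h1, h2⟩ := hn₀ n hn
  obtain ⟨T, P, θ, ω, hn0, hP, hθ, hxP, hv, hω⟩ :=
    Crest.Agent.LC.Low.exists_good_body β hβ h1 h2
  refine ⟨Crest.Agent.LC.Low.Kb ω, Crest.Agent.LC.Low.isCompact_Kb ω,
    Crest.Agent.LC.Low.convex_Kb ω, Crest.Agent.LC.Low.interior_Kb ω,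
    fun x hx => Crest.Agent.LC.Low.neg_mem_Kb ω hx, fun X hX hcov => ?_⟩
  by_contra hcon
  rw [not_le] at hcon
  have hV := Crest.Agent.LC.Low.vol_Bl_pos (n := n)
  set V := volume.real (Crest.Agent.LC.Low.Bl n 1) with hVd
  set y : ℝ := 1 / (64 * (27 + 2 * β)) / 112 * n * Real.log n with hy
  have hy0 : 0 ≤ y := by positivity
  have hK : ENNReal.ofReal (V / 4) ≤ volume (Crest.Agent.LC.Low.Kb ω) :=
    ENNReal.ofReal_le_of_le_toReal hv
  have hlt : limsup (fun R : ℝ => ((X ∩ {x | ∀ i, |x i| ≤ R}).ncard : ℝ≥0∞) /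
      ENNReal.ofReal ((2 * R) ^ n)) atTop < ENNReal.ofReal (y / (V / 4)) := by
    rw [ENNReal.ofReal_div_of_pos (by positivity), ENNReal.lt_div_iff_mul_lt
      (Or.inl (by simpa using hV)) (Or.inl ENNReal.ofReal_ne_top), mul_comm]
    exact lt_of_le_of_lt (mul_le_mul_left hK _) hcon
  refine Crest.Agent.LC.Low.no_cover hn0 (le_trans (by omega) (Nat.mul_le_mul hβ hn0))
    (Nat.mul_le_mul_right n (by omega)) hP hθ hω X hX hcov (D := y / (V / 4)) (by positivity)
    ?_ ?_
  · filter_upwards [Filter.eventually_lt_of_limsup_lt hlt, Filter.eventually_gt_atTop 0]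
      with R h3 h4
    have h5 : (0 : ℝ) < (2 * R) ^ n := by positivity
    rw [ENNReal.div_lt_iff (Or.inl (by simpa using h5)) (Or.inl ENNReal.ofReal_ne_top),
      ← ENNReal.ofReal_mul (by positivity), ← ENNReal.ofReal_natCast] at h3
    exact (ENNReal.ofReal_le_ofReal_iff (by positivity)).mp h3.le
  · refine le_trans (le_of_eq ?_) hxP
    rw [← hVd, hy]
    field_simp
    ring

end Crest.Agent.S0348
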