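import Crest.Statements.S0423
import Crest.Agent.ExpSum.Prod

set_option autoImplicit false
open Crest Crest.AlgGeometry

namespace Crest.Agent.S0423

open MeasureTheory Filter Topology Crest.Agent.ExpSum in
lemma weight_eq (y : ℝ) : truncExpWeight y = 1 - hh y := by
  unfold truncExpWeight
  split_ifs with h
  · rw [hh_of_nonpos h, sub_zero]
  · rw [hh_of_nonneg (le_of_lt (not_le.mp h)), h1]; ring

open MeasureTheory Filter Topology Crest.Agent.ExpSum in
lemma integral_eq {N : ℕ} (a : Fin N → ℝ) :
    ∫ x in Set.pi Set.univ (fun _ : Fin N => Set.Ioi (0 : ℝ)),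
      truncExpWeight (4 / 3 + ∑ i, a i * x i) * Real.exp (-∑ i, x i) =
      1 - ∫ x, hh (4 / 3 + lin a x) ∂PP N := by
  rw [integral_PP N (fun x => truncExpWeight (4 / 3 + ∑ i, a i * x i))]
  simp_rw [weight_eq]
  have hm : Measurable fun x => 4 / 3 + lin a x :=
    (continuous_const.add (continuous_lin a)).measurable
  have := integral_sub (integrable_const (1 : ℝ)) (integrable_hh_comp (PP N) hm)
  simp only [integral_const, probReal_univ, one_smul] at this
  exact this

open Crest.Agent.ExpSum in
lemma const_eq : Real.exp (4 / 3) / (4 / 3) * (1 - B) =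
    3 / 4 * Real.exp (4 / 3) - Real.exp 1 / 3 := by
  have : Real.exp 1 = Real.exp (4 / 3) * Real.exp (-(1 / 3)) := by
    rw [← Real.exp_add]; norm_num
  rw [this, B]
  ring

/-- For independent mean-one exponential random variables `X_1, …, X_N` (written as an integral over the positive orthant against the density `exp (-(x_1 + ⋯ + x_N))`), real coefficients `a_1, …, a_N` summing to zero, and the weight `g = truncExpWeight`, the quantity `(e^{4/3} / (4/3)) · E[g(4/3 + a_1 X_1 + ⋯ + a_N X_N)]` has supremum over all `N ≥ 1` and all such `a` exactly `(3/4) e^{4/3} − e/3`: it never exceeds this value, and comes within any `ε > 0` of it for some `N` and `a`. -/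
theorem result :
    (∀ (N : ℕ) (a : Fin N → ℝ), 1 ≤ N → ∑ i, a i = 0 →
      Real.exp (4 / 3) / (4 / 3) *
          ∫ x in Set.pi Set.univ (fun _ : Fin N => Set.Ioi (0 : ℝ)),
            Crest.AlgGeometry.truncExpWeight (4 / 3 + ∑ i, a i * x i) * Real.exp (-∑ i, x i)
        ≤ 3 / 4 * Real.exp (4 / 3) - Real.exp 1 / 3) ∧
    (∀ ε : ℝ, 0 < ε → ∃ (N : ℕ) (a : Fin N → ℝ), 1 ≤ N ∧ ∑ i, a i = 0 ∧
      3 / 4 * Real.exp (4 / 3) - Real.exp 1 / 3 - ε <
        Real.exp (4 / 3) / (4 / 3) *
          ∫ x in Set.pi Set.univ (fun _ : Fin N => Set.Ioi (0 : ℝ)),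
            Crest.AlgGeometry.truncExpWeight (4 / 3 + ∑ i, a i * x i) * Real.exp (-∑ i, x i)) := by
  have hc : 0 < Real.exp (4 / 3) / (4 / 3) := by positivity
  refine ⟨fun N a _ ha => ?_, fun ε hε => ?_⟩
  · rw [integral_eq, ← const_eq]
    have := ExpSum.lower a ha
    exact mul_le_mul_of_nonneg_left (by linarith) hc.le
  · have hlim := ExpSum.upper_lim
    have hlt : ExpSum.B < ExpSum.B + ε / (Real.exp (4 / 3) / (4 / 3)) := by
      have := div_pos hε hc
      linarith
    obtain ⟨n, hn, hn0⟩ := ((hlim.eventually (gt_mem_nhds hlt)).and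
      (Filter.eventually_gt_atTop 0)).exists
    refine ⟨n + 1, ExpSum.ext n, by omega, ?_, ?_⟩
    · have : (n : ℝ) ≠ 0 := by positivity
      simp [ExpSum.ext, Fin.sum_univ_succ]
      field_simp
      ring
    · rw [integral_eq, ← const_eq]
      have h1 := (ExpSum.upper hn0).trans_lt hn
      have h2 : Real.exp (4 / 3) / (4 / 3) * (ε / (Real.exp (4 / 3) / (4 / 3))) = ε := by
        field_simp
      have h3 := mul_lt_mul_of_pos_left h1 hc
      rw [mul_add, h2] at h3
      rw [mul_sub, mul_sub]
      linarith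

end Crest.Agent.S0423
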