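import Crest.Statements.S0432
import Crest.Agent.SCS.Algo
import Crest.Agent.SCS.Parse

set_option autoImplicit false
open Crest.Enc
open Crest Crest.LogicCS

namespace Crest.Agent.S0432

/-- Strings are finite lists of natural-number symbols; a family of strings is coded by the number of its members followed by the self-delimiting codes of the members. There is a polynomial-time map on bit strings sending the code of every finite family to the code of a string that contains each member as a contiguous substring and is at most twice as long as any string with that property. -/
theorem result :
    ∃ f : List Bool → List Bool, Crest.Complexity.PolyTime f ∧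
      ∀ S : List (List ℕ), ∃ T : List ℕ,
        f (natCode S.length ++ (S.map listCode).flatten) = listCode T ∧
        (∀ s ∈ S, s <:+: T) ∧
        ∀ T' : List ℕ, (∀ s ∈ S, s <:+: T') → T.length ≤ 2 * T'.length := by
  refine ⟨fun x => listCode (SCS.algo (PT.parseMany (PT.parseMany PT.parseNat) x).1), ?_,
    fun S => ⟨SCS.algo S, ?_, SCS.algo_spec S⟩⟩
  · have h1 : PT.PT (PT.parseMany (PT.parseMany PT.parseNat)) :=
      PT.PT.parseMany (PT.PT.parseMany (PT.PT.parseNat PT.PT.id'))
    have h2 := SCS.pt_algo.comp h1.fst
    refine PT.PT.polyTime (PT.PT.append h2.length.natCode ?_)
    exact (h2.map (f := fun _ b => natCode b) (PT.PT.id'.snd.natCode)).flatten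
  · have := PT.parseMany_spec (p := PT.parseMany PT.parseNat) (c := listCode)
      (fun b r => PT.parseMany_spec PT.parseNat_spec (fun n => by simp [natCode]) b r)
      (fun b => by simp [listCode, natCode]) S []
    rw [List.append_nil] at this
    simp only [this]

end Crest.Agent.S0432
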