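import Crest.Statements.S0453
import Crest.Agent.SW.Kernel

set_option autoImplicit false
open Finset
open Crest Crest.LogicCS

namespace Crest.Agent.S0453

/-- For every n ≥ 4 and every labeled degree vector on n vertices with a simple realization: the lazy switch chain (hold with probability 1/2, else take a uniform four-vertex set and a uniform ordered pair of distinct perfect matchings on it, swapping the first for the second when the first is present and the second absent) is, from every realization, within total variation 1/4 of uniform on the realizations after some t ≤ 2n^8 steps; and Var(f) ≤ 24 n² C(n,4) ⟨f, (I − P) f⟩ for the uniform law. -/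
theorem result (n : ℕ) (hn : 4 ≤ n)
    (d : Fin n → ℕ) (hd : (Crest.SwitchChain.realizations d).Nonempty) :
    (∃ t : ℕ, t ≤ 2 * n ^ 8 ∧ ∀ G ∈ Crest.SwitchChain.realizations d,
        Crest.SwitchChain.tvDist (fun G' => (Crest.SwitchChain.kernel n ^ t) G G')
          (Crest.SwitchChain.unifOn (Crest.SwitchChain.realizations d)) ≤ 1 / 4) ∧
      ∀ f : Finset (Crest.SwitchChain.Edge n) → ℝ,
        ((Crest.SwitchChain.realizations d).card : ℝ) *
              (∑ G ∈ Crest.SwitchChain.realizations d, f G ^ 2) -
            (∑ G ∈ Crest.SwitchChain.realizations d, f G) ^ 2 ≤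
          24 * (n : ℝ) ^ 2 * (n.choose 4 : ℝ) * (Crest.SwitchChain.realizations d).card *
            ∑ G ∈ Crest.SwitchChain.realizations d,
              f G * (f G - ∑ G' ∈ Crest.SwitchChain.realizations d,
                Crest.SwitchChain.kernel n G G' * f G') := by
  have hc : (0 : ℝ) < n.choose 4 := by exact_mod_cast Nat.choose_pos hn
  have hN : (0 : ℝ) < (Crest.SwitchChain.realizations d).card := by exact_mod_cast hd.card_pos
  have n4 : (4 : ℝ) ≤ n := by exact_mod_cast hn
  have hc4 : 24 * (n.choose 4 : ℝ) ≤ (n : ℝ) ^ 4 := by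
    have := Nat.choose_le_pow_div (α := ℝ) 4 n
    rw [le_div_iff₀ (by positivity)] at this
    norm_num [Nat.factorial] at this
    linarith
  constructor
  · refine ⟨2 * n ^ 8, le_rfl, fun G hG => ?_⟩
    have n6 : (1 : ℝ) ≤ (n : ℝ) ^ 6 := one_le_pow₀ (by linarith)
    obtain ⟨m1, m2, m3⟩ := SW.mix (K := Crest.SwitchChain.kernel n) SW.k_symm
      (fun x y => by unfold Crest.SwitchChain.kernel; positivity)
      (fun x => by unfold Crest.SwitchChain.kernel; rw [if_pos rfl]; simp; positivity)
      (fun x hx => SW.k_row hn hx)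
      (fun x hx y hy => by
        unfold Crest.SwitchChain.kernel
        rw [SW.pc_out hx hy, if_neg fun e : x = y => hy (e ▸ hx)]; simp)
      (γ := 1 / (n : ℝ) ^ 6) (by rw [div_le_one (by positivity)]; exact n6)
      (fun f hf => by
        have g := SW.gap_kernel hn f hf
        have g0 := SW.dirichlet (Ω := Crest.SwitchChain.realizations d) SW.k_symm
          (fun x hx => SW.k_row hn hx) f
        have g1 : 0 ≤ ∑ x ∈ Crest.SwitchChain.realizations d, ∑ y ∈ Crest.SwitchChain.realizations d,
            Crest.SwitchChain.kernel n x y * (f x - f y) ^ 2 :=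
          sum_nonneg fun _ _ => sum_nonneg fun _ _ => by
            unfold Crest.SwitchChain.kernel; positivity
        rw [one_div, inv_mul_le_iff₀ (by positivity)]
        refine g.trans (mul_le_mul_of_nonneg_right ?_ (by linarith))
        calc _ = (n : ℝ) ^ 2 * (24 * n.choose 4) := by ring
          _ ≤ (n : ℝ) ^ 2 * (n : ℝ) ^ 4 := by gcongr
          _ = _ := by ring) hG (2 * n ^ 8)
    unfold Crest.SwitchChain.tvDist Crest.SwitchChain.unifOn
    rw [← sum_subset (subset_univ (Crest.SwitchChain.realizations d)) fun y _ hy => by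
      simp [m1 y hy, hy], sum_congr rfl fun y hy => by rw [if_pos hy]]
    have c := sq_sum_le_card_mul_sum_sq (s := Crest.SwitchChain.realizations d)
      (f := fun y => |(Crest.SwitchChain.kernel n ^ (2 * n ^ 8)) G y -
        1 / (Crest.SwitchChain.realizations d).card|)
    simp only [sq_abs] at c
    have e1 : (1 - 1 / (n : ℝ) ^ 6) ^ (2 * n ^ 8) ≤ Real.exp (-(2 * (n : ℝ) ^ 2)) := by
      calc _ ≤ Real.exp (-(1 / (n : ℝ) ^ 6)) ^ (2 * n ^ 8) :=
            pow_le_pow_left₀ (by rw [sub_nonneg, div_le_one (by positivity)]; exact n6)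
              (by linarith [Real.add_one_le_exp (-(1 / (n : ℝ) ^ 6))]) _
        _ = _ := by
            rw [← Real.exp_nat_mul]; congr 1; push_cast; field_simp
    have e2 : ((Crest.SwitchChain.realizations d).card : ℝ) ≤ Real.exp ((n : ℝ) ^ 2) := by
      have a1 : (Crest.SwitchChain.realizations d).card ≤ 2 ^ (n ^ 2) := by
        refine (card_le_univ _).trans ?_
        rw [Fintype.card_finset]
        refine Nat.pow_le_pow_right (by norm_num) ((Fintype.card_subtype_le _).trans ?_)
        refine (Fintype.card_le_of_surjective (fun p : Fin n × Fin n => s(p.1, p.2))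
          fun e => ?_).trans (by simp [sq])
        induction e using Sym2.ind with
        | _ a b => exact ⟨(a, b), rfl⟩
      calc _ ≤ (2 : ℝ) ^ (n ^ 2) := by exact_mod_cast a1
        _ ≤ Real.exp 1 ^ (n ^ 2) :=
            pow_le_pow_left₀ (by norm_num) (by linarith [Real.add_one_le_exp 1]) _
        _ = _ := by rw [← Real.exp_nat_mul]; congr 1; push_cast; ring
    have e3 : Real.exp ((n : ℝ) ^ 2) * Real.exp (-(2 * (n : ℝ) ^ 2)) ≤ 1 / 4 := by
      rw [← Real.exp_add, show (n : ℝ) ^ 2 + -(2 * (n : ℝ) ^ 2) = -(n : ℝ) ^ 2 by ring,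
        Real.exp_neg, ← one_div]
      exact one_div_le_one_div_of_le (by norm_num)
        (by nlinarith [Real.add_one_le_exp ((n : ℝ) ^ 2)])
    have e4 := mul_le_mul e2 (m3.trans e1) (sum_nonneg fun _ _ => sq_nonneg _) (Real.exp_pos _).le
    have e5 := abs_le_of_sq_le_sq' ((c.trans e4).trans (e3.trans_eq (by norm_num : (1 : ℝ) / 4 = (1 / 2) ^ 2)))
      (by norm_num)
    linarith [e5.2]
  · intro f
    rw [SW.var_eq _ hd]
    set c := (∑ G ∈ Crest.SwitchChain.realizations d, f G) / (Crest.SwitchChain.realizations d).card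
      with hcd
    have g := SW.gap_kernel hn (d := d) (fun G => f G - c) (by
      simp only [sum_sub_distrib, sum_const, nsmul_eq_mul, hcd]; field_simp; ring)
    have g0 := SW.dirichlet (Ω := Crest.SwitchChain.realizations d) SW.k_symm
      (fun x hx => SW.k_row hn hx) f
    have g1 := SW.dirichlet (Ω := Crest.SwitchChain.realizations d) SW.k_symm
      (fun x hx => SW.k_row hn hx) fun G => f G - c
    simp only [sub_sub_sub_cancel_right] at g1
    rw [← g0] at g1
    rw [mul_left_cancel₀ two_ne_zero g1] at g
    have := mul_le_mul_of_nonneg_left g hN.le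
    linarith

end Crest.Agent.S0453
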