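import Crest.Statements.S0535
import Crest.Agent.QEnt.Prod

set_option autoImplicit false
open Crest.Quantum Crest.MathPhysics.AmpDamp
open Crest Crest.MathPhysics

namespace Crest.Agent.S0535

/-- Tensor the generalized amplitude-damping qubit channel (parameters in `[0, 1]`) with any channel `Ψ` between nonzero finite-dimensional systems (linear, completely positive, trace preserving): Holevo capacity and minimum output entropy (nats) are additive: each ensemble for the product map is matched, up to any `ε > 0`, by ensembles for the two factors whose Holevo informations add up to at least as much, and conversely; likewise, reversed, for output entropies of single states. -/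
theorem result (γ ν : ℝ)
    (hγ : γ ∈ Set.Icc (0 : ℝ) 1) (hν : ν ∈ Set.Icc (0 : ℝ) 1)
    (d e : Type) [Fintype d] [Fintype e] [DecidableEq d] [DecidableEq e] [Nonempty d] [Nonempty e]
    (Ψ : Matrix d d ℂ → Matrix e e ℂ) (hΨ : IsChannel Ψ) :
    (∀ (m : ℕ) (q : Fin m → ℝ) (ρ : Fin m → Matrix (Bool × d) (Bool × d) ℂ), IsEnsemble q ρ →
      ∀ ε > (0 : ℝ), ∃ (m₁ : ℕ) (q₁ : Fin m₁ → ℝ) (ρ₁ : Fin m₁ → Matrix Bool Bool ℂ)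
        (m₂ : ℕ) (q₂ : Fin m₂ → ℝ) (ρ₂ : Fin m₂ → Matrix d d ℂ),
        IsEnsemble q₁ ρ₁ ∧ IsEnsemble q₂ ρ₂ ∧
          holevoInfo (qubitTensor (gadMap γ ν) Ψ) q ρ ≤
            holevoInfo (gadMap γ ν) q₁ ρ₁ + holevoInfo Ψ q₂ ρ₂ + ε) ∧
    (∀ (m₁ : ℕ) (q₁ : Fin m₁ → ℝ) (ρ₁ : Fin m₁ → Matrix Bool Bool ℂ)
      (m₂ : ℕ) (q₂ : Fin m₂ → ℝ) (ρ₂ : Fin m₂ → Matrix d d ℂ), IsEnsemble q₁ ρ₁ → IsEnsemble q₂ ρ₂ →
      ∃ (m : ℕ) (q : Fin m → ℝ) (ρ : Fin m → Matrix (Bool × d) (Bool × d) ℂ), IsEnsemble q ρ ∧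
        holevoInfo (gadMap γ ν) q₁ ρ₁ + holevoInfo Ψ q₂ ρ₂ ≤
          holevoInfo (qubitTensor (gadMap γ ν) Ψ) q ρ) ∧
    (∀ ρ : Matrix (Bool × d) (Bool × d) ℂ, IsDensity ρ → ∀ ε > (0 : ℝ),
      ∃ (ρ₁ : Matrix Bool Bool ℂ) (ρ₂ : Matrix d d ℂ), IsDensity ρ₁ ∧ IsDensity ρ₂ ∧
        vnEntropy (gadMap γ ν ρ₁) + vnEntropy (Ψ ρ₂) ≤ vnEntropy (qubitTensor (gadMap γ ν) Ψ ρ) + ε) ∧
    (∀ (ρ₁ : Matrix Bool Bool ℂ) (ρ₂ : Matrix d d ℂ), IsDensity ρ₁ → IsDensity ρ₂ →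
      ∃ ρ : Matrix (Bool × d) (Bool × d) ℂ, IsDensity ρ ∧
        vnEntropy (qubitTensor (gadMap γ ν) Ψ ρ) ≤ vnEntropy (gadMap γ ν ρ₁) + vnEntropy (Ψ ρ₂)) := by
  have h := QEnt.good_of_channel hΨ
  refine ⟨fun m q ρ hE ε hε => ?_, fun m₁ q₁ ρ₁ m₂ q₂ ρ₂ h1 h2 => ?_, fun ρ hρ ε hε => ?_,
    fun ρ₁ ρ₂ h1 h2 => ?_⟩
  · obtain ⟨p, hp, q', ρ', hE', hle⟩ := QEnt.chi_upper hγ hν h (q := q) (ρ := ρ) hE
    obtain ⟨q₁, ρ₁, hE1, e1⟩ := QEnt.rate_achieved hγ hν hp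
    obtain ⟨m₁, q₁', ρ₁', hF1, f1⟩ := QEnt.to_fin (e := Bool) hE1
    obtain ⟨m₂, q₂', ρ₂', hF2, f2⟩ := QEnt.to_fin (e := e) hE'
    refine ⟨m₁, q₁', ρ₁', m₂, q₂', ρ₂', hF1, hF2, ?_⟩
    rw [f1, f2, e1, QEnt.hol_eq]
    linarith
  · obtain ⟨hE, e1⟩ := QEnt.hol_prod hγ hν h (q₁ := q₁) (ρ₁ := ρ₁) (q₂ := q₂) (ρ₂ := ρ₂) h1 h2
    obtain ⟨m, q, ρ, hF, f⟩ := QEnt.to_fin (e := Bool × e) hE
    refine ⟨m, q, ρ, hF, ?_⟩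
    rw [f, e1, QEnt.hol_eq, QEnt.hol_eq]
  · obtain ⟨ρ₁, ρ₂, h1, h2, hle⟩ := QEnt.smin_lower hγ hν h hρ
    refine ⟨ρ₁, ρ₂, h1, h2, ?_⟩
    simp only [QEnt.vn_eq]
    linarith
  · refine ⟨_, QEnt.dens_kron h1 h2, ?_⟩
    simp only [QEnt.vn_eq]
    exact (QEnt.Sn_prod hγ hν h h1 h2).le

end Crest.Agent.S0535
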